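import Vale.Agent.P021.Count

/-! Analytic upper bounds for interpolation determinants. -/

namespace Vale.Agent.P021

open MvPolynomial

theorem det_rows_sum {ι κ : Type*} [Fintype ι] [DecidableEq ι] [Fintype κ]
    (l : ι → κ → ℂ) (v : ι → κ → ι → ℂ) :
    (Matrix.of fun a c => ∑ k, l a k * v a k c).det =
      ∑ f : ι → κ, (∏ a, l a (f a)) * (Matrix.of fun a c => v a (f a) c).det := by
  have h : (Matrix.of fun a c => ∑ k, l a k * v a k c) = fun a => ∑ k, l a k • v a k := by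
    ext a c
    simp [Finset.sum_apply]
  have h1 := (Matrix.detRowAlternating (n := ι) (R := ℂ)).toMultilinearMap.map_sum
    (fun a k => l a k • v a k)
  rw [h]
  refine h1.trans (Finset.sum_congr rfl fun f _ => ?_)
  exact (Matrix.detRowAlternating (n := ι) (R := ℂ)).toMultilinearMap.map_smul_univ
    (fun a => l a (f a)) (fun a => v a (f a))

theorem norm_det_le {ι : Type*} [Fintype ι] [DecidableEq ι] (M : Matrix ι ι ℂ) (u v : ι → ℝ)
    (h : ∀ a c, ‖M a c‖ ≤ u a * v c) :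
    ‖M.det‖ ≤ ((Fintype.card ι).factorial : ℝ) * ((∏ a, u a) * ∏ c, v c) := by
  rw [Matrix.det_apply']
  refine (norm_sum_le _ _).trans ?_
  have : ∀ s : Equiv.Perm ι, ‖((Equiv.Perm.sign s : ℤ) : ℂ) * ∏ i, M (s i) i‖ ≤
      (∏ a, u a) * ∏ c, v c := by
    intro s
    have h1 : ‖((Equiv.Perm.sign s : ℤ) : ℂ)‖ = 1 := by
      rcases Int.units_eq_one_or (Equiv.Perm.sign s) with h | h <;> simp [h]
    rw [norm_mul, h1, one_mul, norm_prod, ← Equiv.prod_comp s u, ← Finset.prod_mul_distrib]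
    exact Finset.prod_le_prod (fun _ _ => norm_nonneg _) fun i _ => h _ _
  refine (Finset.sum_le_sum fun s _ => this s).trans ?_
  simp [Fintype.card_perm]

theorem root_sum {M : ℕ} {w : ℂ} (hw : IsPrimitiveRoot w M) {a b : ℕ} (ha : a < M) (hb : b < M) :
    ∑ k : Fin M, (w⁻¹ ^ (k : ℕ)) ^ a * (w ^ (k : ℕ)) ^ b = if b = a then (M : ℂ) else 0 := by
  have hM : M ≠ 0 := by omega
  have hw0 : w ≠ 0 := hw.ne_zero hM
  have e : ∀ k : ℕ, (w⁻¹ ^ k) ^ a * (w ^ k) ^ b = ((w ^ a)⁻¹ * w ^ b) ^ k := by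
    intro k
    rw [mul_pow, ← inv_pow, ← pow_mul, ← pow_mul, ← pow_mul, ← pow_mul, mul_comm k a, mul_comm k b]
  simp only [e]
  rw [Fin.sum_univ_eq_sum_range (fun k => ((w ^ a)⁻¹ * w ^ b) ^ k) M]
  split_ifs with h
  · subst h
    simp [inv_mul_cancel₀ (pow_ne_zero b hw0)]
  · have h1 : (w ^ a)⁻¹ * w ^ b ≠ 1 := by
      intro h1
      rw [inv_mul_eq_one₀ (pow_ne_zero a hw0)] at h1
      exact h (hw.pow_inj hb ha h1.symm)
    have h2 : ((w ^ a)⁻¹ * w ^ b) ^ M = 1 := by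
      rw [mul_pow, inv_pow, ← pow_mul, ← pow_mul, mul_comm a, mul_comm b, pow_mul, pow_mul,
        hw.pow_eq_one]
      simp
    rw [geom_sum_eq h1, h2]
    simp

theorem coeff_average {σ : Type*} [Fintype σ] [DecidableEq σ] {M : ℕ} {w : ℂ}
    (hw : IsPrimitiveRoot w M) (p : MvPolynomial σ ℂ) (α : σ →₀ ℕ) (r : σ → ℝ)
    (hα : ∀ i, α i < M) (hp : ∀ β ∈ p.support, ∀ i, β i < M) :
    ∑ k : σ → Fin M, (∏ i, (w⁻¹ ^ (k i : ℕ)) ^ α i) * eval (fun i => (r i : ℂ) * w ^ (k i : ℕ)) p =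
      (M : ℂ) ^ Fintype.card σ * (∏ i, (r i : ℂ) ^ α i) * coeff α p := by
  simp only [eval_eq', Finset.mul_sum]
  rw [Finset.sum_comm]
  have key : ∀ β ∈ p.support, ∑ k : σ → Fin M, (∏ i, (w⁻¹ ^ (k i : ℕ)) ^ α i) *
      (coeff β p * ∏ i, ((r i : ℂ) * w ^ (k i : ℕ)) ^ β i) =
      if β = α then (M : ℂ) ^ Fintype.card σ * (∏ i, (r i : ℂ) ^ α i) * coeff α p else 0 := by
    intro β hβ
    have h1 : ∀ k : σ → Fin M, (∏ i, (w⁻¹ ^ (k i : ℕ)) ^ α i) *
        (coeff β p * ∏ i, ((r i : ℂ) * w ^ (k i : ℕ)) ^ β i) =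
        (coeff β p * ∏ i, (r i : ℂ) ^ β i) *
          ∏ i, ((w⁻¹ ^ (k i : ℕ)) ^ α i * (w ^ (k i : ℕ)) ^ β i) := by
      intro k
      simp only [mul_pow, Finset.prod_mul_distrib]
      ring
    simp only [h1]
    rw [← Finset.mul_sum, ← Fintype.piFinset_univ,
      ← Finset.prod_univ_sum (fun _ : σ => (Finset.univ : Finset (Fin M)))
        (fun i k => (w⁻¹ ^ (k : ℕ)) ^ α i * (w ^ (k : ℕ)) ^ β i)]
    simp only [root_sum hw (hα _) (hp β hβ _)]
    split_ifs with h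
    · subst h
      simp
      ring
    · obtain ⟨i, hi⟩ : ∃ i, β i ≠ α i := by
        by_contra hc
        push Not at hc
        exact h (Finsupp.ext hc)
      exact mul_eq_zero_of_right _ (Finset.prod_eq_zero (Finset.mem_univ i) (if_neg hi))
  rw [Finset.sum_congr rfl key, Finset.sum_ite_eq']
  split_ifs with h
  · rfl
  · rw [notMem_support_iff.1 h, mul_zero]

theorem det_coeff_bound {σ ι : Type*} [Fintype σ] [Fintype ι] [DecidableEq ι]
    (p : ι → ι → MvPolynomial σ ℂ) (α : ι → σ →₀ ℕ) (r : σ → ℝ) (hr : ∀ i, 0 < r i) (B : ℝ)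
    (hB : ∀ x : ι → σ → ℂ, (∀ a i, ‖x a i‖ = r i) →
      ‖(Matrix.of fun a c => eval (x a) (p a c)).det‖ ≤ B) :
    ‖(Matrix.of fun a c => coeff (α a) (p a c)).det‖ * ∏ a, ∏ i, r i ^ α a i ≤ B := by
  classical
  obtain ⟨M, hM0, hM1, hM2⟩ : ∃ M : ℕ, 0 < M ∧ (∀ a i, α a i < M) ∧
      ∀ a c, ∀ β ∈ (p a c).support, ∀ i, β i < M := by
    refine ⟨(∑ a, ∑ i, α a i) + (∑ a, ∑ c, (p a c).totalDegree) + 1, by omega, ?_, ?_⟩
    · intro a i
      have h1 : α a i ≤ ∑ i, α a i :=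
        Finset.single_le_sum (f := fun i => α a i) (fun _ _ => Nat.zero_le _) (Finset.mem_univ i)
      have h2 : ∑ i, α a i ≤ ∑ a, ∑ i, α a i :=
        Finset.single_le_sum (f := fun a => ∑ i, α a i) (fun _ _ => Nat.zero_le _)
          (Finset.mem_univ a)
      omega
    · intro a c β hβ i
      have h0 : β i ≤ (p a c).totalDegree :=
        (monomial_le_degreeOf i hβ).trans (degreeOf_le_totalDegree _ _)
      have h1 : (p a c).totalDegree ≤ ∑ c, (p a c).totalDegree :=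
        Finset.single_le_sum (f := fun c => (p a c).totalDegree) (fun _ _ => Nat.zero_le _)
          (Finset.mem_univ c)
      have h2 : ∑ c, (p a c).totalDegree ≤ ∑ a, ∑ c, (p a c).totalDegree :=
        Finset.single_le_sum (f := fun a => ∑ c, (p a c).totalDegree) (fun _ _ => Nat.zero_le _)
          (Finset.mem_univ a)
      omega
  have hw := Complex.isPrimitiveRoot_exp M hM0.ne'
  set w := Complex.exp (2 * Real.pi * Complex.I / M)
  have hw1 : ‖w‖ = 1 := hw.norm'_eq_one hM0.ne'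
  have h1 := det_rows_sum (κ := σ → Fin M) (fun a k => ∏ i, (w⁻¹ ^ (k i : ℕ)) ^ α a i)
    (fun a k c => eval (fun i => (r i : ℂ) * w ^ (k i : ℕ)) (p a c))
  simp only [coeff_average hw _ _ r (hM1 _) (hM2 _ _)] at h1
  have h2 : (Matrix.of fun a c => (M : ℂ) ^ Fintype.card σ * (∏ i, (r i : ℂ) ^ α a i) *
      coeff (α a) (p a c)).det = (∏ a, ((M : ℂ) ^ Fintype.card σ * ∏ i, (r i : ℂ) ^ α a i)) *
      (Matrix.of fun a c => coeff (α a) (p a c)).det :=
    Matrix.det_mul_column _ (Matrix.of fun a c => coeff (α a) (p a c))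
  rw [h2] at h1
  have h3 := congrArg norm h1
  have h4 : ‖∑ f : ι → σ → Fin M, (∏ a, ∏ i, (w⁻¹ ^ (f a i : ℕ)) ^ α a i) *
      (Matrix.of fun a c => eval (fun i => (r i : ℂ) * w ^ (f a i : ℕ)) (p a c)).det‖ ≤
      ((M : ℝ) ^ Fintype.card σ) ^ Fintype.card ι * B := by
    refine (norm_sum_le _ _).trans ((Finset.sum_le_sum (g := fun _ => B) fun f _ => ?_).trans ?_)
    · rw [norm_mul]
      simp only [norm_prod, norm_pow, norm_inv, hw1, inv_one, one_pow, Finset.prod_const_one,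
        one_mul]
      exact hB _ fun a i => by simp [hw1, abs_of_pos (hr i)]
    · simp
  rw [← h3, norm_mul] at h4
  simp only [norm_prod, norm_mul, norm_pow, Complex.norm_natCast, Complex.norm_real,
    Real.norm_eq_abs, abs_of_pos (hr _), Finset.prod_mul_distrib, Finset.prod_const,
    Finset.card_univ] at h4
  have h5 : (0 : ℝ) < ((M : ℝ) ^ Fintype.card σ) ^ Fintype.card ι := by positivity
  rw [mul_assoc] at h4
  rw [mul_comm]
  exact le_of_mul_le_mul_left h4 h5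

theorem sum_half_pow_le {σ : Type*} [Fintype σ] (U : Finset (σ →₀ ℕ)) :
    ∑ β ∈ U, ∏ i, (1 / 2 : ℝ) ^ β i ≤ 2 ^ Fintype.card σ := by
  classical
  set D := (∑ β ∈ U, ∑ i, β i) + 1
  have h1 : ∑ β ∈ U, ∏ i, (1 / 2 : ℝ) ^ β i ≤
      ∑ t ∈ Fintype.piFinset (fun _ : σ => Finset.range D), ∏ i, (1 / 2 : ℝ) ^ t i := by
    rw [← Finset.sum_image (s := U) (g := fun β : σ →₀ ℕ => (β : σ → ℕ))
      (f := fun t : σ → ℕ => ∏ i, (1 / 2 : ℝ) ^ t i) (fun _ _ _ _ h => DFunLike.coe_injective h)]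
    refine Finset.sum_le_sum_of_subset_of_nonneg ?_ fun _ _ _ => by positivity
    intro t ht
    obtain ⟨β, hβ, rfl⟩ := Finset.mem_image.1 ht
    rw [Fintype.mem_piFinset]
    intro i
    have h1 : β i ≤ ∑ i, β i :=
      Finset.single_le_sum (f := fun i => β i) (fun _ _ => Nat.zero_le _) (Finset.mem_univ i)
    have h2 : ∑ i, β i ≤ ∑ β ∈ U, ∑ i, β i :=
      Finset.single_le_sum (f := fun β : σ →₀ ℕ => ∑ i, β i) (fun _ _ => Nat.zero_le _) hβ
    rw [Finset.mem_range]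
    omega
  refine h1.trans ?_
  rw [← Finset.prod_univ_sum (fun _ : σ => Finset.range D) (fun _ k => (1 / 2 : ℝ) ^ k)]
  simp only [Finset.prod_const, Finset.card_univ]
  exact pow_le_pow_left₀ (Finset.sum_nonneg fun _ _ => by positivity) (sum_geometric_two_le D) _

theorem sum_wt_ge {σ ι : Type*} [Fintype σ] [Fintype ι] {lam : σ → ℝ} (hlam : ∀ i, 0 < lam i)
    {Λ : ℝ} (hΛ : 0 ≤ Λ) (f : ι → σ →₀ ℕ) (hf : Function.Injective f) :
    ((Fintype.card ι : ℝ) - cnt lam Λ) * Λ ≤ ∑ a, wt lam (f a) := by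
  classical
  set T := Finset.univ.filter fun a => wt lam (f a) < Λ
  have h1 : T.card ≤ cnt lam Λ := by
    rw [← Set.ncard_coe_finset]
    exact Set.ncard_le_ncard_of_injOn f (fun a ha => (Finset.mem_filter.1 ha).2) hf.injOn
      (finite_wt_lt hlam Λ)
  have h2 : ∑ a ∈ Tᶜ, Λ ≤ ∑ a ∈ Tᶜ, wt lam (f a) :=
    Finset.sum_le_sum fun a ha => by simpa [T] using ha
  have h3 : ∑ a ∈ Tᶜ, wt lam (f a) ≤ ∑ a, wt lam (f a) :=
    Finset.sum_le_sum_of_subset_of_nonneg (Finset.subset_univ _) fun _ _ _ => wt_nonneg hlam _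
  rw [Finset.sum_const, Finset.card_compl, nsmul_eq_mul,
    Nat.cast_sub (Finset.card_le_univ T)] at h2
  have h4 : (T.card : ℝ) ≤ cnt lam Λ := by exact_mod_cast h1
  nlinarith

theorem det_poly_bound {σ ι : Type*} [Fintype σ] [Fintype ι] [DecidableEq ι]
    (P : ι → MvPolynomial σ ℂ) (x : ι → σ → ℂ) (r : σ → ℝ) (hr : ∀ i, 0 < r i) (K : ι → ℝ)
    (hK : ∀ c, ∀ y : σ → ℂ, (∀ i, ‖y i‖ = r i) → ‖eval y (P c)‖ ≤ K c) (Λ : ℝ) (hΛ : 0 ≤ Λ)
    (lam : σ → ℝ) (hlam : ∀ i, 0 < lam i) (hx : ∀ a i, 2 * ‖x a i‖ ≤ r i * Real.exp (-lam i)) :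
    ‖(Matrix.of fun a c => eval (x a) (P c)).det‖ ≤
      ((Fintype.card ι).factorial : ℝ) * 2 ^ (Fintype.card σ * Fintype.card ι) *
        Real.exp (-(((Fintype.card ι : ℝ) - cnt lam Λ) * Λ)) * ∏ c, K c := by
  classical
  have hK0 : ∀ c, 0 ≤ K c := fun c =>
    (norm_nonneg _).trans (hK c (fun i => (r i : ℂ)) fun i => by simp [abs_of_pos (hr i)])
  have hc : ∀ c β, ‖coeff β (P c)‖ ≤ (∏ i, r i ^ β i)⁻¹ * K c := by
    intro c β
    have := det_coeff_bound (ι := Unit) (fun _ _ => P c) (fun _ => β) r hr (K c)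
      fun y hy => by simpa using hK c (y default) (hy default)
    have h0 : 0 < ∏ i, r i ^ β i := Finset.prod_pos fun i _ => pow_pos (hr i) _
    rw [le_inv_mul_iff₀ h0, mul_comm]
    simpa using this
  set U : Finset (σ →₀ ℕ) := Finset.univ.biUnion fun c => (P c).support
  have hev : ∀ a c, eval (x a) (P c) = ∑ β : U, (∏ i, x a i ^ β.1 i) * coeff β.1 (P c) := by
    intro a c
    rw [eval_eq', Finset.sum_coe_sort U (fun β => (∏ i, x a i ^ β i) * coeff β (P c))]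
    simp only [mul_comm (coeff _ _)]
    refine Finset.sum_subset (Finset.subset_biUnion_of_mem (fun c => (P c).support)
      (Finset.mem_univ c)) fun β _ hβ => ?_
    rw [notMem_support_iff.1 hβ, mul_zero]
  simp only [hev]
  rw [det_rows_sum (fun a (β : U) => ∏ i, x a i ^ β.1 i) (fun _ β c => coeff β.1 (P c))]
  set Q := ((Fintype.card ι).factorial : ℝ) *
    Real.exp (-(((Fintype.card ι : ℝ) - cnt lam Λ) * Λ)) * ∏ c, K c with hQ
  have hKp : 0 ≤ ∏ c, K c := Finset.prod_nonneg fun c _ => hK0 c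
  have hQ0 : 0 ≤ Q := by positivity
  have key : ∀ f : ι → U, ‖(∏ a, ∏ i, x a i ^ (f a).1 i) *
      (Matrix.of fun a c => coeff (f a).1 (P c)).det‖ ≤ Q * ∏ a, ∏ i, (1 / 2 : ℝ) ^ (f a).1 i := by
    intro f
    by_cases hf : Function.Injective f
    · have h1 := norm_det_le (Matrix.of fun a c => coeff (f a).1 (P c))
        (fun a => (∏ i, r i ^ (f a).1 i)⁻¹) K fun a c => hc c _
      have h2 : ∀ a, ‖∏ i, x a i ^ (f a).1 i‖ * (∏ i, r i ^ (f a).1 i)⁻¹ ≤
          Real.exp (-wt lam (f a).1) * ∏ i, (1 / 2 : ℝ) ^ (f a).1 i := by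
        intro a
        rw [wt, ← Finset.sum_neg_distrib, Real.exp_sum, norm_prod, ← Finset.prod_inv_distrib,
          ← Finset.prod_mul_distrib, ← Finset.prod_mul_distrib]
        refine Finset.prod_le_prod (fun i _ => by have := hr i; positivity) fun i _ => ?_
        rw [norm_pow, ← inv_pow, ← mul_pow, neg_mul_eq_mul_neg, Real.exp_nat_mul, ← mul_pow]
        refine pow_le_pow_left₀ (by have := hr i; positivity) ?_ _
        rw [mul_inv_le_iff₀ (hr i)]
        linarith [hx a i]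
      have h3 : ∏ a, Real.exp (-wt lam (f a).1) ≤
          Real.exp (-(((Fintype.card ι : ℝ) - cnt lam Λ) * Λ)) := by
        rw [← Real.exp_sum, Finset.sum_neg_distrib, Real.exp_le_exp, neg_le_neg_iff]
        exact sum_wt_ge hlam hΛ (fun a => (f a).1) (Subtype.val_injective.comp hf)
      have h4 : ∏ a, (‖∏ i, x a i ^ (f a).1 i‖ * (∏ i, r i ^ (f a).1 i)⁻¹) ≤
          ∏ a, (Real.exp (-wt lam (f a).1) * ∏ i, (1 / 2 : ℝ) ^ (f a).1 i) :=
        Finset.prod_le_prod (fun a _ => mul_nonneg (norm_nonneg _)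
          (inv_nonneg.2 (Finset.prod_nonneg fun i _ => (pow_pos (hr i) _).le))) fun a _ => h2 a
      rw [Finset.prod_mul_distrib, Finset.prod_mul_distrib] at h4
      rw [norm_mul, norm_prod]
      have p1 : 0 ≤ ∏ a, ‖∏ i, x a i ^ (f a).1 i‖ := by positivity
      have p2 : 0 ≤ ∏ a, ∏ i, (1 / 2 : ℝ) ^ (f a).1 i := by positivity
      calc _ ≤ (∏ a, ‖∏ i, x a i ^ (f a).1 i‖) * (((Fintype.card ι).factorial : ℝ) *
            ((∏ a, (∏ i, r i ^ (f a).1 i)⁻¹) * ∏ c, K c)) := mul_le_mul_of_nonneg_left h1 p1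
        _ = ((Fintype.card ι).factorial : ℝ) * (∏ c, K c) * ((∏ a, ‖∏ i, x a i ^ (f a).1 i‖) *
            ∏ a, (∏ i, r i ^ (f a).1 i)⁻¹) := by ring
        _ ≤ ((Fintype.card ι).factorial : ℝ) * (∏ c, K c) *
            (Real.exp (-(((Fintype.card ι : ℝ) - cnt lam Λ) * Λ)) *
              ∏ a, ∏ i, (1 / 2 : ℝ) ^ (f a).1 i) :=
            mul_le_mul_of_nonneg_left (h4.trans (mul_le_mul_of_nonneg_right h3 p2))
              (by positivity)
        _ = _ := by rw [hQ]; ring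
    · obtain ⟨a, b, hab, hne⟩ := Function.not_injective_iff.1 hf
      rw [Matrix.det_zero_of_row_eq hne (by funext c; simp [hab]), mul_zero, norm_zero]
      positivity
  refine (norm_sum_le _ _).trans ((Finset.sum_le_sum fun f _ => key f).trans ?_)
  rw [← Finset.mul_sum, ← Fintype.piFinset_univ,
    ← Finset.prod_univ_sum (fun _ : ι => (Finset.univ : Finset U))
      (fun _ β => ∏ i, (1 / 2 : ℝ) ^ β.1 i),
    Finset.sum_coe_sort U (fun β => ∏ i, (1 / 2 : ℝ) ^ β i), Finset.prod_const, Finset.card_univ]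
  have h5 : (∑ β ∈ U, ∏ i, (1 / 2 : ℝ) ^ β i) ^ Fintype.card ι ≤
      2 ^ (Fintype.card σ * Fintype.card ι) := by
    rw [pow_mul]
    exact pow_le_pow_left₀ (by positivity) (sum_half_pow_le U) _
  calc _ ≤ Q * 2 ^ (Fintype.card σ * Fintype.card ι) := mul_le_mul_of_nonneg_left h5 hQ0
    _ = _ := by rw [hQ]; ring

theorem det_point_bound {m : ℕ} {ι : Type*} [Fintype ι] [DecidableEq ι]
    (e : ι → Option (Fin m) →₀ ℕ) (z : ι → ℂ) (ζ : ι → Fin m → ℂ) (R Λ : ℝ) (hR : 0 < R)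
    (hΛ : 0 ≤ Λ) (lam : Option (Fin m) → ℝ) (hlam : ∀ i, 0 < lam i)
    (hz : ∀ a, 2 * ‖z a‖ ≤ R * Real.exp (-lam none))
    (hζ : ∀ a i, 2 * ‖ζ a i‖ ≤ Real.exp (-lam (some i))) :
    ‖(Matrix.of fun a c =>
        Complex.exp ((e c none : ℂ) * z a) * ∏ i, (z a + ζ a i) ^ e c (some i)).det‖ ≤
      ((Fintype.card ι).factorial : ℝ) * 2 ^ ((m + 1) * Fintype.card ι) *
        Real.exp (-(((Fintype.card ι : ℝ) - cnt lam Λ) * Λ)) *
        ∏ c, (Real.exp ((e c none : ℝ) * R) * ∏ i, (R + 1) ^ e c (some i)) := by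
  let P : ℕ → ι → MvPolynomial (Option (Fin m)) ℂ := fun S c =>
    (∑ s ∈ Finset.range S, C (((e c none : ℂ)) ^ s / (s.factorial : ℂ)) * X none ^ s) *
      ∏ i, (X none + X (some i)) ^ e c (some i)
  have hP : ∀ S c (y : Option (Fin m) → ℂ), eval y (P S c) =
      (∑ s ∈ Finset.range S, ((e c none : ℂ) * y none) ^ s / (s.factorial : ℂ)) *
        ∏ i, (y none + y (some i)) ^ e c (some i) := by
    intro S c y
    simp only [P, map_mul, map_sum, map_prod, map_pow, map_add, eval_C, eval_X]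
    congr 1
    refine Finset.sum_congr rfl fun s _ => ?_
    rw [mul_pow]
    ring
  have hb := fun S => det_poly_bound (P S) (fun a o => o.elim (z a) (ζ a))
    (fun o => o.elim R fun _ => 1) (by rintro (_ | i) <;> simp [hR])
    (fun c => Real.exp ((e c none : ℝ) * R) * ∏ i, (R + 1) ^ e c (some i))
    (by
      intro c y hy
      have h0 : ‖y none‖ = R := hy none
      have h1 : ∀ i, ‖y (some i)‖ = 1 := fun i => hy (some i)
      rw [hP, norm_mul, norm_prod]
      refine mul_le_mul ?_ (Finset.prod_le_prod (fun _ _ => norm_nonneg _) fun i _ => ?_)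
        (by positivity) (by positivity)
      · refine (norm_sum_le _ _).trans ?_
        simp only [norm_div, norm_pow, norm_mul, Complex.norm_natCast, h0]
        exact Real.sum_le_exp_of_nonneg (by positivity) S
      · rw [norm_pow]
        refine pow_le_pow_left₀ (norm_nonneg _) ((norm_add_le _ _).trans ?_) _
        rw [h0, h1]) Λ hΛ lam hlam
    (by
      rintro a (_ | i)
      · exact hz a
      · simpa using hζ a i)
  simp only [hP, Fintype.card_option, Fintype.card_fin, Option.elim_none, Option.elim_some] at hb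
  refine le_of_tendsto' (f := fun S => ‖(Matrix.of fun a c =>
    (∑ s ∈ Finset.range S, ((e c none : ℂ) * z a) ^ s / (s.factorial : ℂ)) *
        ∏ i, (z a + ζ a i) ^ e c (some i)).det‖) (x := Filter.atTop) ?_ hb
  refine (continuous_norm.tendsto _).comp
    (((continuous_id (X := Matrix ι ι ℂ)).matrix_det.tendsto _).comp ?_)
  refine tendsto_pi_nhds.2 fun a => tendsto_pi_nhds.2 fun c => ?_
  refine Filter.Tendsto.mul_const _ ?_
  rw [Complex.exp_eq_exp_ℂ]
  exact (NormedSpace.expSeries_div_hasSum_exp _).tendsto_sum_nat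

end Vale.Agent.P021
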