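import Vale.Agent.P021.RothC

/-! The geometric Roth lemma: small index along a prime ideal. -/

namespace Vale.Agent.P021

open MvPolynomial

theorem der_leib {m : ℕ} (c : Fin m → ℂ) (o : Option (Fin m)) (f g : Rg m) :
    der c o (f * g) = der c o f * g + f * der c o g := by
  cases o with
  | none =>
    change mkDerivation ℂ _ (f * g) = mkDerivation ℂ _ f * g + f * mkDerivation ℂ _ g
    rw [Derivation.leibniz, smul_eq_mul, smul_eq_mul]
    ring
  | some i => exact pderiv_mul

theorem der_C {m : ℕ} (c : Fin m → ℂ) (o : Option (Fin m)) (a : ℂ) : der c o (C a) = 0 := by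
  cases o with
  | none => exact derivation_C _ a
  | some i => exact pderiv_C

theorem der_none_X_none {m : ℕ} (c : Fin m → ℂ) : der c none (X none) = X none :=
  mkDerivation_X _ _ _

theorem der_none_X_some {m : ℕ} (c : Fin m → ℂ) (i : Fin m) :
    der c none (X (some i)) = C (c i) :=
  mkDerivation_X _ _ _

theorem der_some {m : ℕ} (c : Fin m → ℂ) (i : Fin m) (f : Rg m) :
    der c (some i) f = pderiv (some i) f := rfl

/-- The substitution `x i = ξ i + c i * w`. -/
noncomputable def phi {m : ℕ} (c : Fin m → ℂ) : Rg m →ₐ[ℂ] Rt m :=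
  aeval fun o : Option (Fin m) =>
    o.elim (X none) (fun i => X (some i) + C (Polynomial.C (c i) * Polynomial.X))

theorem XT_C {m : ℕ} (o : Option (Fin m)) (a : Polynomial ℂ) :
    XT o (C a : Rt m) = o.elim (C (Polynomial.derivative a)) (fun _ => 0) := by
  classical
  cases o with
  | some i => rw [XT_some]; exact pderiv_C
  | none =>
    ext1 α
    rw [coeff_XT_none]
    simp only [Option.elim, coeff_C]
    split_ifs with h
    · subst h; simp
    · simp

theorem XT_none_X_none {m : ℕ} : XT none (X none : Rt m) = X none := by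
  classical
  ext1 α
  rw [coeff_XT_none, coeff_X]
  split_ifs with h
  · subst h; simp
  · simp

theorem phi_C {m : ℕ} (c : Fin m → ℂ) (a : ℂ) : phi c (C a) = C (Polynomial.C a) := by
  simp [phi]

theorem XT_phi {m : ℕ} (c : Fin m → ℂ) (o : Option (Fin m)) (f : Rg m) :
    XT o (phi c f) = phi c (der c o f) := by
  classical
  induction f using MvPolynomial.induction_on with
  | C a => rw [der_C, map_zero, phi_C, XT_C]; cases o <;> simp
  | add p q hp hq => simp only [map_add, hp, hq]
  | mul_X p o' hp =>
    rw [map_mul, XT_leib, der_leib, map_add, map_mul, map_mul, hp]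
    congr 2
    cases o with
    | none =>
      cases o' with
      | none => rw [der_none_X_none]; simp [phi, XT_none_X_none]
      | some i =>
        rw [der_none_X_some, phi_C]
        simp only [phi, aeval_X, Option.elim, map_add, XT_C]
        rw [XT_X none i (by simp)]
        simp
    | some j =>
      rw [der_some, XT_some]
      cases o' with
      | none => simp [phi]
      | some i =>
        simp only [phi, aeval_X, Option.elim, map_add, pderiv_C, pderiv_X]
        by_cases h : i = j
        · subst h; simp
        · simp [h]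

theorem wordAct_phi {m : ℕ} (c : Fin m → ℂ) (β : List (Option (Fin m))) (f : Rg m) :
    wordAct XT β (phi c f) = phi c (wordAct (der c) β f) := by
  induction β generalizing f with
  | nil => rfl
  | cons o β ih => rw [wordAct_cons, wordAct_cons, XT_phi, ih]

theorem phi_ne_zero {m : ℕ} (c : Fin m → ℂ) {f : Rg m} (hf : f ≠ 0) : phi c f ≠ 0 := by
  let χ : Rt m →+* Rg m := eval₂Hom (C.comp (Polynomial.evalRingHom 0)) X
  have h : χ.comp (phi c).toRingHom = RingHom.id _ := by
    apply ringHom_ext
    · intro a
      simp [χ, phi]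
    · intro o
      cases o <;> simp [χ, phi]
  intro h0
  apply hf
  have := RingHom.congr_fun h f
  simp only [RingHom.comp_apply, RingHom.id_apply] at this
  rw [← this]
  change χ (phi c f) = 0
  rw [h0, map_zero]

theorem phi_mem_Sb {m : ℕ} (c : Fin m → ℂ) {b : Fin m → ℕ} {f : Rg m}
    (hf : ∀ α ∈ f.support, ∀ i, α (some i) ≤ b i) : phi c f ∈ Sb b := by
  classical
  rw [f.as_sum, map_sum]
  refine Submodule.sum_mem _ fun α hα => ?_
  have hX : ∀ o, phi c (X o) ∈ Sb (fun i => if o = some i then 1 else 0) := by
    intro o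
    cases o with
    | none =>
      simp only [phi, aeval_X, Option.elim]
      exact Sb_monomial (α := Finsupp.single none 1) 1 (by simp)
    | some j =>
      simp only [phi, aeval_X, Option.elim]
      refine Submodule.add_mem _ (Sb_monomial (α := Finsupp.single (some j) 1) 1 fun i => ?_)
        (Sb_monomial (α := 0) _ (by simp))
      rw [Finsupp.single_apply]
  have hP : ∀ o (n : ℕ), phi c (X o) ^ n ∈ Sb (fun i => if o = some i then n else 0) := by
    intro o n
    have := Sb_prod (Finset.range n) (f := fun _ => phi c (X o)) fun _ _ => hX o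
    rw [Finset.prod_const, Finset.card_range] at this
    refine Sb_mono (fun i => ?_) this
    simp
  rw [monomial_eq, map_mul, phi_C, Finsupp.prod_fintype _ _ (by simp), map_prod]
  simp only [map_pow]
  have h1 := Sb_mul (Sb_monomial (b := 0) (α := 0) (Polynomial.C (coeff α f)) (by simp))
    (Sb_prod Finset.univ (f := fun o => phi c (X o) ^ α o) fun o _ => hP o (α o))
  refine Sb_mono (fun i => ?_) h1
  simpa using hf α hα i

theorem single_none_of {m : ℕ} {α : Option (Fin m) →₀ ℕ} (h : ∀ i, α (some i) ≤ 0) :
    α = Finsupp.single none (α none) := by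
  ext o
  cases o with
  | none => simp
  | some i => simpa using h i

theorem roth_main (m : ℕ) (ε : ℝ) (hε : 0 < ε) :
    ∃ κ : ℝ, 1 ≤ κ ∧ ∀ v : Option (Fin m) → ℝ, (∀ i, 0 < v i) →
      (∀ i, κ * v none ≤ v (some i)) → (∀ i j, i < j → κ * v (some i) ≤ v (some j)) →
      ∀ (c : Fin m → ℂ), (∀ i, c i ≠ 0) →
      ∀ (p : Ideal (Rg m)), p.IsPrime → ∀ (Y θ : ℝ) (P : Rg m), P ≠ 0 →
      (∀ α ∈ P.support, ∀ i, (α (some i) : ℝ) * v (some i) ≤ Y) → 0 ≤ Y → ε * Y < θ →
      ((∀ g : Polynomial ℂ, g ≠ 0 → Polynomial.aeval (X none : Rg m) g ∉ p) →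
        ∃ β : List (Option (Fin m)), wtWord v β < θ ∧ wordAct (der c) β P ∉ p) ∧
      ((∀ j, ∀ g : Polynomial ℂ, g ≠ 0 → Polynomial.aeval (X (some j) : Rg m) g ∉ p) →
        (∀ α ∈ P.support, α none = 0) →
        ∃ β : List (Option (Fin m)), none ∉ β ∧ wtWord v β < θ ∧ wordAct (der c) β P ∉ p) := by
  classical
  obtain ⟨κ, hκ, H⟩ := roth_tilde m m le_rfl ε hε
  refine ⟨κ, hκ, fun v hv hv0 hv1 c hc p hp Y θ P hP hPY hY hθ => ?_⟩
  let b : Fin m → ℕ := fun i => ⌊Y / v (some i)⌋₊
  have hb : ∀ α ∈ P.support, ∀ i, α (some i) ≤ b i := fun α hα i =>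
    Nat.le_floor ((le_div_iff₀ (hv _)).mpr (hPY α hα i))
  have hbY : ∀ i, (b i : ℝ) * v (some i) ≤ Y := fun i =>
    (le_div_iff₀ (hv _)).mp (Nat.floor_le (div_nonneg hY (hv _).le))
  have main : ∀ (c : Fin m → ℂ) (q : Ideal (Rt m)), q.IsPrime →
      (∀ f ∈ Sb (0 : Fin m → ℕ), f ≠ 0 → f ∉ q) →
      (∀ j, ∀ g : Polynomial ℂ, g ≠ 0 → Polynomial.aeval (X (some j) : Rt m) g ∉ q) →
      ∃ β : List (Option (Fin m)), wtWord v β < θ ∧ phi c (wordAct (der c) β P) ∉ q := by
    intro c q hq h0 h1
    by_contra hcon
    push Not at hcon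
    have := H v hv hv0 hv1 q hq h0 h1 b Y θ (phi c P) (fun i hi => absurd i.2 (not_lt.mpr hi)) hY
      hbY (phi_ne_zero c hP) (phi_mem_Sb c hb) (fun β hβ => by
        rw [wordAct_phi]; exact hcon β hβ)
    linarith
  obtain ⟨Λ, _, _, π, hπp⟩ : ∃ (Λ : Type) (_ : CommRing Λ) (_ : IsDomain Λ) (π : Rg m →+* Λ),
      ∀ f, π f = 0 ↔ f ∈ p :=
    ⟨Rg m ⧸ p, inferInstance, inferInstance, Ideal.Quotient.mk p,
      fun f => Ideal.Quotient.eq_zero_iff_mem⟩
  let ι : ℂ →+* Λ := π.comp C
  have hι : Function.Injective ι := ι.injective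
  have hπ : ∀ (o : Option (Fin m)) (g : Polynomial ℂ),
      π (Polynomial.aeval (X o : Rg m) g) = Polynomial.eval₂ ι (π (X o)) g := by
    intro o g
    rw [Polynomial.aeval_def, Polynomial.hom_eval₂]
    rfl
  constructor
  · intro hy
    let ψ : Rt m →+* Polynomial Λ := eval₂Hom (Polynomial.mapRingHom ι) fun o : Option (Fin m) =>
      o.elim (Polynomial.C (π (X none)))
        (fun i => Polynomial.C (π (X (some i))) - Polynomial.C (ι (c i)) * Polynomial.X)
    have hψ : ψ.comp (phi c).toRingHom = Polynomial.C.comp π := by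
      apply ringHom_ext
      · intro a
        simp [ψ, phi, ι]
      · intro o
        cases o <;> simp [ψ, phi]
    obtain ⟨β, hβ, hβq⟩ := main c (RingHom.ker ψ) (RingHom.ker_isPrime ψ) (by
      intro f hf hf0 hfq
      obtain ⟨α0, hα0⟩ := support_nonempty.mpr hf0
      obtain ⟨t, ht⟩ := Polynomial.support_nonempty.mpr (mem_support_iff.mp hα0)
      let g : Polynomial ℂ := ∑ α ∈ f.support, Polynomial.monomial (α none) ((coeff α f).coeff t)
      have hg : g ≠ 0 := by
        intro h
        have := congrArg (fun g => Polynomial.coeff g (α0 none)) h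
        simp only [g, Polynomial.finsetSum_coeff, Polynomial.coeff_monomial] at this
        rw [Finset.sum_eq_single α0] at this
        · exact Polynomial.mem_support_iff.mp ht (by simpa using this)
        · intro α hα hne
          rw [if_neg]
          intro h
          apply hne
          rw [single_none_of (hf α hα), single_none_of (hf α0 hα0), h]
        · intro h; exact absurd hα0 h
      apply hy g hg
      rw [← hπp]
      have h1 : (ψ f).coeff t = 0 := by rw [RingHom.mem_ker.mp hfq]; simp
      rw [← h1, hπ]
      conv_rhs => rw [f.as_sum]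
      simp only [g, Polynomial.eval₂_finsetSum, Polynomial.eval₂_monomial, map_sum,
        Polynomial.finsetSum_coeff]
      refine Finset.sum_congr rfl fun α hα => ?_
      conv_rhs => rw [single_none_of (hf α hα)]
      simp only [ψ, eval₂Hom_monomial]
      rw [Finsupp.prod_single_index (by simp), ← single_none_of (hf α hα)]
      simp [← map_pow]) (by
      intro j g hg hq
      rw [RingHom.mem_ker, Polynomial.aeval_def, Polynomial.hom_eval₂] at hq
      have h1 : ψ.comp (algebraMap ℂ (Rt m)) = Polynomial.C.comp ι := by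
        refine RingHom.ext fun a => ?_
        change ψ (C (Polynomial.C a)) = _
        simp [ψ]
      rw [h1, ← Polynomial.eval₂_map, ← Polynomial.comp] at hq
      rcases Polynomial.comp_eq_zero_iff.mp hq with h | ⟨-, h⟩
      · exact hg ((Polynomial.map_eq_zero_iff hι).mp h)
      · have := congrArg (fun g => Polynomial.coeff g 1) h
        simp [ψ] at this
        exact hc j this)
    refine ⟨β, hβ, fun h => hβq ?_⟩
    rw [RingHom.mem_ker]
    have := RingHom.congr_fun hψ (wordAct (der c) β P)
    simp only [RingHom.comp_apply] at this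
    refine this.trans ?_
    rw [(hπp _).mpr h, map_zero]
  · intro hx hP0
    let ψ : Rt m →+* Polynomial (Polynomial Λ) :=
      eval₂Hom (Polynomial.C.comp (Polynomial.mapRingHom ι)) fun o : Option (Fin m) =>
      o.elim Polynomial.X (fun i => Polynomial.C (Polynomial.C (π (X (some i)))))
    let S : Set (Rg m) := {f | ∀ α ∈ f.support, α none = 0}
    have hS0 : ∀ f ∈ S, der 0 none f = 0 := by
      intro f hf
      change mkDerivation ℂ _ f = 0
      apply derivation_eq_zero_of_forall_mem_vars
      intro o ho
      rw [mkDerivation_X]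
      cases o with
      | none =>
        obtain ⟨α, hα, h⟩ := (mem_vars_iff_mem_support _).mp ho
        exact absurd (hf α hα) (Finsupp.mem_support_iff.mp h)
      | some i => simp
    have hS : ∀ o, ∀ f ∈ S, der 0 o f ∈ S := by
      intro o f hf
      cases o with
      | none => rw [hS0 f hf]; intro α hα; simp at hα
      | some i =>
        intro α hα
        rw [mem_support_iff, der_some, coeff_pderiv] at hα
        simpa using hf _ (mem_support_iff.mpr (left_ne_zero_of_mul hα))
    have hψ : ∀ f ∈ S, ψ (phi 0 f) = Polynomial.C (Polynomial.C (π f)) := by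
      intro f hf
      let F1 : Rg m →+* Polynomial (Polynomial Λ) := ψ.comp (phi 0).toRingHom
      let F2 : Rg m →+* Polynomial (Polynomial Λ) := Polynomial.C.comp (Polynomial.C.comp π)
      change F1 f = F2 f
      apply hom_congr_vars _ _ rfl
      · refine RingHom.ext fun a => ?_
        simp [F1, F2, ψ, phi, ι]
      · intro o ho _
        cases o with
        | none =>
          obtain ⟨α, hα, h⟩ := (mem_vars_iff_mem_support _).mp ho
          exact absurd (hf α hα) (Finsupp.mem_support_iff.mp h)
        | some i => simp [F1, F2, ψ, phi]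
    obtain ⟨β, hβ, hβq⟩ := main 0 (RingHom.ker ψ) (RingHom.ker_isPrime ψ) (by
      intro f hf hf0 hfq
      obtain ⟨α0, hα0⟩ := support_nonempty.mpr hf0
      have h1 : (ψ f).coeff (α0 none) = 0 := by rw [RingHom.mem_ker.mp hfq]; simp
      have h2 : ψ f = ∑ α ∈ f.support,
          Polynomial.monomial (α none) (Polynomial.map ι (coeff α f)) := by
        conv_lhs => rw [f.as_sum]
        rw [map_sum]
        refine Finset.sum_congr rfl fun α hα => ?_
        conv_lhs => rw [single_none_of (hf α hα)]
        simp only [ψ, eval₂Hom_monomial]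
        rw [Finsupp.prod_single_index (by simp), ← single_none_of (hf α hα)]
        simp [Polynomial.C_mul_X_pow_eq_monomial]
      rw [h2] at h1
      simp only [Polynomial.finsetSum_coeff, Polynomial.coeff_monomial] at h1
      rw [Finset.sum_eq_single α0] at h1
      · rw [if_pos rfl] at h1
        exact mem_support_iff.mp hα0 ((Polynomial.map_eq_zero_iff hι).mp h1)
      · intro α hα hne
        rw [if_neg]
        intro h
        apply hne
        rw [single_none_of (hf α hα), single_none_of (hf α0 hα0), h]
      · intro h; exact absurd hα0 h) (by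
      intro j g hg hq
      apply hx j g hg
      rw [← hπp]
      rw [RingHom.mem_ker, Polynomial.aeval_def, Polynomial.hom_eval₂] at hq
      let F : Λ →+* Polynomial (Polynomial Λ) := Polynomial.C.comp Polynomial.C
      have h1 : ψ.comp (algebraMap ℂ (Rt m)) = F.comp ι := by
        refine RingHom.ext fun a => ?_
        change ψ (C (Polynomial.C a)) = _
        simp [ψ, F]
      have h2 : ψ (X (some j)) = F (π (X (some j))) := by simp [ψ, F]
      rw [h1, h2, ← Polynomial.hom_eval₂] at hq
      rw [hπ]
      simpa [F] using hq)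
    have hn : none ∉ β := fun h => hβq (by
      rw [wordAct_eq_zero hS hS0 β h hP0, map_zero]; exact Ideal.zero_mem _)
    have heq : ∀ (β : List (Option (Fin m))), none ∉ β → ∀ f : Rg m,
        wordAct (der c) β f = wordAct (der 0) β f := by
      intro β
      induction β with
      | nil => intro _ f; rfl
      | cons o β ih =>
        intro h f
        cases o with
        | none => simp at h
        | some i =>
          rw [wordAct_cons, wordAct_cons, ih (fun h' => h (List.mem_cons_of_mem _ h'))]
          rfl
    refine ⟨β, hn, hβ, fun h => hβq ?_⟩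
    rw [heq β hn] at h
    rw [RingHom.mem_ker, hψ _ (wordAct_mem hS β hP0),
      (hπp _).mpr h, map_zero,
      map_zero]

end Vale.Agent.P021
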