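import Vale.Agent.P021.Filt
import Vale.Agent.P021.Roth

/-! The order filtrations at the points, in truncated logarithmic coordinates. -/

namespace Vale.Agent.P021

open MvPolynomial

/-- The truncated logarithm evaluated at a ring element. -/
noncomputable def logAt {m : ℕ} (n : ℕ) (t : Rg m) : Rg m :=
  ∑ l ∈ Finset.range n, C ((-1 : ℂ) ^ l / ((l : ℂ) + 1)) * t ^ (l + 1)

theorem logPoly_eq (m n : ℕ) : logPoly m n = logAt n (X none) := rfl

theorem map_logAt {m : ℕ} (T : Rg m →ₐ[ℂ] Rg m) (n : ℕ) (t : Rg m) :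
    T (logAt n t) = logAt n (T t) := by
  simp [logAt, map_sum]

theorem dvd_logAt {m : ℕ} (n : ℕ) (t : Rg m) : t ∣ logAt n t :=
  Finset.dvd_sum fun l _ => Dvd.dvd.mul_left (dvd_pow_self t (Nat.succ_ne_zero l)) _

theorem pderiv_none_logPoly (m n : ℕ) :
    (1 + X none) * pderiv none (logPoly m n) = 1 - (-X none) ^ n := by
  induction n with
  | zero => simp [logPoly]
  | succ n ih =>
    have h : logPoly m (n + 1) =
        logPoly m n + C ((-1 : ℂ) ^ n / ((n : ℂ) + 1)) * X none ^ (n + 1) := by
      simp [logPoly, Finset.sum_range_succ]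
    have h2 : (C ((-1 : ℂ) ^ n / ((n : ℂ) + 1)) : Rg m) * ((n + 1 : ℕ) : Rg m) = (-1) ^ n := by
      have h3 : ((n : ℂ) + 1) ≠ 0 := by exact_mod_cast Nat.succ_ne_zero n
      rw [← map_natCast (C : ℂ →+* Rg m), ← map_mul]
      push_cast
      rw [div_mul_cancel₀ _ h3]
      simp
    rw [h, map_add, mul_add, ih, pderiv_C_mul, pderiv_pow, pderiv_X_self, Nat.add_sub_cancel,
      mul_one, ← mul_assoc (C _), h2, neg_pow (X none : Rg m) n, neg_pow (X none : Rg m) (n + 1)]
    ring

theorem pderiv_some_logPoly (m n : ℕ) (i : Fin m) : pderiv (some i) (logPoly m n) = 0 := by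
  simp [logPoly, map_sum]

section

variable {m : ℕ} (θ c : Fin m → ℂ) (n : Fin m → ℕ)

/-- The inverse coordinate change. -/
noncomputable def chartInv (k : ℕ) : Rg m →ₐ[ℂ] Rg m :=
  aeval fun o : Option (Fin m) =>
    o.elim (X none - 1)
      (fun i => X (some i) - C ((k : ℂ) * θ i) - C (c i) * logAt (n i) (X none - 1))

theorem chart_X_none (k : ℕ) : chart θ c n k (X none) = 1 + X none := by simp [chart]

theorem chart_X_some (k : ℕ) (i : Fin m) : chart θ c n k (X (some i)) =
    C ((k : ℂ) * θ i) + X (some i) + C (c i) * logPoly m (n i) := by simp [chart]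

theorem chart_C (k : ℕ) (a : ℂ) : chart θ c n k (C a) = C a := by simp [chart]

theorem chart_y (k : ℕ) : chart θ c n k (X none - 1) = X none := by
  rw [map_sub, chart_X_none, map_one]; ring

theorem chart_xi (k : ℕ) (i : Fin m) (a : ℂ) :
    chart θ c n k (X (some i) - C a - C (c i) * logAt (n i) (X none - 1)) =
      C ((k : ℂ) * θ i - a) + X (some i) := by
  rw [map_sub, map_sub, map_mul, map_logAt, chart_y, chart_X_some, chart_C, chart_C, logPoly_eq,
    map_sub]
  ring

theorem chart_chartInv (k : ℕ) (f : Rg m) : chart θ c n k (chartInv θ c n k f) = f := by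
  have : (chart θ c n k).comp (chartInv θ c n k) = AlgHom.id ℂ _ := by
    apply algHom_ext
    intro o
    cases o with
    | none =>
      simp only [AlgHom.comp_apply, AlgHom.id_apply, chartInv, aeval_X, Option.elim]
      exact chart_y θ c n k
    | some i =>
      simp only [AlgHom.comp_apply, AlgHom.id_apply, chartInv, aeval_X, Option.elim]
      rw [chart_xi]
      simp
  exact AlgHom.congr_fun this f

theorem chart_der_some (k : ℕ) (i : Fin m) (f : Rg m) :
    chart θ c n k (der c (some i) f) = pderiv (some i) (chart θ c n k f) := by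
  classical
  rw [der_some]
  induction f using MvPolynomial.induction_on with
  | C a => simp
  | add p q hp hq => simp only [map_add, hp, hq]
  | mul_X p o hp =>
    rw [pderiv_mul, map_add, map_mul, map_mul, map_mul, pderiv_mul, hp]
    congr 2
    cases o with
    | none => simp [chart_X_none]
    | some j =>
      rw [chart_X_some]
      simp only [map_add, pderiv_C, pderiv_C_mul, pderiv_some_logPoly, pderiv_X]
      by_cases h : j = i
      · subst h; simp
      · simp [h]

theorem chart_der_none (k : ℕ) (f : Rg m) :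
    chart θ c n k (der c none f) = (1 + X none) * pderiv none (chart θ c n k f) +
      ∑ i, C (c i) * (-X none) ^ n i * pderiv (some i) (chart θ c n k f) := by
  classical
  induction f using MvPolynomial.induction_on with
  | C a => simp [der_C]
  | add p q hp hq =>
    simp only [map_add, hp, hq, mul_add, Finset.sum_add_distrib]
    ring
  | mul_X p o hp =>
    have key : chart θ c n k (der c none (X o)) =
        (1 + X none) * pderiv none (chart θ c n k (X o)) +
        ∑ i, C (c i) * (-X none) ^ n i * pderiv (some i) (chart θ c n k (X o)) := by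
      cases o with
      | none => simp [der_none_X_none, chart_X_none]
      | some j =>
        rw [der_none_X_some, chart_C, chart_X_some, Finset.sum_eq_single j]
        · simp only [map_add, pderiv_C, pderiv_C_mul, pderiv_some_logPoly, pderiv_X_self]
          rw [pderiv_X_of_ne (by simp)]
          linear_combination (-C (c j)) * pderiv_none_logPoly m (n j)
        · intro i _ hi
          simp only [map_add, pderiv_C, pderiv_C_mul, pderiv_some_logPoly]
          rw [pderiv_X_of_ne (by simpa using hi.symm)]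
          simp
        · simp
    rw [der_leib, map_add, map_mul, map_mul, map_mul, hp, key]
    simp only [pderiv_mul, mul_add, add_mul, Finset.sum_add_distrib, Finset.mul_sum,
      Finset.sum_mul]
    have e1 : ∀ i : Fin m, C (c i) * (-X none) ^ n i *
        (pderiv (some i) (chart θ c n k p) * chart θ c n k (X o)) =
        C (c i) * (-X none) ^ n i * pderiv (some i) (chart θ c n k p) * chart θ c n k (X o) :=
      fun i => by ring
    have e2 : ∀ i : Fin m, C (c i) * (-X none) ^ n i *
        (chart θ c n k p * pderiv (some i) (chart θ c n k (X o))) =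
        chart θ c n k p * (C (c i) * (-X none) ^ n i * pderiv (some i) (chart θ c n k (X o))) :=
      fun i => by ring
    simp only [e1, e2]
    ring

theorem der_none_eq (f : Rg m) :
    der c none f = X none * pderiv none f + ∑ i, C (c i) * pderiv (some i) f := by
  classical
  induction f using MvPolynomial.induction_on with
  | C a => simp [der_C]
  | add p q hp hq =>
    simp only [map_add, hp, hq, mul_add, Finset.sum_add_distrib]
    ring
  | mul_X p o hp =>
    have key : der c none (X o) =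
        X none * pderiv none (X o : Rg m) + ∑ i, C (c i) * pderiv (some i) (X o : Rg m) := by
      cases o with
      | none => simp [der_none_X_none]
      | some j =>
        rw [der_none_X_some, Finset.sum_eq_single j]
        · simp
        · intro i _ hi
          rw [pderiv_X_of_ne (by simpa using hi.symm)]
          simp
        · simp
    rw [der_leib, hp, key]
    simp only [pderiv_mul, mul_add, add_mul, Finset.sum_add_distrib, Finset.mul_sum,
      Finset.sum_mul]
    have e1 : ∀ i : Fin m, C (c i) * (pderiv (some i) p * X o) =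
        C (c i) * pderiv (some i) p * X o := fun i => by ring
    have e2 : ∀ i : Fin m, C (c i) * (p * pderiv (some i) (X o : Rg m)) =
        p * (C (c i) * pderiv (some i) (X o : Rg m)) := fun i => by ring
    simp only [e1, e2]
    ring

theorem der_mem_degLE {w : Option (Fin m) → ℝ} (hw : ∀ i, 0 < w i) {L : ℝ} {f : Rg m}
    (hf : f ∈ degLE w L) (o : Option (Fin m)) : der c o f ∈ degLE w L := by
  cases o with
  | some i => exact degLE_mono (by linarith [hw (some i)]) (pderiv_mem_degLE hf (some i))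
  | none =>
    rw [der_none_eq]
    refine Submodule.add_mem _ (degLE_mono (le_of_eq (by ring))
      (degLE_mul (X_mem_degLE w none) (pderiv_mem_degLE hf none)))
      (Submodule.sum_mem _ fun i _ => degLE_mono (by linarith [hw (some i)])
        (degLE_mul (C_mem_degLE w (c i)) (pderiv_mem_degLE hf (some i))))

variable (v : Option (Fin m) → ℝ) (hv : ∀ i, 0 < v i)

/-- The order filtration at the point number `k`. -/
noncomputable def Fk (k : ℕ) (μ : ℝ) : Ideal (Rg m) :=
  RingHom.ker ((Ideal.Quotient.mkₐ ℂ (ordGE v hv μ)).comp (chart θ c n k))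

variable {θ c n v hv}

theorem mem_Fk {k : ℕ} {μ : ℝ} {f : Rg m} :
    f ∈ Fk θ c n v hv k μ ↔ chart θ c n k f ∈ ordGE v hv μ := by
  rw [Fk, RingHom.mem_ker]
  exact Ideal.Quotient.eq_zero_iff_mem

theorem nonempty_Fk_equiv (k : ℕ) (μ : ℝ) :
    Nonempty ((Rg m ⧸ Fk θ c n v hv k μ) ≃ₗ[ℂ] (Rg m ⧸ ordGE v hv μ)) := by
  refine ⟨(Ideal.quotientKerAlgEquivOfSurjective
    (f := (Ideal.Quotient.mkₐ ℂ (ordGE v hv μ)).comp (chart θ c n k)) ?_).toLinearEquiv⟩
  intro x
  obtain ⟨f, rfl⟩ := Ideal.Quotient.mk_surjective x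
  exact ⟨chartInv θ c n k f, by simp [chart_chartInv]⟩

theorem Fk_finite (k : ℕ) (μ : ℝ) : FiniteDimensional ℂ (Rg m ⧸ Fk θ c n v hv k μ) := by
  obtain ⟨e⟩ := nonempty_Fk_equiv (θ := θ) (c := c) (n := n) (hv := hv) k μ
  have := quot_finite hv μ
  exact e.symm.finiteDimensional

theorem finrank_Fk (k : ℕ) (μ : ℝ) : Module.finrank ℂ (Rg m ⧸ Fk θ c n v hv k μ) = cnt v μ := by
  obtain ⟨e⟩ := nonempty_Fk_equiv (θ := θ) (c := c) (n := n) (hv := hv) k μ
  rw [e.finrank_eq, finrank_quot]

theorem Fk_top (k : ℕ) {μ : ℝ} (h : μ ≤ 0) : Fk θ c n v hv k μ = ⊤ :=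
  eq_top_iff.mpr fun _ _ => mem_Fk.mpr (mem_ordGE_of_nonpos h _)

theorem Fk_anti {k : ℕ} {μ μ' : ℝ} (h : μ' ≤ μ) : Fk θ c n v hv k μ ≤ Fk θ c n v hv k μ' :=
  fun _ hf => mem_Fk.mpr (ordGE_anti h (mem_Fk.mp hf))

theorem Fk_mul {k : ℕ} {μ τ : ℝ} {f g : Rg m} (hf : f ∈ Fk θ c n v hv k τ)
    (hg : g ∈ Fk θ c n v hv k μ) : f * g ∈ Fk θ c n v hv k (μ + τ) := by
  rw [mem_Fk, map_mul]
  exact ordGE_mul (mem_Fk.mp hf) (mem_Fk.mp hg)

theorem sup_Fk_mul {p : Ideal (Rg m)} {k : ℕ} {μ τ : ℝ} {f g : Rg m}
    (hf : f ∈ p ⊔ Fk θ c n v hv k τ) (hg : g ∈ Fk θ c n v hv k μ) :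
    f * g ∈ p ⊔ Fk θ c n v hv k (μ + τ) := by
  obtain ⟨a, ha, b, hb, rfl⟩ := Submodule.mem_sup.mp hf
  rw [add_mul]
  exact Submodule.add_mem_sup (p.mul_mem_right _ ha) (Fk_mul hb hg)

theorem der_mem_Fk (hn : ∀ i, v (some i) ≤ n i * v none) {k : ℕ} {μ : ℝ} {f : Rg m}
    (hf : f ∈ Fk θ c n v hv k μ) (o : Option (Fin m)) :
    der c o f ∈ Fk θ c n v hv k (μ - v o) := by
  rw [mem_Fk] at hf ⊢
  cases o with
  | some i => rw [chart_der_some]; exact pderiv_mem_ordGE hf _
  | none =>
    rw [chart_der_none]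
    refine Ideal.add_mem _ (Ideal.mul_mem_left _ _ (pderiv_mem_ordGE hf _))
      (Ideal.sum_mem _ fun i _ => ?_)
    rw [mul_assoc]
    refine Ideal.mul_mem_left _ _ (ordGE_anti ?_ (ordGE_mul
      (ordGE_pow (Submodule.neg_mem _ (X_mem_ordGE none)) (n i)) (pderiv_mem_ordGE hf (some i))))
    linarith [hn i, hv none]

theorem word_mem_Fk (hn : ∀ i, v (some i) ≤ n i * v none) {k : ℕ} (β : List (Option (Fin m)))
    {μ : ℝ} {f : Rg m} (hf : f ∈ Fk θ c n v hv k μ) :
    wordAct (der c) β f ∈ Fk θ c n v hv k (μ - wtWord v β) := by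
  induction β generalizing μ f with
  | nil => simpa using hf
  | cons o β ih =>
    rw [wordAct_cons, wtWord_cons, ← sub_sub]
    exact ih (der_mem_Fk hn hf o)

theorem word_mem_sup_Fk (hn : ∀ i, v (some i) ≤ n i * v none) {k : ℕ}
    (β : List (Option (Fin m))) (hβ : none ∉ β) {μ : ℝ} {f : Rg m}
    (hf : f ∈ Ideal.span {(X none - 1 : Rg m)} ⊔ Fk θ c n v hv k μ) :
    wordAct (der c) β f ∈
      Ideal.span {(X none - 1 : Rg m)} ⊔ Fk θ c n v hv k (μ - wtWord v β) := by
  induction β generalizing μ f with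
  | nil => simpa using hf
  | cons o β ih =>
    rw [wordAct_cons, wtWord_cons, ← sub_sub]
    refine ih (fun h => hβ (List.mem_cons_of_mem _ h)) ?_
    obtain ⟨a, ha, b, hb, rfl⟩ := Submodule.mem_sup.mp hf
    rw [map_add]
    refine Submodule.add_mem_sup ?_ (der_mem_Fk hn hb o)
    obtain ⟨a', rfl⟩ := Ideal.mem_span_singleton.mp ha
    cases o with
    | none => simp at hβ
    | some i =>
      rw [der_some, pderiv_mul]
      simp only [map_sub, pderiv_one, sub_zero]
      rw [pderiv_X_of_ne (by simp), zero_mul, zero_add]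
      exact Ideal.mem_span_singleton.mpr (Dvd.intro _ rfl)

theorem sup_Fk_eq_top {p : Ideal (Rg m)} {k : ℕ} {f : Rg m} (hf : f ∈ p) {a : ℂ} (ha : a ≠ 0)
    {o : Option (Fin m)} (h : chart θ c n k f = C a + X o) (μ : ℝ) :
    p ⊔ Fk θ c n v hv k μ = ⊤ := by
  obtain ⟨N, hN⟩ := exists_nat_ge (μ / v o)
  rw [div_le_iff₀ (hv o)] at hN
  have h1 : (f - C a) ^ N ∈ Fk θ c n v hv k μ := by
    rw [mem_Fk, map_pow, map_sub, h, chart_C, add_sub_cancel_left]
    exact ordGE_anti hN (ordGE_pow (X_mem_ordGE o) N)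
  have h2 : (f - C a) ^ N - (-C a) ^ N ∈ p := by
    obtain ⟨g, hg⟩ := sub_dvd_pow_sub_pow (f - C a) (-C a) N
    rw [hg]
    exact p.mul_mem_right _ (by simpa using hf)
  have h3 : (-C a : Rg m) ^ N ∈ p ⊔ Fk θ c n v hv k μ := by
    have := Submodule.sub_mem _ (Submodule.mem_sup_right (S := p) h1)
      (Submodule.mem_sup_left (T := Fk θ c n v hv k μ) h2)
    simpa using this
  refine Ideal.eq_top_of_isUnit_mem _ h3 (IsUnit.pow _ (IsUnit.neg ?_))
  exact (isUnit_iff_ne_zero.mpr ha).map C

end

end Vale.Agent.P021
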