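import Vale.Agent.P021.Defs

/-! Lattice points in weighted simplices. -/

namespace Vale.Agent.P021

open Filter MeasureTheory

theorem finite_wt_lt {ι : Type*} [Fintype ι] {w : ι → ℝ} (hw : ∀ i, 0 < w i) (L : ℝ) :
    {α : ι →₀ ℕ | wt w α < L}.Finite := by
  classical
  have h : (Set.pi Set.univ fun i : ι => Set.Iic ⌈L / w i⌉₊).Finite :=
    Set.Finite.pi fun i => Set.finite_Iic _
  refine Set.Finite.subset (h.preimage (f := fun α : ι →₀ ℕ => (α : ι → ℕ))
    (DFunLike.coe_injective.injOn)) ?_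
  intro α hα i _
  have h1 : (α i : ℝ) * w i ≤ wt w α :=
    Finset.single_le_sum (f := fun i => (α i : ℝ) * w i)
      (fun j _ => mul_nonneg (Nat.cast_nonneg _) (hw j).le) (Finset.mem_univ i)
  have h2 : (α i : ℝ) ≤ L / w i := by
    rw [le_div_iff₀ (hw i)]
    exact h1.trans (le_of_lt hα)
  have h3 : (α i : ℝ) ≤ (⌈L / w i⌉₊ : ℕ) := h2.trans (Nat.le_ceil _)
  exact_mod_cast h3

/-- The open weighted simplex. -/
def cntSimplex {ι : Type*} [Fintype ι] (w : ι → ℝ) (L : ℝ) : Set (ι → ℝ) :=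
  {x | (∀ i, 0 ≤ x i) ∧ ∑ i, x i * w i < L}

/-- The unit box at a lattice point. -/
def cntBox {ι : Type*} (α : ι →₀ ℕ) : Set (ι → ℝ) :=
  Set.pi Set.univ fun i => Set.Ico (α i : ℝ) (α i + 1)

theorem volume_cntBox {ι : Type*} [Fintype ι] (α : ι →₀ ℕ) : volume (cntBox α) = 1 := by
  simp [cntBox, Real.volume_pi_Ico]

theorem measurableSet_cntBox {ι : Type*} [Fintype ι] (α : ι →₀ ℕ) :
    MeasurableSet (cntBox α) :=
  MeasurableSet.univ_pi fun _ => measurableSet_Ico

theorem volume_cntSimplex {ι : Type*} [Fintype ι] {w : ι → ℝ} (hw : ∀ i, 0 < w i) {L : ℝ}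
    (hL : 0 < L) :
    volume (cntSimplex w L) = ENNReal.ofReal (L ^ Fintype.card ι / ∏ i, w i)
      * volume (cntSimplex (fun _ : ι => (1 : ℝ)) 1) := by
  classical
  let f : (ι → ℝ) →ₗ[ℝ] (ι → ℝ) := Matrix.toLin' (Matrix.diagonal fun i => w i / L)
  have hdet : LinearMap.det f = (∏ i, w i) / L ^ Fintype.card ι := by
    simp only [f, LinearMap.det_toLin', Matrix.det_diagonal, Finset.prod_div_distrib,
      Finset.prod_const, Finset.card_univ]
  have hP : 0 < ∏ i, w i := Finset.prod_pos fun i _ => hw i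
  have hpre : cntSimplex w L = f ⁻¹' cntSimplex (fun _ : ι => (1 : ℝ)) 1 := by
    ext x
    simp only [cntSimplex, Set.mem_preimage, Set.mem_ofPred_eq, f, Matrix.toLin'_apply,
      Matrix.mulVec_diagonal, mul_one]
    have hs : ∑ i, w i / L * x i = (∑ i, x i * w i) / L := by
      rw [Finset.sum_div]
      exact Finset.sum_congr rfl fun i _ => by ring
    rw [hs, div_lt_one hL]
    refine and_congr_left fun _ => forall_congr' fun i => ?_
    rw [mul_nonneg_iff_of_pos_left (div_pos (hw i) hL)]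
  rw [hpre, Measure.addHaar_preimage_linearMap _ (by rw [hdet]; positivity), hdet, inv_div,
    abs_of_pos (by positivity)]

theorem volume_cntSimplex_le {ι : Type*} [Fintype ι] {w : ι → ℝ} (hw : ∀ i, 0 < w i) (L : ℝ) :
    volume (cntSimplex w L) ≤ (cnt w L : ℕ) := by
  classical
  have hfin := finite_wt_lt hw L
  have hsub : cntSimplex w L ⊆ ⋃ α ∈ hfin.toFinset, cntBox α := by
    intro x hx
    simp only [Set.mem_iUnion]
    refine ⟨Finsupp.equivFunOnFinite.symm fun i => ⌊x i⌋₊, ?_, ?_⟩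
    · rw [Set.Finite.mem_toFinset]
      refine lt_of_le_of_lt ?_ hx.2
      apply Finset.sum_le_sum
      intro i _
      apply mul_le_mul_of_nonneg_right _ (hw i).le
      simpa using Nat.floor_le (hx.1 i)
    · intro i _
      simpa using ⟨Nat.floor_le (hx.1 i), Nat.lt_floor_add_one _⟩
  calc volume (cntSimplex w L) ≤ volume (⋃ α ∈ hfin.toFinset, cntBox α) := measure_mono hsub
    _ ≤ ∑ α ∈ hfin.toFinset, volume (cntBox α) := measure_biUnion_finset_le _ _
    _ = (cnt w L : ℕ) := by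
      simp only [volume_cntBox, Finset.sum_const, nsmul_eq_mul, mul_one]
      rw [cnt, Set.ncard_eq_toFinset_card _ hfin]

theorem le_volume_cntSimplex {ι : Type*} [Fintype ι] {w : ι → ℝ} (hw : ∀ i, 0 < w i) (L : ℝ) :
    ((cnt w L : ℕ) : ENNReal) ≤ volume (cntSimplex w (L + ∑ i, w i)) := by
  classical
  have hfin := finite_wt_lt hw L
  have hsub : (⋃ α ∈ hfin.toFinset, cntBox α) ⊆ cntSimplex w (L + ∑ i, w i) := by
    intro x hx
    simp only [Set.mem_iUnion] at hx
    obtain ⟨α, hα, hx⟩ := hx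
    rw [Set.Finite.mem_toFinset] at hα
    refine ⟨fun i => (Nat.cast_nonneg _).trans (hx i trivial).1, ?_⟩
    calc ∑ i, x i * w i ≤ ∑ i, ((α i : ℝ) + 1) * w i :=
          Finset.sum_le_sum fun i _ => mul_le_mul_of_nonneg_right (hx i trivial).2.le (hw i).le
      _ = wt w α + ∑ i, w i := by simp [wt, add_mul, Finset.sum_add_distrib]
      _ < L + ∑ i, w i := by
          have : wt w α < L := hα
          linarith
  have hdisj : Set.PairwiseDisjoint (hfin.toFinset : Set (ι →₀ ℕ)) cntBox := by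
    intro α _ β _ hne
    rw [Function.onFun, Set.disjoint_left]
    intro x hx hx'
    apply hne
    ext i
    have h1 := hx i trivial
    have h2 := hx' i trivial
    have h3 : (α i : ℝ) < β i + 1 := h1.1.trans_lt h2.2
    have h4 : (β i : ℝ) < α i + 1 := h2.1.trans_lt h1.2
    have h5 : α i < β i + 1 := by exact_mod_cast h3
    have h6 : β i < α i + 1 := by exact_mod_cast h4
    omega
  calc ((cnt w L : ℕ) : ENNReal) = ∑ α ∈ hfin.toFinset, volume (cntBox α) := by
        simp only [volume_cntBox, Finset.sum_const, nsmul_eq_mul, mul_one]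
        rw [cnt, Set.ncard_eq_toFinset_card _ hfin]
    _ = volume (⋃ α ∈ hfin.toFinset, cntBox α) :=
        (measure_biUnion_finset hdisj fun α _ => measurableSet_cntBox α).symm
    _ ≤ _ := measure_mono hsub

theorem cnt_pos {ι : Type*} [Fintype ι] {w : ι → ℝ} (hw : ∀ i, 0 < w i) {L : ℝ} (hL : 0 < L) :
    0 < cnt w L := by
  rw [cnt, Set.ncard_pos (finite_wt_lt hw L)]
  exact ⟨0, by simpa using hL⟩

theorem exists_cnt_bounds (ι : Type*) [Fintype ι] :
    ∃ γ : ℝ, 0 < γ ∧ ∀ w : ι → ℝ, (∀ i, 0 < w i) → ∀ L : ℝ, 0 < L →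
      γ * L ^ Fintype.card ι / ∏ i, w i ≤ (cnt w L : ℝ) ∧
      (cnt w L : ℝ) ≤ γ * (L + ∑ i, w i) ^ Fintype.card ι / ∏ i, w i := by
  set V := volume (cntSimplex (fun _ : ι => (1 : ℝ)) 1) with hV
  have hone : ∀ i : ι, (0 : ℝ) < (fun _ : ι => (1 : ℝ)) i := fun _ => one_pos
  have hVtop : V ≠ ⊤ :=
    ne_top_of_le_ne_top (ENNReal.natCast_ne_top _) (volume_cntSimplex_le hone 1)
  have hV0 : V ≠ 0 := by
    intro h0
    have h1 := le_volume_cntSimplex hone 1
    have hpos : (0 : ℝ) < 1 + ∑ _i : ι, (1 : ℝ) := by positivity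
    rw [volume_cntSimplex hone hpos, ← hV, h0, mul_zero] at h1
    have h2 := cnt_pos hone one_pos
    have h3 : cnt (fun _ : ι => (1 : ℝ)) 1 = 0 := by exact_mod_cast le_antisymm h1 zero_le
    omega
  refine ⟨V.toReal, ENNReal.toReal_pos hV0 hVtop, fun w hw L hL => ⟨?_, ?_⟩⟩
  · have h := volume_cntSimplex_le hw L
    have hP : 0 < ∏ i, w i := Finset.prod_pos fun i _ => hw i
    rw [volume_cntSimplex hw hL, ← hV] at h
    have h2 := ENNReal.toReal_mono (ENNReal.natCast_ne_top _) h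
    rw [ENNReal.toReal_mul, ENNReal.toReal_ofReal (by positivity), ENNReal.toReal_natCast] at h2
    calc _ = L ^ Fintype.card ι / (∏ i, w i) * V.toReal := by ring
      _ ≤ _ := h2
  · have h := le_volume_cntSimplex hw L
    have hP : 0 < ∏ i, w i := Finset.prod_pos fun i _ => hw i
    have hS : 0 ≤ ∑ i, w i := Finset.sum_nonneg fun i _ => (hw i).le
    have hL' : 0 < L + ∑ i, w i := by linarith
    rw [volume_cntSimplex hw hL', ← hV] at h
    have h2 := ENNReal.toReal_mono (ENNReal.mul_ne_top ENNReal.ofReal_ne_top hVtop) h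
    rw [ENNReal.toReal_mul, ENNReal.toReal_ofReal (by positivity), ENNReal.toReal_natCast] at h2
    calc _ ≤ _ := h2
      _ = _ := by ring

theorem eventually_cnt_lt {ι : Type*} [Fintype ι] {w v : ι → ℝ} (hw : ∀ i, 0 < w i)
    (hv : ∀ i, 0 < v i) {a b s t : ℝ} (C C' : ℝ) (ha : 0 ≤ a) (hs : 0 < s) (ht : 0 < t)
    (h : a * s ^ Fintype.card ι * ∏ i, w i < b * t ^ Fintype.card ι * ∏ i, v i) :
    ∀ᶠ L : ℝ in atTop, a * (cnt v (s * L + C) : ℝ) < b * (cnt w (t * L + C') : ℝ) := by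
  obtain ⟨γ, hγ, hb⟩ := exists_cnt_bounds ι
  set n := Fintype.card ι with hn
  have hPw : 0 < ∏ i, w i := Finset.prod_pos fun i _ => hw i
  have hPv : 0 < ∏ i, v i := Finset.prod_pos fun i _ => hv i
  have hb0 : 0 < b := by
    by_contra hneg
    have h1 : b * t ^ n * ∏ i, v i ≤ 0 :=
      mul_nonpos_of_nonpos_of_nonneg
        (mul_nonpos_of_nonpos_of_nonneg (not_lt.mp hneg) (by positivity)) hPv.le
    have h2 : 0 ≤ a * s ^ n * ∏ i, w i := by positivity
    linarith
  have hlim : ∀ (c D : ℝ), Tendsto (fun L : ℝ => c + D / L) atTop (nhds c) := by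
    intro c D
    have := (tendsto_const_nhds (x := c)).add ((tendsto_const_nhds (x := D)).div_atTop tendsto_id)
    simpa using this
  have h1 : Tendsto (fun L : ℝ => a * (s + (C + ∑ i, v i) / L) ^ n * ∏ i, w i) atTop
      (nhds (a * s ^ n * ∏ i, w i)) :=
    (((hlim s _).pow n).const_mul a).mul_const _
  have h2 : Tendsto (fun L : ℝ => b * (t + C' / L) ^ n * ∏ i, v i) atTop
      (nhds (b * t ^ n * ∏ i, v i)) :=
    (((hlim t _).pow n).const_mul b).mul_const _
  have h3 := h1.eventually_lt h2 h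
  have h4 : ∀ᶠ L : ℝ in atTop, 0 < s * L + C :=
    (tendsto_atTop_add_const_right _ C (tendsto_id.const_mul_atTop hs)).eventually_gt_atTop 0
  have h5 : ∀ᶠ L : ℝ in atTop, 0 < t * L + C' :=
    (tendsto_atTop_add_const_right _ C' (tendsto_id.const_mul_atTop ht)).eventually_gt_atTop 0
  filter_upwards [h3, h4, h5, eventually_gt_atTop 0] with L h3 h4 h5 hL
  have hu := (hb v hv _ h4).2
  have hl := (hb w hw _ h5).1
  have e1 : s * L + C + ∑ i, v i = (s + (C + ∑ i, v i) / L) * L := by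
    field_simp
    ring
  have e2 : t * L + C' = (t + C' / L) * L := by
    field_simp
  rw [e1, mul_pow] at hu
  have hl' : γ * ((t + C' / L) ^ n * L ^ n) / ∏ i, w i ≤ (cnt w (t * L + C') : ℝ) := by
    rw [← mul_pow, ← e2]
    exact hl
  have hLn : 0 < L ^ n := pow_pos hL n
  calc a * (cnt v (s * L + C) : ℝ)
      ≤ a * (γ * ((s + (C + ∑ i, v i) / L) ^ n * L ^ n) / ∏ i, v i) :=
        mul_le_mul_of_nonneg_left hu ha
    _ = (a * (s + (C + ∑ i, v i) / L) ^ n * ∏ i, w i)
          * (γ * L ^ n / ((∏ i, v i) * ∏ i, w i)) := by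
        field_simp
    _ < (b * (t + C' / L) ^ n * ∏ i, v i) * (γ * L ^ n / ((∏ i, v i) * ∏ i, w i)) :=
        mul_lt_mul_of_pos_right h3 (by positivity)
    _ = b * (γ * ((t + C' / L) ^ n * L ^ n) / ∏ i, w i) := by
        field_simp
    _ ≤ b * (cnt w (t * L + C') : ℝ) := mul_le_mul_of_nonneg_left hl' hb0.le

theorem eventually_cnt_le_exp {ι : Type*} [Fintype ι] {w : ι → ℝ} (hw : ∀ i, 0 < w i)
    {η : ℝ} (hη : 0 < η) :
    ∀ᶠ L : ℝ in atTop, (cnt w L : ℝ) ≤ Real.exp (η * L) := by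
  obtain ⟨γ, hγ, hb⟩ := exists_cnt_bounds ι
  set n := Fintype.card ι with hn
  have hPw : 0 < ∏ i, w i := Finset.prod_pos fun i _ => hw i
  have hS : 0 ≤ ∑ i, w i := Finset.sum_nonneg fun i _ => (hw i).le
  have h1 : Tendsto (fun L : ℝ => Real.exp (η * L) / (η * L) ^ n) atTop atTop :=
    (Real.tendsto_exp_div_pow_atTop n).comp (tendsto_id.const_mul_atTop hη)
  filter_upwards [h1.eventually_ge_atTop (γ * (2 / η) ^ n / ∏ i, w i), eventually_gt_atTop 0,
    eventually_ge_atTop (∑ i, w i)] with L h2 hL hLS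
  have hu := (hb w hw L hL).2
  rw [le_div_iff₀ (by positivity)] at h2
  calc (cnt w L : ℝ) ≤ γ * (L + ∑ i, w i) ^ n / ∏ i, w i := hu
    _ ≤ γ * (2 * L) ^ n / ∏ i, w i := by
        gcongr
        linarith
    _ = γ * (2 / η) ^ n / (∏ i, w i) * (η * L) ^ n := by
        have : (2 * L) ^ n = (2 / η) ^ n * (η * L) ^ n := by
          rw [← mul_pow]
          congr 1
          field_simp
        rw [this]
        ring
    _ ≤ _ := h2

theorem cnt_mono {ι : Type*} [Fintype ι] {w : ι → ℝ} (hw : ∀ i, 0 < w i) :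
    Monotone (cnt w) := by
  intro L L' h
  exact Set.ncard_le_ncard (fun α (hα : wt w α < L) => lt_of_lt_of_le hα h) (finite_wt_lt hw L')

theorem cnt_eq_zero {ι : Type*} [Fintype ι] {w : ι → ℝ} (hw : ∀ i, 0 < w i) {L : ℝ}
    (hL : L ≤ 0) : cnt w L = 0 := by
  rw [cnt, Set.ncard_eq_zero (finite_wt_lt hw L)]
  ext α
  simp only [Set.mem_ofPred_eq, Set.mem_empty_iff_false, iff_false, not_lt]
  exact hL.trans (wt_nonneg hw α)

end Vale.Agent.P021
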