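import Vale.Agent.P021.ZeroEst
import Vale.Agent.P021.Analytic

/-! The interpolation determinant: choice of rows, lower bound and upper bound. -/

namespace Vale.Agent.P021

open MvPolynomial

theorem exists_rows_det {ρ ι : Type*} [Fintype ι] [DecidableEq ι] (A : ρ → ι → ℂ)
    (h : ∀ u : ι → ℂ, (∀ r, ∑ c, A r c * u c = 0) → u = 0) :
    ∃ f : ι → ρ, (Matrix.of fun a c => A (f a) c).det ≠ 0 := by
  have hspan : Submodule.span ℂ (Set.range A) = ⊤ := by
    by_contra hne
    obtain ⟨φ, hφ, hle⟩ := Submodule.exists_le_ker_of_lt_top _ (lt_top_iff_ne_top.mpr hne)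
    apply hφ
    have h1 : ∀ x : ι → ℂ, φ x = ∑ c, x c * φ (Pi.single c 1) := by
      intro x
      rw [LinearMap.pi_apply_eq_sum_univ]
      refine Finset.sum_congr rfl fun c _ => ?_
      rw [smul_eq_mul]
      congr 2
      funext j
      simp [Pi.single_apply, eq_comm]
    have h2 := h (fun c => φ (Pi.single c 1)) fun r => by
      rw [← h1]
      exact hle (Submodule.subset_span ⟨r, rfl⟩)
    apply LinearMap.ext
    intro x
    rw [h1]
    simp [show ∀ c, φ (Pi.single c 1) = 0 from fun c => congrFun h2 c]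
  obtain ⟨κ, a, -, hsp, hli⟩ := exists_linearIndependent' ℂ A
  let B : Module.Basis κ ℂ (ι → ℂ) := Module.Basis.mk hli (by rw [hsp, hspan])
  let e : ι ≃ κ := (Pi.basisFun ℂ ι).indexEquiv B
  refine ⟨fun i => a (e i), ?_⟩
  have h3 : LinearIndependent ℂ (Matrix.of fun i c => A (a (e i)) c).row :=
    hli.comp e e.injective
  exact ((Matrix.isUnit_iff_isUnit_det _).mp
    (Matrix.linearIndependent_rows_iff_isUnit.mp h3)).ne_zero

theorem one_le_norm_of_mem_range {z : ℂ} (hz : z ∈ GaussianInt.toComplex.range) (h0 : z ≠ 0) :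
    1 ≤ ‖z‖ := by
  obtain ⟨x, rfl⟩ := hz
  have hx : x ≠ 0 := fun h => h0 (by rw [h, map_zero])
  have h1 : (1 : ℝ) ≤ (x.norm : ℝ) := by exact_mod_cast GaussianInt.norm_pos.mpr hx
  rw [GaussianInt.intCast_real_norm, Complex.normSq_eq_norm_sq] at h1
  exact (one_le_sq_iff₀ (norm_nonneg _)).mp h1

theorem coeff_chart_mem {m : ℕ} {θ c : Fin m → ℂ} {n : Fin m → ℕ}
    (hθ : ∀ i, θ i ∈ GaussianInt.toComplex.range)
    (hc : ∀ i, ∀ l < n i, c i / ((l : ℂ) + 1) ∈ GaussianInt.toComplex.range) (k : ℕ)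
    (e α : Option (Fin m) →₀ ℕ) :
    coeff α (chart θ c n k (monomial e 1)) ∈ GaussianInt.toComplex.range := by
  let S : Subring (Rg m) := (MvPolynomial.map GaussianInt.toComplex).range
  have hC : ∀ z ∈ GaussianInt.toComplex.range, (C z : Rg m) ∈ S := by
    rintro _ ⟨x, rfl⟩
    exact ⟨C x, by simp⟩
  have hX : ∀ o, (X o : Rg m) ∈ S := fun o => ⟨X o, by simp⟩
  have hT : ∀ o, chart θ c n k (X o) ∈ S := by
    intro o
    cases o with
    | none => rw [chart_X_none]; exact S.add_mem S.one_mem (hX _)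
    | some i =>
      rw [chart_X_some]
      refine S.add_mem (S.add_mem (hC _ (Subring.mul_mem _ (natCast_mem _ _) (hθ i))) (hX _)) ?_
      rw [logPoly, Finset.mul_sum]
      refine S.sum_mem fun l hl => ?_
      rw [← mul_assoc, ← map_mul]
      refine S.mul_mem (hC _ ?_) (S.pow_mem (hX _) _)
      rw [show c i * ((-1) ^ l / ((l : ℂ) + 1)) = (-1) ^ l * (c i / ((l : ℂ) + 1)) by ring]
      exact Subring.mul_mem _ (Subring.pow_mem _ (Subring.neg_mem _ (Subring.one_mem _)) _)
        (hc i l (Finset.mem_range.mp hl))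
  have h : chart θ c n k (monomial e 1) ∈ S := by
    rw [monomial_eq, map_mul, chart_C, Finsupp.prod_fintype _ _ (by simp), map_prod]
    refine S.mul_mem (hC _ (Subring.one_mem _)) (S.prod_mem fun o _ => ?_)
    rw [map_pow]
    exact S.pow_mem (hT o) _
  obtain ⟨f, hf⟩ := h
  rw [← hf, coeff_map]
  exact ⟨_, rfl⟩

theorem eval_logPoly {m : ℕ} (n : ℕ) (x : Option (Fin m) → ℂ) :
    eval x (logPoly m n) = Complex.logTaylor (n + 1) (x none) := by
  unfold logPoly Complex.logTaylor
  rw [Finset.sum_range_succ', map_sum]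
  simp only [map_mul, eval_C, map_pow, eval_X, Nat.cast_zero, div_zero, add_zero]
  refine Finset.sum_congr rfl fun l _ => ?_
  push_cast
  ring

theorem det_upper {m : ℕ} {ι : Type*} [Fintype ι] [DecidableEq ι] {θ : Fin m → ℂ}
    {cc ε : Fin m → ℝ} {n : Fin m → ℕ} {K : ℕ} (hcc : ∀ i, 0 < cc i) (hε : ∀ i, 0 < ε i)
    (hθ : ∀ i, ‖θ i / cc i - 2 * Real.pi * Complex.I‖ ≤ 2 * ε i) {r R Λ : ℝ} (hr0 : 0 < r)
    (hr : r ≤ 1 / 2) (hrn : ∀ i, r ^ n i ≤ ε i) (hR : 0 < R) (hΛ : 0 ≤ Λ)
    (lam : Option (Fin m) → ℝ) (hlam : ∀ i, 0 < lam i)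
    (h0 : 14 * K ≤ R * Real.exp (-lam none))
    (h1 : ∀ i, (4 * K + 4) * ε i ≤ Real.exp (-lam (some i)))
    (e α : ι → Option (Fin m) →₀ ℕ) (k : ι → ℕ) (hk : ∀ a, k a < K) :
    ‖(Matrix.of fun a b =>
        coeff (α a) (chart θ (fun i => cc i) n (k a) (monomial (e b) 1))).det‖ *
        ∏ a, (r ^ α a none * ∏ i, (cc i * ε i) ^ α a (some i)) ≤
      ((Fintype.card ι).factorial : ℝ) * 2 ^ ((m + 1) * Fintype.card ι) *
        Real.exp (-(((Fintype.card ι : ℝ) - cnt lam Λ) * Λ)) *
        ∏ b, (Real.exp ((e b none : ℝ) * R) * ∏ i, (cc i * (R + 1)) ^ e b (some i)) := by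
  have key := det_coeff_bound (fun a b => chart θ (fun i => cc i) n (k a) (monomial (e b) 1)) α
    (fun o : Option (Fin m) => o.elim r fun i => cc i * ε i)
    (fun o => by
      cases o with
      | none => exact hr0
      | some i => exact mul_pos (hcc i) (hε i))
    (((Fintype.card ι).factorial : ℝ) * 2 ^ ((m + 1) * Fintype.card ι) *
        Real.exp (-(((Fintype.card ι : ℝ) - cnt lam Λ) * Λ)) *
        ∏ b, (Real.exp ((e b none : ℝ) * R) * ∏ i, (cc i * (R + 1)) ^ e b (some i))) (by
    intro x hx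
    have hu : ∀ a, ‖x a none‖ = r := fun a => hx a none
    have hξ : ∀ a i, ‖x a (some i)‖ = cc i * ε i := fun a i => hx a (some i)
    let z : ι → ℂ := fun a => k a * (2 * Real.pi * Complex.I) + Complex.log (1 + x a none)
    let ζ : ι → Fin m → ℂ := fun a i => k a * (θ i / cc i - 2 * Real.pi * Complex.I) +
      x a (some i) / cc i + (Complex.logTaylor (n i + 1) (x a none) - Complex.log (1 + x a none))
    have hc0 : ∀ i, (cc i : ℂ) ≠ 0 := fun i => by exact_mod_cast (hcc i).ne'
    have hM : (Matrix.of fun a b =>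
        eval (x a) (chart θ (fun i => cc i) n (k a) (monomial (e b) 1))) =
        Matrix.of fun a b => (∏ i, (cc i : ℂ) ^ e b (some i)) *
          (Matrix.of fun a b => Complex.exp ((e b none : ℂ) * z a) *
            ∏ i, (z a + ζ a i) ^ e b (some i)) a b := by
      ext a b
      have hy : Complex.exp (z a) = 1 + x a none := by
        have h2 : (1 : ℂ) + x a none ≠ 0 := by
          intro h
          have h3 : x a none = -1 := by linear_combination h
          have h4 := hu a
          rw [h3] at h4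
          simp at h4
          linarith
        simp only [z]
        rw [Complex.exp_add, Complex.exp_nat_mul_two_pi_mul_I, one_mul, Complex.exp_log h2]
      simp only [Matrix.of_apply]
      rw [monomial_eq, map_mul, chart_C, Finsupp.prod_fintype _ _ (by simp), map_prod, map_mul,
        eval_C, one_mul, map_prod, Fintype.prod_option, Complex.exp_nat_mul, hy, mul_left_comm,
        ← Finset.prod_mul_distrib]
      simp only [map_pow, chart_X_none, chart_X_some, map_add, map_mul, eval_C, eval_X, map_one,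
        eval_logPoly]
      congr 1
      refine Finset.prod_congr rfl fun i _ => ?_
      rw [← mul_pow]
      congr 1
      simp only [z, ζ]
      field_simp [hc0 i]
      ring
    have hkK : ∀ a, (k a : ℝ) + 1 ≤ K := fun a => by exact_mod_cast hk a
    have hb := det_point_bound e z ζ R Λ hR hΛ lam hlam (fun a => by
      refine le_trans ?_ h0
      have h2 : ‖Complex.log (1 + x a none)‖ ≤ 3 / 2 * r := by
        rw [← hu a]
        exact Complex.norm_log_one_add_half_le_self (by rw [hu a]; exact hr)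
      have h3 : ‖(k a : ℂ) * (2 * Real.pi * Complex.I)‖ = k a * (2 * Real.pi) := by
        simp [abs_of_pos Real.pi_pos]
      have h4 : ‖z a‖ ≤ k a * (2 * Real.pi) + 3 / 2 * r :=
        (norm_add_le _ _).trans (by rw [h3]; linarith)
      have h5 : (k a : ℝ) * (2 * Real.pi) ≤ k a * 7 := by
        gcongr
        linarith [Real.pi_lt_d2]
      linarith [hkK a]) (fun a i => by
      refine le_trans ?_ (h1 i)
      have h2 : ‖(k a : ℂ) * (θ i / cc i - 2 * Real.pi * Complex.I)‖ ≤ K * (2 * ε i) := by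
        rw [norm_mul, Complex.norm_natCast]
        gcongr
        · exact (hk a).le
        · exact hθ i
      have h3 : ‖x a (some i) / cc i‖ = ε i := by
        rw [norm_div, hξ, Complex.norm_real, Real.norm_eq_abs, abs_of_pos (hcc i)]
        field_simp [(hcc i).ne']
      have h4 : ‖Complex.logTaylor (n i + 1) (x a none) - Complex.log (1 + x a none)‖ ≤ ε i := by
        rw [norm_sub_rev]
        refine (Complex.norm_log_sub_logTaylor_le (n i) (by rw [hu a]; linarith)).trans
          (le_trans ?_ (hrn i))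
        rw [hu a, pow_succ]
        have h5 : r * (1 - r)⁻¹ ≤ 1 := by
          rw [← div_eq_mul_inv, div_le_one (by linarith)]
          linarith
        have h6 : (1 : ℝ) ≤ (n i : ℝ) + 1 := by linarith [Nat.cast_nonneg (α := ℝ) (n i)]
        calc r ^ n i * r * (1 - r)⁻¹ / ((n i : ℝ) + 1) ≤ r ^ n i * r * (1 - r)⁻¹ := by
              refine div_le_self ?_ h6
              have : 0 < 1 - r := by linarith
              positivity
          _ = r ^ n i * (r * (1 - r)⁻¹) := by ring
          _ ≤ r ^ n i * 1 := by gcongr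
          _ = r ^ n i := mul_one _
      have h7 : ‖ζ a i‖ ≤ K * (2 * ε i) + ε i + ε i :=
        (norm_add_le _ _).trans (add_le_add ((norm_add_le _ _).trans (by rw [h3]; linarith)) h4)
      linarith)
    rw [hM, Matrix.det_mul_row, norm_mul]
    have h8 : ‖∏ b, ∏ i, (cc i : ℂ) ^ e b (some i)‖ = ∏ b, ∏ i, cc i ^ e b (some i) := by
      simp only [norm_prod, norm_pow, Complex.norm_real, Real.norm_eq_abs, abs_of_pos (hcc _)]
    rw [h8]
    refine (mul_le_mul_of_nonneg_left hb (Finset.prod_nonneg fun b _ =>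
      Finset.prod_nonneg fun i _ => pow_nonneg (hcc i).le _)).trans (le_of_eq ?_)
    simp only [mul_pow, Finset.prod_mul_distrib]
    ring)
  simpa only [Fintype.prod_option, Option.elim] using key

theorem core_ineq {m : ℕ} {θ : Fin m → ℂ} {cc ε : Fin m → ℝ} {n : Fin m → ℕ} {K : ℕ}
    {w v : Option (Fin m) → ℝ} (hw : ∀ i, 0 < w i)
    (hcc : ∀ i, 0 < cc i) (hε : ∀ i, 0 < ε i)
    (hθZ : ∀ i, θ i ∈ GaussianInt.toComplex.range)
    (hcZ : ∀ i, ∀ l < n i, (cc i : ℂ) / ((l : ℂ) + 1) ∈ GaussianInt.toComplex.range)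
    (hθ : ∀ i, ‖θ i / cc i - 2 * Real.pi * Complex.I‖ ≤ 2 * ε i) {s R Λ η D τ : ℝ}
    (hs : 0 ≤ s) (hη : 0 < η) (hD : 0 < D)
    (hr : Real.exp (-(s * v none)) ≤ 1 / 2) (hrn : ∀ i, Real.exp (-(s * v none)) ^ n i ≤ ε i)
    (hR : 0 < R) (hΛ : 0 ≤ Λ) (lam : Option (Fin m) → ℝ) (hlam : ∀ i, 0 < lam i)
    (h0 : 14 * K ≤ R * Real.exp (-lam none))
    (h1 : ∀ i, (4 * K + 4) * ε i ≤ Real.exp (-lam (some i)))
    (h2 : ∀ i, Real.exp (-(s * v (some i))) ≤ cc i * ε i)
    (h3 : R ≤ (1 + η) * w none) (h4 : ∀ i, cc i * (R + 1) ≤ Real.exp ((1 + η) * w (some i)))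
    (h5 : (cnt lam Λ : ℝ) ≤ η * cnt w D) (h6 : (cnt w D : ℝ) ≤ Real.exp (η * D))
    (h7 : (m : ℝ) + 1 ≤ η * D)
    (hinj : ∀ P : Rg m, P ∈ degLT w D → (∀ k < K, ∀ α, wt v α < τ →
      coeff α (chart θ (fun i => cc i) n k P) = 0) → P = 0) :
    (1 - η) * Λ ≤ (1 + 3 * η) * D + s * τ := by
  classical
  let ι := {α : Option (Fin m) →₀ ℕ | wt w α < D}
  have : Finite ι := (finite_wt_lt hw D).to_subtype
  let _ : Fintype ι := Fintype.ofFinite ι
  have hN : Fintype.card ι = cnt w D := by rw [← Nat.card_eq_fintype_card]; rfl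
  obtain ⟨f, hf⟩ := exists_rows_det
    (ρ := {x : ℕ × (Option (Fin m) →₀ ℕ) // x.1 < K ∧ wt v x.2 < τ}) (ι := ι)
    (fun x b => coeff x.1.2 (chart θ (fun i => cc i) n x.1.1 (monomial b.1 1))) (by
      intro u hu
      have hP := hinj (∑ b : ι, u b • monomial b.1 1)
        (Submodule.sum_mem _ fun b _ => Submodule.smul_mem _ _ (monomial_mem_degLT _ b.2))
        (fun k hk α hα => by
          rw [← hu ⟨(k, α), hk, hα⟩, map_sum, coeff_sum]
          refine Finset.sum_congr rfl fun b _ => ?_
          rw [map_smul, coeff_smul, smul_eq_mul, mul_comm])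
      funext b
      have := congrArg (coeff b.1) hP
      rw [coeff_sum, Finset.sum_eq_single b] at this
      · simpa using this
      · intro b' _ hb'
        rw [coeff_smul, coeff_monomial, if_neg (fun h => hb' (Subtype.ext h)), smul_zero]
      · simp)
  have hlow := one_le_norm_of_mem_range (by
    rw [Matrix.det_apply']
    exact Subring.sum_mem _ fun σ _ => Subring.mul_mem _ (intCast_mem _ _)
      (Subring.prod_mem _ fun b _ => coeff_chart_mem hθZ hcZ _ _ _)) hf
  have hup := det_upper hcc hε hθ (Real.exp_pos _) hr hrn hR hΛ lam hlam h0 h1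
    (fun b : ι => b.1) (fun a => (f a).1.2) (fun a => (f a).1.1) (fun a => (f a).2.1)
  set N := Fintype.card ι with hNdef
  have hN0 : 0 < N := by rw [hN]; exact cnt_pos hw hD
  have hN0' : (0 : ℝ) < N := by exact_mod_cast hN0
  rw [← hN] at h5 h6
  have e1 : Real.exp (N * (-(s * τ))) ≤
      ∏ a : ι, (Real.exp (-(s * v none)) ^ (f a).1.2 none *
        ∏ i, (cc i * ε i) ^ (f a).1.2 (some i)) := by
    rw [Real.exp_nat_mul, hNdef, ← Finset.card_univ, ← Finset.prod_const]
    refine Finset.prod_le_prod (fun a _ => (Real.exp_pos _).le) fun a _ => ?_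
    calc Real.exp (-(s * τ)) ≤ Real.exp (-(s * wt v (f a).1.2)) := by
          have := (f a).2.2
          gcongr
      _ = Real.exp (-(s * v none)) ^ (f a).1.2 none *
          ∏ i, Real.exp (-(s * v (some i))) ^ (f a).1.2 (some i) := by
          simp only [← Real.exp_nat_mul, ← Real.exp_sum, ← Real.exp_add]
          congr 1
          rw [wt, Fintype.sum_option, mul_add, Finset.mul_sum, neg_add, ← Finset.sum_neg_distrib]
          congr 1
          · ring
          · exact Finset.sum_congr rfl fun i _ => by ring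
      _ ≤ _ := by
          gcongr with i
          exact h2 i
  have e2 : ∏ b : ι, (Real.exp ((b.1 none : ℝ) * R) * ∏ i, (cc i * (R + 1)) ^ b.1 (some i)) ≤
      Real.exp (N * ((1 + η) * D)) := by
    rw [Real.exp_nat_mul, hNdef, ← Finset.card_univ, ← Finset.prod_const]
    refine Finset.prod_le_prod (fun b _ => mul_nonneg (Real.exp_pos _).le
      (Finset.prod_nonneg fun i _ => pow_nonneg (mul_pos (hcc i) (by linarith)).le _))
      fun b _ => ?_
    calc Real.exp ((b.1 none : ℝ) * R) * ∏ i, (cc i * (R + 1)) ^ b.1 (some i) ≤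
          Real.exp ((b.1 none : ℝ) * ((1 + η) * w none)) *
            ∏ i, Real.exp ((1 + η) * w (some i)) ^ b.1 (some i) := by
          gcongr with i
          · exact Finset.prod_nonneg fun i _ => pow_nonneg (mul_pos (hcc i) (by linarith)).le _
          · intro i _
            exact pow_nonneg (mul_pos (hcc i) (by linarith)).le _
          · exact (mul_pos (hcc i) (by linarith)).le
          · exact h4 i
      _ = Real.exp ((1 + η) * wt w b.1) := by
          simp only [← Real.exp_nat_mul, ← Real.exp_sum, ← Real.exp_add]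
          congr 1
          rw [wt, Fintype.sum_option, mul_add, Finset.mul_sum]
          congr 1
          · ring
          · exact Finset.sum_congr rfl fun i _ => by ring
      _ ≤ Real.exp ((1 + η) * D) := by
          have : wt w b.1 < D := b.2
          gcongr
  have e3 : (N.factorial : ℝ) ≤ Real.exp (N * (η * D)) := by
    rw [Real.exp_nat_mul]
    calc (N.factorial : ℝ) ≤ (N : ℝ) ^ N := by exact_mod_cast Nat.factorial_le_pow N
      _ ≤ _ := by gcongr
  have e4 : (2 : ℝ) ^ ((m + 1) * N) ≤ Real.exp (N * (η * D)) := by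
    calc (2 : ℝ) ^ ((m + 1) * N) ≤ Real.exp 1 ^ ((m + 1) * N) := by
          gcongr
          linarith [Real.add_one_le_exp 1]
      _ = Real.exp (N * ((m : ℝ) + 1)) := by
          rw [← Real.exp_nat_mul]
          push_cast
          ring_nf
      _ ≤ _ := by gcongr
  have e5 : Real.exp (-(((N : ℝ) - cnt lam Λ) * Λ)) ≤ Real.exp (N * (-((1 - η) * Λ))) := by
    apply Real.exp_le_exp.mpr
    nlinarith
  have e6 : Real.exp (N * (-(s * τ))) ≤ Real.exp (N * (η * D)) * Real.exp (N * (η * D)) *
      Real.exp (N * (-((1 - η) * Λ))) * Real.exp (N * ((1 + η) * D)) := by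
    refine e1.trans (le_trans (le_mul_of_one_le_left ((Real.exp_pos _).le.trans e1) hlow)
      (hup.trans ?_))
    gcongr
    exact Finset.prod_nonneg fun b _ => mul_nonneg (Real.exp_pos _).le
      (Finset.prod_nonneg fun i _ => pow_nonneg (mul_pos (hcc i) (by linarith)).le _)
  simp only [← Real.exp_add, Real.exp_le_exp, ← mul_add] at e6
  have := le_of_mul_le_mul_left e6 hN0'
  linarith

end Vale.Agent.P021
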