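import Vale.Agent.P021.Count

/-! Weighted degree and weighted order filtrations on polynomial rings. -/

namespace Vale.Agent.P021

open MvPolynomial

variable {ι : Type*} [Fintype ι]

/-- Polynomials all of whose monomials have weight below `L`. -/
noncomputable def degLT (w : ι → ℝ) (L : ℝ) : Submodule ℂ (MvPolynomial ι ℂ) :=
  restrictSupport ℂ {α | wt w α < L}

/-- Polynomials all of whose monomials have weight at most `L`. -/
noncomputable def degLE (w : ι → ℝ) (L : ℝ) : Submodule ℂ (MvPolynomial ι ℂ) :=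
  restrictSupport ℂ {α | wt w α ≤ L}

theorem wt_mono {v : ι → ℝ} (hv : ∀ i, 0 < v i) {α β : ι →₀ ℕ} (h : α ≤ β) :
    wt v α ≤ wt v β :=
  Finset.sum_le_sum fun i _ => mul_le_mul_of_nonneg_right (by exact_mod_cast h i) (hv i).le

/-- Polynomials all of whose monomials have weight at least `μ`. -/
noncomputable def ordGE (v : ι → ℝ) (hv : ∀ i, 0 < v i) (μ : ℝ) : Ideal (MvPolynomial ι ℂ) :=
  restrictSupportIdeal ℂ {α | μ ≤ wt v α} fun _ _ h hα => le_trans hα (wt_mono hv h)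

theorem mem_degLT {w : ι → ℝ} {L : ℝ} {f : MvPolynomial ι ℂ} :
    f ∈ degLT w L ↔ ∀ α ∈ f.support, wt w α < L := Iff.rfl

theorem mem_degLE {w : ι → ℝ} {L : ℝ} {f : MvPolynomial ι ℂ} :
    f ∈ degLE w L ↔ ∀ α ∈ f.support, wt w α ≤ L := Iff.rfl

theorem mem_ordGE {v : ι → ℝ} {hv : ∀ i, 0 < v i} {μ : ℝ} {f : MvPolynomial ι ℂ} :
    f ∈ ordGE v hv μ ↔ ∀ α ∈ f.support, μ ≤ wt v α := Iff.rfl

theorem degLT_finite {w : ι → ℝ} (hw : ∀ i, 0 < w i) (L : ℝ) :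
    FiniteDimensional ℂ (degLT w L) := by
  have : Finite {α : ι →₀ ℕ | wt w α < L} := (finite_wt_lt hw L).to_subtype
  exact Module.Finite.of_basis (basisRestrictSupport ℂ {α : ι →₀ ℕ | wt w α < L})

theorem finrank_degLT (w : ι → ℝ) (L : ℝ) : Module.finrank ℂ (degLT w L) = cnt w L :=
  Module.finrank_eq_nat_card_basis (basisRestrictSupport ℂ {α : ι →₀ ℕ | wt w α < L})

theorem degLT_mono (w : ι → ℝ) : Monotone (degLT w) :=
  fun _ _ h _ hf α hα => lt_of_lt_of_le (mem_degLT.mp hf α hα) h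

theorem degLE_mono {w : ι → ℝ} {L L' : ℝ} (h : L ≤ L') {f : MvPolynomial ι ℂ}
    (hf : f ∈ degLE w L) : f ∈ degLE w L' :=
  fun α hα => le_trans (mem_degLE.mp hf α hα) h

theorem degLE_of_degLT {w : ι → ℝ} {L : ℝ} {f : MvPolynomial ι ℂ} (hf : f ∈ degLT w L) :
    f ∈ degLE w L := fun α hα => le_of_lt (mem_degLT.mp hf α hα)

theorem ordGE_anti {v : ι → ℝ} {hv : ∀ i, 0 < v i} {μ μ' : ℝ} (h : μ' ≤ μ)
    {f : MvPolynomial ι ℂ} (hf : f ∈ ordGE v hv μ) : f ∈ ordGE v hv μ' :=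
  fun α hα => le_trans h (mem_ordGE.mp hf α hα)

theorem degLE_mul_degLT {w : ι → ℝ} {e L : ℝ} {f g : MvPolynomial ι ℂ} (hf : f ∈ degLE w e)
    (hg : g ∈ degLT w L) : f * g ∈ degLT w (L + e) := by
  classical
  rw [mem_degLT]
  intro α hα
  obtain ⟨β, hβ, γ, hγ, rfl⟩ := Finset.mem_add.mp (support_mul f g hα)
  have h1 := mem_degLE.mp hf β hβ
  have h2 := mem_degLT.mp hg γ hγ
  rw [wt_add]
  linarith

theorem degLE_mul {w : ι → ℝ} {e L : ℝ} {f g : MvPolynomial ι ℂ} (hf : f ∈ degLE w e)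
    (hg : g ∈ degLE w L) : f * g ∈ degLE w (e + L) := by
  classical
  rw [mem_degLE]
  intro α hα
  obtain ⟨β, hβ, γ, hγ, rfl⟩ := Finset.mem_add.mp (support_mul f g hα)
  have h1 := mem_degLE.mp hf β hβ
  have h2 := mem_degLE.mp hg γ hγ
  rw [wt_add]
  linarith

theorem ordGE_mul {v : ι → ℝ} {hv : ∀ i, 0 < v i} {μ τ : ℝ} {f g : MvPolynomial ι ℂ}
    (hf : f ∈ ordGE v hv τ) (hg : g ∈ ordGE v hv μ) : f * g ∈ ordGE v hv (μ + τ) := by
  classical
  rw [mem_ordGE]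
  intro α hα
  obtain ⟨β, hβ, γ, hγ, rfl⟩ := Finset.mem_add.mp (support_mul f g hα)
  have h1 := mem_ordGE.mp hf β hβ
  have h2 := mem_ordGE.mp hg γ hγ
  rw [wt_add]
  linarith

theorem mem_ordGE_of_nonpos {v : ι → ℝ} {hv : ∀ i, 0 < v i} {μ : ℝ} (h : μ ≤ 0)
    (f : MvPolynomial ι ℂ) : f ∈ ordGE v hv μ :=
  fun α _ => le_trans h (wt_nonneg hv α)

theorem ordGE_pow {v : ι → ℝ} {hv : ∀ i, 0 < v i} {μ : ℝ} {f : MvPolynomial ι ℂ}
    (hf : f ∈ ordGE v hv μ) (n : ℕ) : f ^ n ∈ ordGE v hv (n * μ) := by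
  induction n with
  | zero => exact mem_ordGE_of_nonpos (by simp) _
  | succ n ih =>
    rw [pow_succ']
    refine ordGE_anti (le_of_eq ?_) (ordGE_mul hf ih)
    push_cast
    ring

theorem monomial_mem_degLE {w : ι → ℝ} {L : ℝ} {α : ι →₀ ℕ} (a : ℂ) (h : wt w α ≤ L) :
    monomial α a ∈ degLE w L := (monomial_mem_restrictSupport ℂ).mpr (Or.inl h)

theorem monomial_mem_degLT {w : ι → ℝ} {L : ℝ} {α : ι →₀ ℕ} (a : ℂ) (h : wt w α < L) :
    monomial α a ∈ degLT w L := (monomial_mem_restrictSupport ℂ).mpr (Or.inl h)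

theorem monomial_mem_ordGE {v : ι → ℝ} {hv : ∀ i, 0 < v i} {μ : ℝ} {α : ι →₀ ℕ} (a : ℂ)
    (h : μ ≤ wt v α) : monomial α a ∈ ordGE v hv μ :=
  (monomial_mem_restrictSupport ℂ (s := {α | μ ≤ wt v α})).mpr (Or.inl h)

theorem X_mem_degLE (w : ι → ℝ) (i : ι) : (X i : MvPolynomial ι ℂ) ∈ degLE w (w i) :=
  monomial_mem_degLE 1 (by rw [wt_single]; simp)

theorem C_mem_degLE (w : ι → ℝ) (a : ℂ) : (C a : MvPolynomial ι ℂ) ∈ degLE w 0 :=
  monomial_mem_degLE a (by simp)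

theorem X_mem_ordGE {v : ι → ℝ} {hv : ∀ i, 0 < v i} (i : ι) :
    (X i : MvPolynomial ι ℂ) ∈ ordGE v hv (v i) :=
  monomial_mem_ordGE 1 (by rw [wt_single]; simp)

theorem exists_degLE (w : ι → ℝ) (f : MvPolynomial ι ℂ) : ∃ e, f ∈ degLE w e := by
  obtain ⟨e, he⟩ := (f.support.finite_toSet.image (wt w)).bddAbove
  exact ⟨e, fun α hα => he ⟨α, hα, rfl⟩⟩

theorem pderiv_mem_degLE {w : ι → ℝ} {L : ℝ} {f : MvPolynomial ι ℂ} (hf : f ∈ degLE w L)
    (i : ι) : pderiv i f ∈ degLE w (L - w i) := by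
  rw [mem_degLE]
  intro α hα
  rw [mem_support_iff, coeff_pderiv] at hα
  have := mem_degLE.mp hf _ (mem_support_iff.mpr (left_ne_zero_of_mul hα))
  rw [wt_add, wt_single] at this
  push_cast at this
  linarith

theorem pderiv_mem_ordGE {v : ι → ℝ} {hv : ∀ i, 0 < v i} {μ : ℝ} {f : MvPolynomial ι ℂ}
    (hf : f ∈ ordGE v hv μ) (i : ι) : pderiv i f ∈ ordGE v hv (μ - v i) := by
  rw [mem_ordGE]
  intro α hα
  rw [mem_support_iff, coeff_pderiv] at hα
  have := mem_ordGE.mp hf _ (mem_support_iff.mpr (left_ne_zero_of_mul hα))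
  rw [wt_add, wt_single] at this
  push_cast at this
  linarith

theorem nonempty_quot_equiv {v : ι → ℝ} (hv : ∀ i, 0 < v i) (μ : ℝ) :
    Nonempty (degLT v μ ≃ₗ[ℂ] (MvPolynomial ι ℂ ⧸ ordGE v hv μ)) := by
  classical
  refine ⟨LinearEquiv.ofBijective
    ((Ideal.Quotient.mkₐ ℂ (ordGE v hv μ)).toLinearMap.comp (degLT v μ).subtype) ⟨?_, ?_⟩⟩
  · rw [← LinearMap.ker_eq_bot, LinearMap.ker_eq_bot']
    rintro ⟨f, hf⟩ h
    have h1 : f ∈ ordGE v hv μ := Ideal.Quotient.eq_zero_iff_mem.mp h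
    apply Subtype.ext
    change f = 0
    rw [← support_eq_empty, Finset.eq_empty_iff_forall_notMem]
    intro α hα
    exact absurd (mem_degLT.mp hf α hα) (not_lt.mpr (mem_ordGE.mp h1 α hα))
  · intro x
    obtain ⟨f, rfl⟩ := Ideal.Quotient.mk_surjective x
    refine ⟨⟨∑ α ∈ f.support.filter (fun α => wt v α < μ), monomial α (coeff α f),
      Submodule.sum_mem _ fun α hα => monomial_mem_degLT _ (Finset.mem_filter.mp hα).2⟩, ?_⟩
    change Ideal.Quotient.mk _ _ = _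
    symm
    rw [Ideal.Quotient.eq]
    have h := Finset.sum_filter_add_sum_filter_not f.support (fun α => wt v α < μ)
      (fun α => monomial α (coeff α f))
    rw [← f.as_sum] at h
    rw [Submodule.subtype_apply, sub_eq_of_eq_add' h.symm]
    exact Ideal.sum_mem _ fun α hα =>
      monomial_mem_ordGE _ (not_lt.mp (Finset.mem_filter.mp hα).2)

theorem quot_finite {v : ι → ℝ} (hv : ∀ i, 0 < v i) (μ : ℝ) :
    FiniteDimensional ℂ (MvPolynomial ι ℂ ⧸ ordGE v hv μ) := by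
  obtain ⟨e⟩ := nonempty_quot_equiv hv μ
  have := degLT_finite hv μ
  exact e.finiteDimensional

theorem finrank_quot {v : ι → ℝ} (hv : ∀ i, 0 < v i) (μ : ℝ) :
    Module.finrank ℂ (MvPolynomial ι ℂ ⧸ ordGE v hv μ) = cnt v μ := by
  obtain ⟨e⟩ := nonempty_quot_equiv hv μ
  rw [← e.finrank_eq, finrank_degLT]

theorem exists_aux_poly {w v : ι → ℝ} (hw : ∀ i, 0 < w i) (hv : ∀ i, 0 < v i) {K : ℕ}
    (T : Fin K → MvPolynomial ι ℂ →ₐ[ℂ] MvPolynomial ι ℂ) {D τ : ℝ}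
    (h : K * cnt v τ < cnt w D) :
    ∃ P : MvPolynomial ι ℂ, P ≠ 0 ∧ P ∈ degLT w D ∧ ∀ k, T k P ∈ ordGE v hv τ := by
  have := degLT_finite hw D
  have := quot_finite hv τ
  let Φ : degLT w D →ₗ[ℂ] (Fin K → MvPolynomial ι ℂ ⧸ ordGE v hv τ) :=
    LinearMap.pi fun k => ((Ideal.Quotient.mkₐ ℂ (ordGE v hv τ)).comp (T k)).toLinearMap.comp
      (degLT w D).subtype
  have h1 : LinearMap.ker Φ ≠ ⊥ := LinearMap.ker_ne_bot_of_finrank_lt (by
    rw [Module.finrank_pi_fintype, finrank_degLT]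
    simpa [finrank_quot] using h)
  obtain ⟨⟨P, hP⟩, h2, h3⟩ := Submodule.exists_mem_ne_zero_of_ne_bot h1
  refine ⟨P, fun h => h3 (Subtype.ext h), hP, fun k => ?_⟩
  exact Ideal.Quotient.eq_zero_iff_mem.mp (congrFun (LinearMap.mem_ker.mp h2) k)

theorem telescope_le {A B : ℕ → ℝ} {τ D : ℕ} (hA : Monotone A) (hB : Monotone B)
    (hB0 : ∀ n, 0 ≤ B n) (hA0 : ∀ n < τ, A n = 0)
    (h : ∀ n, A (τ + n) + B n ≤ A n + B (D + n)) (L : ℕ) : τ * A L ≤ D * B (L + D) := by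
  have h1 : ∑ n ∈ Finset.range L, A (τ + n) + ∑ n ∈ Finset.range L, B n ≤
      ∑ n ∈ Finset.range L, A n + ∑ n ∈ Finset.range L, B (D + n) := by
    rw [← Finset.sum_add_distrib, ← Finset.sum_add_distrib]
    exact Finset.sum_le_sum fun n _ => h n
  have a1 := Finset.sum_range_add A τ L
  have a2 := Finset.sum_range_add A L τ
  have b1 := Finset.sum_range_add B D L
  have b2 := Finset.sum_range_add B L D
  rw [add_comm L τ] at a2
  rw [add_comm L D] at b2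
  have a3 : ∑ n ∈ Finset.range τ, A n = 0 :=
    Finset.sum_eq_zero fun n hn => hA0 n (Finset.mem_range.mp hn)
  have a4 : τ * A L ≤ ∑ n ∈ Finset.range τ, A (L + n) := by
    have := Finset.card_nsmul_le_sum (Finset.range τ) (fun n => A (L + n)) (A L)
      fun n _ => hA (Nat.le_add_right _ _)
    simpa using this
  have b3 : 0 ≤ ∑ n ∈ Finset.range D, B n := Finset.sum_nonneg fun n _ => hB0 n
  have b4 : ∑ n ∈ Finset.range D, B (L + n) ≤ D * B (L + D) := by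
    have := Finset.sum_le_card_nsmul (Finset.range D) (fun n => B (L + n)) (B (L + D))
      fun n hn => hB (Nat.add_le_add_left (Finset.mem_range.mp hn).le _)
    simpa using this
  linarith

end Vale.Agent.P021
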