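import Vale.Agent.P021.Main

/-! From the contradiction to the statement about sets of coprime pairs. -/

namespace Vale.Agent.P021

theorem finite_pairs {ν : ℝ} (hν : 2 < ν) :
    {x : ℤ × ℤ | 2 ≤ x.2 ∧ |Real.pi - x.1 / x.2| < (x.2 : ℝ) ^ (-ν)}.Finite := by
  by_contra hinf
  have hlt : ∀ x : ℤ × ℤ, 2 ≤ x.2 → |Real.pi - x.1 / x.2| < (x.2 : ℝ) ^ (-ν) →
      0 < x.1 ∧ x.1 ≤ 5 * x.2 := by
    intro x h2 h
    have hq : (2 : ℝ) ≤ x.2 := by exact_mod_cast h2
    have h1 : (x.2 : ℝ) ^ (-ν) ≤ 1 :=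
      Real.rpow_le_one_of_one_le_of_nonpos (by linarith) (by linarith)
    have h3 := abs_lt.mp (h.trans_le h1)
    have h4 : (0 : ℝ) < x.1 / x.2 := by linarith [Real.pi_gt_three]
    have h5 : (x.1 : ℝ) / x.2 ≤ 5 := by linarith [Real.pi_lt_four]
    rw [div_le_iff₀ (by linarith)] at h5
    rw [lt_div_iff₀ (by linarith), zero_mul] at h4
    exact ⟨by exact_mod_cast h4, by exact_mod_cast h5⟩
  refine not_approx ν hν fun Q => ?_
  by_contra hcon
  apply hinf
  refine ((Set.finite_Icc (0 : ℤ) (5 * ⌈Real.exp Q⌉)).prod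
    (Set.finite_Icc (0 : ℤ) ⌈Real.exp Q⌉)).subset ?_
  rintro x ⟨h2, h⟩
  obtain ⟨h3, h4⟩ := hlt x h2 h
  have hq : (2 : ℝ) ≤ x.2 := by exact_mod_cast h2
  have hcast : ((x.2.toNat : ℕ) : ℝ) = x.2 := by
    have : ((x.2.toNat : ℕ) : ℤ) = x.2 := Int.toNat_of_nonneg (by omega)
    exact_mod_cast this
  have h5 : x.2 ≤ ⌈Real.exp Q⌉ := by
    by_contra h6
    apply hcon
    refine ⟨(x.1, x.2.toNat), ⟨by simp only; omega, h3.ne', ?_⟩, ?_⟩
    · simp only [hcast]
      rw [Real.rpow_def_of_pos (by linarith)] at h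
      rw [show -(ν * Real.log x.2) = Real.log x.2 * -ν by ring]
      exact h.le
    · simp only [hcast]
      rw [Real.le_log_iff_exp_le (by linarith)]
      exact (Int.ceil_le.mp (not_le.mp h6).le)
  exact ⟨⟨h3.le, by omega⟩, by omega, h5⟩

theorem infinite_pairs_two :
    {x : ℤ × ℤ | IsCoprime x.1 x.2 ∧ 2 ≤ x.2 ∧ 0 < |Real.pi - x.1 / x.2| ∧
      |Real.pi - x.1 / x.2| < (x.2 : ℝ) ^ (-(2 : ℝ))}.Infinite := by
  have h1 := Real.infinite_rat_abs_sub_lt_one_div_den_sq_of_irrational irrational_pi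
  have h2 : ({3, 4} : Set ℚ).Finite := Set.toFinite _
  have h3 := (h1.sdiff h2).image (f := fun r : ℚ => (r.num, (r.den : ℤ))) (by
    intro a _ b _ h
    simp only [Prod.mk.injEq, Nat.cast_inj] at h
    exact Rat.ext h.1 h.2)
  refine h3.mono ?_
  rintro _ ⟨r, ⟨hr, hr'⟩, rfl⟩
  have hr1 : |Real.pi - r| < 1 / (r.den : ℝ) ^ 2 := hr
  have hcast : ((r.num : ℝ) / ((r.den : ℤ) : ℝ)) = r := by
    rw [Int.cast_natCast, Rat.cast_def]
  have hden : 2 ≤ r.den := by
    by_contra h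
    have h4 : r.den = 1 := by have := r.den_pos; omega
    have h5 : (r : ℝ) = r.num := by rw [Rat.cast_def, h4]; simp
    rw [h4, h5] at hr1
    have h6 := abs_lt.mp hr1
    have h7 : (2 : ℝ) < r.num := by linarith [Real.pi_gt_three, h6.2]
    have h8 : (r.num : ℝ) < 5 := by linarith [Real.pi_lt_four, h6.1]
    have h9 : 2 < r.num := by exact_mod_cast h7
    have h10 : r.num < 5 := by exact_mod_cast h8
    have h11 : r = r.num := (Rat.coe_int_num_of_den_eq_one h4).symm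
    apply hr'
    have : r.num = 3 ∨ r.num = 4 := by omega
    rcases this with h | h
    · left; rw [h11, h]; norm_num
    · right; rw [h11, h]; norm_num
  refine ⟨Int.isCoprime_iff_gcd_eq_one.mpr r.reduced, by simpa using hden, ?_, ?_⟩
  · simp only [hcast]
    exact abs_pos.mpr (sub_ne_zero.mpr (irrational_pi.ne_rat r))
  · simp only [hcast]
    rw [Real.rpow_neg (by positivity), Real.rpow_two, Int.cast_natCast, ← one_div]
    exact hr1

end Vale.Agent.P021
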