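import Vale.Agent.P021.Defs

/-! Comparison of a degree filtration with finitely many order filtrations, by Noetherian
induction on ideals. -/

namespace Vale.Agent.P021

variable {R : Type*} [CommRing R] [Algebra ℂ R]

/-- Dimension of the image of the subspace `V` in the quotient by `b`. -/
noncomputable def hdeg (V : Submodule ℂ R) (b : Ideal R) : ℕ :=
  Module.finrank ℂ (V.map (Ideal.Quotient.mkₐ ℂ b).toLinearMap)

/-- Sum over the points of the colength of `b + F k`. -/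
noncomputable def hord {κ : Type*} [Fintype κ] (F : κ → Ideal R) (b : Ideal R) : ℕ :=
  ∑ k, Module.finrank ℂ (R ⧸ (b ⊔ F k))

/-- The ideal quotient of `b` by an element. -/
def hcol (b : Ideal R) (f : R) : Ideal R := Submodule.comap (LinearMap.mulLeft R f) b

omit [Algebra ℂ R] in
lemma mem_hcol {b : Ideal R} {f x : R} : x ∈ hcol b f ↔ f * x ∈ b := Iff.rfl

/-- Multiplication by `f` between quotients. -/
noncomputable def hmul (J I : Ideal R) (f : R) (h : ∀ x ∈ J, f * x ∈ I) :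
    (R ⧸ J) →ₗ[ℂ] (R ⧸ I) :=
  (Submodule.mapQ J I (LinearMap.mulLeft R f) h).restrictScalars ℂ

lemma hmul_mk (J I : Ideal R) (f : R) (h : ∀ x ∈ J, f * x ∈ I) (x : R) :
    hmul J I f h (Ideal.Quotient.mk J x) = Ideal.Quotient.mk I (f * x) := rfl

lemma finrank_map_add_inf_ker {M N : Type*} [AddCommGroup M] [Module ℂ M] [AddCommGroup N]
    [Module ℂ N] (φ : M →ₗ[ℂ] N) (W : Submodule ℂ M) [FiniteDimensional ℂ W] :
    Module.finrank ℂ (W.map φ) + Module.finrank ℂ (W ⊓ LinearMap.ker φ : Submodule ℂ M) =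
      Module.finrank ℂ W := by
  rw [← LinearMap.finrank_range_add_finrank_ker (φ.domRestrict W), LinearMap.range_domRestrict,
    LinearMap.ker_domRestrict, ← Submodule.map_comap_subtype, Submodule.finrank_map_subtype_eq]

lemma hdeg_mono {V V' : Submodule ℂ R} [FiniteDimensional ℂ V'] (h : V ≤ V') (b : Ideal R) :
    hdeg V b ≤ hdeg V' b :=
  Submodule.finrank_mono (Submodule.map_mono h)

lemma hdeg_step {V V' : Submodule ℂ R} [FiniteDimensional ℂ V] (b : Ideal R) (f : R)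
    (h : ∀ g ∈ V', f * g ∈ V) :
    hdeg V (b ⊔ Ideal.span {f}) + hdeg V' (hcol b f) ≤ hdeg V b := by
  let π : (R ⧸ b) →ₗ[ℂ] (R ⧸ (b ⊔ Ideal.span {f})) :=
    hmul b (b ⊔ Ideal.span {f}) 1 fun x hx => by rw [one_mul]; exact Ideal.mem_sup_left hx
  let m : (R ⧸ hcol b f) →ₗ[ℂ] (R ⧸ b) := hmul (hcol b f) b f fun x hx => hx
  have hm : Function.Injective m := by
    rw [injective_iff_map_eq_zero]
    intro x hx
    obtain ⟨y, rfl⟩ := Ideal.Quotient.mk_surjective x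
    have hx' : Ideal.Quotient.mk b (f * y) = 0 := hx
    exact Ideal.Quotient.eq_zero_iff_mem.mpr
      (mem_hcol.mpr (Ideal.Quotient.eq_zero_iff_mem.mp hx'))
  have h1 := finrank_map_add_inf_ker π (V.map (Ideal.Quotient.mkₐ ℂ b).toLinearMap)
  have h2 : (V.map (Ideal.Quotient.mkₐ ℂ b).toLinearMap).map π =
      V.map (Ideal.Quotient.mkₐ ℂ (b ⊔ Ideal.span {f})).toLinearMap := by
    rw [← Submodule.map_comp]
    congr 1
    ext x
    simp [π, hmul_mk]
  have h3 : (V'.map (Ideal.Quotient.mkₐ ℂ (hcol b f)).toLinearMap).map m ≤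
      V.map (Ideal.Quotient.mkₐ ℂ b).toLinearMap ⊓ LinearMap.ker π := by
    rintro _ ⟨_, ⟨g, hg, rfl⟩, rfl⟩
    refine ⟨⟨f * g, h g hg, rfl⟩, ?_⟩
    change π (Ideal.Quotient.mk b (f * g)) = 0
    rw [hmul_mk, one_mul, Ideal.Quotient.eq_zero_iff_mem]
    exact Ideal.mem_sup_right (Ideal.mul_mem_right _ _ (Ideal.subset_span rfl))
  have h4 := Submodule.finrank_mono h3
  rw [← (Submodule.equivMapOfInjective m hm _).finrank_eq] at h4
  rw [h2] at h1
  unfold hdeg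
  omega

lemma finiteDimensional_sup (b F : Ideal R) [FiniteDimensional ℂ (R ⧸ F)] :
    FiniteDimensional ℂ (R ⧸ (b ⊔ F)) := by
  refine Module.Finite.of_surjective (hmul F (b ⊔ F) 1 fun x hx => by
    rw [one_mul]; exact Ideal.mem_sup_right hx) fun y => ?_
  obtain ⟨x, rfl⟩ := Ideal.Quotient.mk_surjective y
  exact ⟨Ideal.Quotient.mk F x, by rw [hmul_mk, one_mul]⟩

lemma colength_step (b F F' : Ideal R) [FiniteDimensional ℂ (R ⧸ F)] [FiniteDimensional ℂ (R ⧸ F')]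
    (f : R) (h : ∀ g ∈ F', f * g ∈ b ⊔ F) :
    Module.finrank ℂ (R ⧸ (b ⊔ F)) ≤ Module.finrank ℂ (R ⧸ ((b ⊔ Ideal.span {f}) ⊔ F)) +
      Module.finrank ℂ (R ⧸ (hcol b f ⊔ F')) := by
  have := finiteDimensional_sup b F
  have := finiteDimensional_sup (b ⊔ Ideal.span {f}) F
  have := finiteDimensional_sup (hcol b f) F'
  let π : (R ⧸ (b ⊔ F)) →ₗ[ℂ] (R ⧸ ((b ⊔ Ideal.span {f}) ⊔ F)) :=
    hmul _ _ 1 fun x hx => by
      rw [one_mul]
      exact (sup_le_sup_right (le_sup_left : b ≤ b ⊔ Ideal.span {f}) F) hx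
  let m : (R ⧸ (hcol b f ⊔ F')) →ₗ[ℂ] (R ⧸ (b ⊔ F)) := hmul _ _ f fun x hx => by
    obtain ⟨y, hy, z, hz, rfl⟩ := Submodule.mem_sup.mp hx
    rw [mul_add]
    exact Ideal.add_mem _ (Ideal.mem_sup_left hy) (h z hz)
  have h1 := LinearMap.finrank_range_add_finrank_ker π
  have h2 : LinearMap.ker π ≤ LinearMap.range m := by
    intro x hx
    obtain ⟨y, rfl⟩ := Ideal.Quotient.mk_surjective x
    rw [LinearMap.mem_ker, hmul_mk, one_mul, Ideal.Quotient.eq_zero_iff_mem] at hx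
    obtain ⟨u, hu, z, hz, rfl⟩ := Submodule.mem_sup.mp hx
    obtain ⟨a, ha, c, hc, rfl⟩ := Submodule.mem_sup.mp hu
    obtain ⟨d, rfl⟩ := Ideal.mem_span_singleton'.mp hc
    refine ⟨Ideal.Quotient.mk _ d, ?_⟩
    rw [hmul_mk, Ideal.Quotient.eq]
    have : f * d - (a + d * f + z) = -(a + z) := by ring
    rw [this]
    exact neg_mem (Ideal.add_mem _ (Ideal.mem_sup_left ha) (Ideal.mem_sup_right hz))
  have h3 := (Submodule.finrank_mono h2).trans (LinearMap.finrank_range_le m)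
  have h4 := Submodule.finrank_le (LinearMap.range π)
  omega

lemma hord_step {κ : Type*} [Fintype κ] (b : Ideal R) (F F' : κ → Ideal R)
    (hF : ∀ k, FiniteDimensional ℂ (R ⧸ F k)) (hF' : ∀ k, FiniteDimensional ℂ (R ⧸ F' k))
    (f : R) (h : ∀ k, ∀ g ∈ F' k, f * g ∈ b ⊔ F k) :
    hord F b ≤ hord F (b ⊔ Ideal.span {f}) + hord F' (hcol b f) := by
  unfold hord
  rw [← Finset.sum_add_distrib]
  exact Finset.sum_le_sum fun k _ => colength_step b (F k) (F' k) f (h k)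

lemma hord_eq_zero {κ : Type*} [Fintype κ] (b : Ideal R) (F : κ → Ideal R)
    (h : ∀ k, b ⊔ F k = ⊤) : hord F b = 0 := by
  refine Finset.sum_eq_zero fun k _ => ?_
  have : Subsingleton (R ⧸ (b ⊔ F k)) := Ideal.Quotient.subsingleton_iff.mpr (h k)
  exact Module.finrank_zero_of_subsingleton

lemma hord_le_hdeg [IsNoetherianRing R] {κ : Type*} [Fintype κ]
    (V : ℝ → Submodule ℂ R) (F : κ → ℝ → Ideal R)
    (Vfin : ∀ L, FiniteDimensional ℂ (V L)) (Vmono : Monotone V)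
    (Vone : ∀ L, 0 < L → (1 : R) ∈ V L)
    (Vdeg : ∀ f : R, ∃ e : ℝ, ∀ L, ∀ g ∈ V L, f * g ∈ V (L + e))
    (Ffin : ∀ k μ, FiniteDimensional ℂ (R ⧸ F k μ))
    (Ftop : ∀ k μ, μ ≤ 0 → F k μ = ⊤)
    (good : ∀ p : Ideal R, p.IsPrime →
      (∀ μ, hord (fun k => F k μ) p ≤ 1) ∨
      ∃ P : R, P ∉ p ∧ ∃ D : ℝ, 0 < D ∧ (∀ L, ∀ g ∈ V L, P * g ∈ V (L + D)) ∧
        ∀ k μ, ∀ g ∈ F k μ, P * g ∈ p ⊔ F k (μ + D)) (b : Ideal R) :
    ∃ C : ℝ, ∀ μ, hord (fun k => F k μ) b ≤ hdeg (V (μ + C)) b := by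
  induction b using IsNoetherian.induction with
  | hgt b ih =>
  have hzero : ∀ μ, μ ≤ 0 → hord (fun k => F k μ) b = 0 := fun μ hμ =>
    hord_eq_zero b _ fun k => by rw [Ftop k μ hμ, sup_top_eq]
  have hlt : ∀ f, f ∉ b → b < b ⊔ Ideal.span {f} := fun f hf =>
    lt_of_le_of_ne le_sup_left fun h => hf (h ▸ Ideal.mem_sup_right (Ideal.subset_span rfl))
  by_cases htop : b = ⊤
  · exact ⟨0, fun μ => by rw [hord_eq_zero b _ fun k => by rw [htop, top_sup_eq]]; omega⟩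
  by_cases hp : Ideal.IsPrime b
  · rcases good b hp with h1 | ⟨P, hP, D, hD, hV, hF⟩
    · refine ⟨0, fun μ => ?_⟩
      rcases le_or_gt μ 0 with hμ | hμ
      · rw [hzero μ hμ]; omega
      · refine (h1 μ).trans ?_
        rw [add_zero]
        have := Vfin μ
        refine Submodule.one_le_finrank_iff.mpr fun hbot => ?_
        have h2 : Ideal.Quotient.mk b 1 ∈ (V μ).map (Ideal.Quotient.mkₐ ℂ b).toLinearMap :=
          ⟨1, Vone μ hμ, rfl⟩
        rw [hbot, Submodule.mem_bot, Ideal.Quotient.eq_zero_iff_mem] at h2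
        exact htop ((Ideal.eq_top_iff_one b).mpr h2)
    · obtain ⟨C, hC⟩ := ih _ (hlt P hP)
      have hcb : hcol b P = b := by
        ext x
        rw [mem_hcol]
        exact ⟨fun h => (hp.mem_or_mem h).resolve_left hP, fun h => Ideal.mul_mem_left b _ h⟩
      have key : ∀ n : ℕ, ∀ μ, μ ≤ n * D → hord (fun k => F k μ) b ≤ hdeg (V (μ + C)) b := by
        intro n
        induction n with
        | zero => intro μ hμ; rw [hzero μ (by simpa using hμ)]; omega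
        | succ n ihn =>
          intro μ hμ
          have h1 := ihn (μ - D) (by push_cast at hμ; linarith)
          have h2 := hord_step b (fun k => F k μ) (fun k => F k (μ - D)) (fun k => Ffin k _)
            (fun k => Ffin k _) P (fun k g hg => by simpa using hF k (μ - D) g hg)
          have := Vfin (μ + C)
          have h3 := hdeg_step (V := V (μ + C)) (V' := V (μ - D + C)) b P (fun g hg => by
            have := hV _ g hg
            rwa [show μ - D + C + D = μ + C by ring] at this)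
          have h4 := hC μ
          rw [hcb] at h2 h3
          omega
      refine ⟨C, fun μ => ?_⟩
      obtain ⟨n, hn⟩ := exists_nat_ge (μ / D)
      exact key n μ ((div_le_iff₀ hD).mp hn)
  · obtain ⟨f, hf, g, hg, hfg⟩ := (Ideal.not_isPrime_iff.mp hp).resolve_left htop
    obtain ⟨C1, hC1⟩ := ih _ (hlt f hf)
    have hlt2 : b < hcol b f :=
      lt_of_le_of_ne (fun x hx => Ideal.mul_mem_left b _ hx) fun h => hg (h ▸ hfg)
    obtain ⟨C2, hC2⟩ := ih _ hlt2
    obtain ⟨e, he⟩ := Vdeg f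
    refine ⟨max C1 (C2 + e), fun μ => ?_⟩
    have h2 := hord_step b (fun k => F k μ) (fun k => F k μ) (fun k => Ffin k _)
      (fun k => Ffin k _) f (fun k x hx => Ideal.mem_sup_right (Ideal.mul_mem_left _ _ hx))
    have := Vfin (μ + max C1 (C2 + e))
    have h3 := hdeg_step (V := V (μ + max C1 (C2 + e))) (V' := V (μ + C2)) b f (fun x hx =>
      Vmono (by have := le_max_right C1 (C2 + e); linarith) (he _ x hx))
    have h4 := hdeg_mono (Vmono (by have := le_max_left C1 (C2 + e); linarith :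
      μ + C1 ≤ μ + max C1 (C2 + e))) (b ⊔ Ideal.span {f})
    have h5 := hC1 μ
    have h6 := hC2 μ
    omega

lemma hdeg_bot (V : Submodule ℂ R) : hdeg V ⊥ = Module.finrank ℂ V := by
  refine (Submodule.equivMapOfInjective _ ?_ V).finrank_eq.symm
  intro x y h
  simpa using Ideal.Quotient.eq.mp h |> fun h' => sub_eq_zero.mp (Ideal.mem_bot.mp h')

theorem hilbert_compare [IsNoetherianRing R] [IsDomain R] {κ : Type*} [Fintype κ]
    (V : ℝ → Submodule ℂ R) (F : κ → ℝ → Ideal R)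
    (Vfin : ∀ L, FiniteDimensional ℂ (V L)) (Vmono : Monotone V)
    (Vone : ∀ L, 0 < L → (1 : R) ∈ V L)
    (Vdeg : ∀ f : R, ∃ e : ℝ, ∀ L, ∀ g ∈ V L, f * g ∈ V (L + e))
    (Ffin : ∀ k μ, FiniteDimensional ℂ (R ⧸ F k μ))
    (Ftop : ∀ k μ, μ ≤ 0 → F k μ = ⊤)
    (good : ∀ p : Ideal R, p.IsPrime →
      (∀ μ, hord (fun k => F k μ) p ≤ 1) ∨
      ∃ P : R, P ∉ p ∧ ∃ D : ℝ, 0 < D ∧ (∀ L, ∀ g ∈ V L, P * g ∈ V (L + D)) ∧
        ∀ k μ, ∀ g ∈ F k μ, P * g ∈ p ⊔ F k (μ + D))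
    (P : R) (hP : P ≠ 0) (D τ : ℝ) (hD : ∀ L, ∀ g ∈ V L, P * g ∈ V (L + D))
    (hτ : ∀ k μ, ∀ g ∈ F k μ, P * g ∈ F k (μ + τ)) :
    ∃ C : ℝ, ∀ μ : ℝ,
      (∑ k, Module.finrank ℂ (R ⧸ F k (μ + τ))) + Module.finrank ℂ (V (μ + C)) ≤
        (∑ k, Module.finrank ℂ (R ⧸ F k μ)) + Module.finrank ℂ (V (μ + C + D)) := by
  obtain ⟨C0, hC0⟩ := hord_le_hdeg V F Vfin Vmono Vone Vdeg Ffin Ftop good (⊥ ⊔ Ideal.span {P})
  have hcb : hcol (⊥ : Ideal R) P = ⊥ := by
    ext x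
    simp [mem_hcol, hP]
  have hbot : ∀ ν, hord (fun k => F k ν) ⊥ = ∑ k, Module.finrank ℂ (R ⧸ F k ν) := fun ν =>
    Finset.sum_congr rfl fun k _ =>
      congrArg (fun I : Ideal R => Module.finrank ℂ (R ⧸ I)) (bot_sup_eq _)
  refine ⟨τ + C0 - D, fun μ => ?_⟩
  have h1 := hord_step ⊥ (fun k => F k (μ + τ)) (fun k => F k μ) (fun k => Ffin k _)
    (fun k => Ffin k _) P (fun k g hg => Ideal.mem_sup_right (hτ k μ g hg))
  have := Vfin (μ + (τ + C0 - D) + D)
  have h2 := hdeg_step (V := V (μ + (τ + C0 - D) + D)) (V' := V (μ + (τ + C0 - D))) ⊥ P (hD _)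
  have h3 := hC0 (μ + τ)
  rw [show μ + τ + C0 = μ + (τ + C0 - D) + D by ring] at h3
  rw [hcb, hbot, hbot] at h1
  rw [hcb, hdeg_bot, hdeg_bot] at h2
  omega

end Vale.Agent.P021
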