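import Vale.Agent.P021.Det

/-! Choice of the parameters and the final contradiction. -/

namespace Vale.Agent.P021

open MvPolynomial Filter

theorem exists_sep_seq {α : Type*} (ℓ : α → ℝ) (good : α → Prop)
    (H : ∀ Q : ℝ, ∃ x, good x ∧ Q ≤ ℓ x) (Q κ : ℝ) (hQ : 0 ≤ Q) (hκ : 1 ≤ κ) :
    ∃ f : ℕ → α, (∀ i, good (f i)) ∧ (∀ i, Q ≤ ℓ (f i)) ∧
      ∀ i j, i < j → κ * ℓ (f i) ≤ ℓ (f j) := by
  choose g hg hg' using H
  let f : ℕ → α := fun i => Nat.rec (g Q) (fun _ x => g (max Q (κ * ℓ x))) i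
  have h1 : ∀ i, good (f i) := fun i => by cases i <;> exact hg _
  have h2 : ∀ i, Q ≤ ℓ (f i) := fun i => by
    cases i with
    | zero => exact hg' _
    | succ i => exact (le_max_left _ _).trans (hg' _)
  have h3 : ∀ i, κ * ℓ (f i) ≤ ℓ (f (i + 1)) := fun i => (le_max_right _ _).trans (hg' _)
  have h4 : Monotone fun i => ℓ (f i) := monotone_nat_of_le_succ fun i =>
    le_trans (le_mul_of_one_le_left (hQ.trans (h2 i)) hκ) (h3 i)
  exact ⟨f, h1, h2, fun i j h => (h3 i).trans (h4 h)⟩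

theorem exists_eta {a s : ℝ} (h : 1 + s < a) :
    ∃ η : ℝ, 0 < η ∧ η ≤ 1 / 2 ∧ 1 + 3 * η + s * (1 + 2 * η) < a * (1 - η) ^ 3 := by
  have h1 : ContinuousAt (fun η : ℝ => a * (1 - η) ^ 3 - (1 + 3 * η + s * (1 + 2 * η))) 0 := by
    fun_prop
  have h2 : ∀ᶠ η in nhds (0 : ℝ), 0 < a * (1 - η) ^ 3 - (1 + 3 * η + s * (1 + 2 * η)) :=
    h1.eventually (lt_mem_nhds (by simpa using h))
  have h3 : ∀ᶠ η in nhds (0 : ℝ), η < 1 / 2 := gt_mem_nhds (by norm_num)
  obtain ⟨η, ⟨h4, h5⟩, h6⟩ := (((h2.and h3).filter_mono nhdsWithin_le_nhds).and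
    (self_mem_nhdsWithin (s := Set.Ioi (0 : ℝ)))).exists
  exact ⟨η, h6, h5.le, by linarith⟩

theorem lcmUpto_le_exp (n : ℕ) : (Nat.lcmUpto n : ℝ) ≤ Real.exp (6 * n) := by
  have h1 := Chebyshev.psi_le_const_mul_self (x := n) (Nat.cast_nonneg _)
  rw [Chebyshev.psi_eq_log_lcmUpto] at h1
  have h2 : Real.log 4 ≤ 2 := by
    rw [show (4 : ℝ) = 2 ^ 2 by norm_num, Real.log_pow]
    have := Real.log_two_lt_d9
    push_cast
    linarith
  have h3 : (0 : ℝ) < Nat.lcmUpto n := by exact_mod_cast Nat.lcmUpto_pos n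
  rw [← Real.log_le_iff_le_exp h3]
  refine h1.trans ?_
  gcongr
  linarith

theorem exists_KW {d cs M : ℝ} {m : ℕ} (hd0 : 0 < d) (hm1 : d ^ m < 1 / 2) (hcs0 : 1 / 2 ≤ cs)
    (hcs1 : cs < 1) (hM80 : 80 ≤ M) :
    ∃ (K : ℕ) (w0 : ℝ), (0 : ℝ) < K ∧ 40 * K ≤ w0 ∧ M ≤ w0 ∧ w0 * d ^ m ≤ 2 * M ∧
      K * w0 * (d ^ 2) ^ m = cs * M := by
  have hρm : (d ^ 2) ^ m = d ^ m * d ^ m := by rw [← pow_mul, two_mul, pow_add]
  rw [hρm]
  have hdm : 0 < d ^ m := by positivity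
  generalize d ^ m = e at hm1 hdm
  have hK1 : (⌊1 / e⌋₊ : ℝ) * e ≤ 1 := by
    have := Nat.floor_le (a := 1 / e) (by positivity)
    rwa [le_div_iff₀ hdm] at this
  have hK2 : 1 / 2 ≤ (⌊1 / e⌋₊ : ℝ) * e := by
    have := Nat.lt_floor_add_one (1 / e)
    rw [div_lt_iff₀ hdm] at this
    linarith
  generalize ⌊1 / e⌋₊ = K at hK1 hK2
  have hK0 : (0 : ℝ) < K := by
    by_contra h
    have : (K : ℝ) * e ≤ 0 := mul_nonpos_of_nonpos_of_nonneg (not_lt.mp h) hdm.le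
    linarith
  refine ⟨K, cs * M / (K * (e * e)), hK0, ?_, ?_, ?_, ?_⟩
  · rw [le_div_iff₀ (by positivity)]
    have : (K * e) * (K * e) ≤ 1 := by nlinarith
    nlinarith
  · rw [le_div_iff₀ (by positivity), mul_comm cs]
    gcongr
    nlinarith
  · rw [div_mul_eq_mul_div, div_le_iff₀ (by positivity)]
    have : cs * M ≤ 2 * M * (K * e) := by nlinarith
    nlinarith
  · field_simp

theorem exists_params {ν : ℝ} (hν : 2 < ν) :
    ∃ (η ρ G M w0 : ℝ) (m K : ℕ), 0 < η ∧ η ≤ 1 / 2 ∧ 0 < ρ ∧ ρ ≤ 1 ∧ 0 < G ∧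
      1 + 3 * η + (ν - 1) * ρ * (1 + 2 * η) < (1 - η) * G ∧ 0 < M ∧ 1 ≤ (ν - 1) * ρ * M ∧
      24 ≤ ρ * η * M ∧ (0 : ℝ) < K ∧ 40 * K ≤ w0 ∧ M ≤ w0 ∧
      K * w0 * ρ ^ m = 1 / (1 + η) * M ∧ G ^ (m + 1) * w0 < η * (ν * (1 - η)) ^ m := by
  have hν1 : 0 < ν - 1 := by linarith
  obtain ⟨d, hd0, hd1, hgap⟩ : ∃ d : ℝ, 0 < d ∧ d < 1 ∧ 1 + (ν - 1) * d ^ 2 < ν * d := by
    refine ⟨ν / (2 * (ν - 1)), by positivity, by rw [div_lt_one (by positivity)]; linarith, ?_⟩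
    have e1 : ν * (ν / (2 * (ν - 1))) - (1 + (ν - 1) * (ν / (2 * (ν - 1))) ^ 2) =
        (ν - 2) ^ 2 / (4 * (ν - 1)) := by
      field_simp
      ring
    have e2 : 0 < (ν - 2) ^ 2 / (4 * (ν - 1)) := by
      have : 0 < ν - 2 := by linarith
      positivity
    linarith
  obtain ⟨η, hη0, hη1, hη⟩ := exists_eta hgap
  have hη2 : 0 < 1 - η := by linarith
  have hG0 : 0 < ν * (1 - η) ^ 2 * d := by positivity
  have hcs0 : 1 / 2 ≤ 1 / (1 + η) := one_div_le_one_div_of_le (by linarith) (by linarith)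
  have hcs1 : 1 / (1 + η) < 1 := by rw [div_lt_one (by linarith)]; linarith
  obtain ⟨M, hM80, hMs, hMρ⟩ : ∃ M : ℝ, 80 ≤ M ∧ 1 ≤ (ν - 1) * d ^ 2 * M ∧ 24 ≤ d ^ 2 * η * M := by
    refine ⟨max 80 (max (1 / ((ν - 1) * d ^ 2)) (24 / (d ^ 2 * η))), le_max_left _ _, ?_, ?_⟩
    · rw [← div_le_iff₀' (by positivity)]
      exact (le_max_left _ _).trans (le_max_right _ _)
    · rw [← div_le_iff₀' (by positivity)]
      exact (le_max_right _ _).trans (le_max_right _ _)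
  have hM0 : 0 < M := by linarith
  obtain ⟨m, hm1, hm2⟩ : ∃ m : ℕ, d ^ m < 1 / 2 ∧
      (1 - η) ^ m < η / (2 * M * (ν * (1 - η) ^ 2 * d)) :=
    (((tendsto_pow_atTop_nhds_zero_of_lt_one hd0.le hd1).eventually
      (gt_mem_nhds (by norm_num))).and
      ((tendsto_pow_atTop_nhds_zero_of_lt_one hη2.le (by linarith)).eventually
      (gt_mem_nhds (by positivity)))).exists
  obtain ⟨K, w0, hK0, hw0K, hw0M, hw0u, hKw⟩ := exists_KW hd0 hm1 hcs0 hcs1 hM80
  refine ⟨η, d ^ 2, ν * (1 - η) ^ 2 * d, M, w0, m, K, hη0, hη1, by positivity,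
    pow_le_one₀ hd0.le hd1.le, hG0, by linarith, hM0, hMs, hMρ, hK0, hw0K, hw0M, hKw, ?_⟩
  set G := ν * (1 - η) ^ 2 * d with hG
  have e1 : G ^ (m + 1) * w0 = G * (ν * (1 - η)) ^ m * (1 - η) ^ m * (w0 * d ^ m) := by
    have : G = ν * (1 - η) * (1 - η) * d := by rw [hG]; ring
    rw [pow_succ]
    nth_rewrite 1 [this]
    rw [mul_pow, mul_pow]
    ring
  rw [lt_div_iff₀ (by positivity)] at hm2
  have e2 : 0 < (ν * (1 - η)) ^ m := by positivity
  calc G ^ (m + 1) * w0 ≤ G * (ν * (1 - η)) ^ m * (1 - η) ^ m * (2 * M) := by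
        rw [e1]; gcongr
    _ = (1 - η) ^ m * (2 * M * G) * (ν * (1 - η)) ^ m := by ring
    _ < η * (ν * (1 - η)) ^ m := by gcongr

theorem not_approx (ν : ℝ) (hν : 2 < ν)
    (H : ∀ Q : ℝ, ∃ x : ℤ × ℕ, (0 < x.2 ∧ x.1 ≠ 0 ∧
      |Real.pi - x.1 / x.2| ≤ Real.exp (-(ν * Real.log x.2))) ∧ Q ≤ Real.log x.2) : False := by
  classical
  have hν1 : 0 < ν - 1 := by linarith
  obtain ⟨η, ρ, G, M, w0, m, K, hη0, hη1, hρ0, hρ1, hG0, hη, hM0, hMs, hMρ, hK0, hw0K, hw0M,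
    hw0, hGw⟩ := exists_params hν
  have hη2 : 0 < 1 - η := by linarith
  have hw0pos : 0 < w0 := by linarith
  obtain ⟨s, hs⟩ : ∃ s, s = (ν - 1) * ρ := ⟨_, rfl⟩
  rw [← hs] at hη hMs
  have hs0 : 0 < s := by rw [hs]; positivity
  obtain ⟨cs, hcs⟩ : ∃ cs, cs = 1 / (1 + η) := ⟨_, rfl⟩
  rw [← hcs] at hw0
  have hcs1 : cs < 1 := by rw [hcs, div_lt_one (by linarith)]; linarith
  obtain ⟨R, hR⟩ : ∃ R : ℝ, R = 14 * K * Real.exp 1 := ⟨_, rfl⟩
  have hR0 : 0 < R := by rw [hR]; positivity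
  have hR40 : R ≤ 40 * K := by
    have := mul_le_mul_of_nonneg_left Real.exp_one_lt_d9.le hK0.le
    linarith
  obtain ⟨κ, hκ, hZ⟩ := zero_estimate m cs ρ hcs1 hρ0
  obtain ⟨f, hf1, hf2, hf3⟩ := exists_sep_seq (fun x : ℤ × ℕ => Real.log x.2) _ H
    (max (κ * M) (max ((6 + R) * 2 / η) ((4 * K + 4) / η))) κ
    (le_max_of_le_left (by positivity)) hκ
  let ℓ : Fin m → ℝ := fun i => Real.log (f i).2
  have hℓ1 : ∀ i, κ * M ≤ ℓ i := fun i => (le_max_left _ _).trans (hf2 i)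
  have hℓ0 : ∀ i, 0 < ℓ i := fun i => lt_of_lt_of_le (by positivity) (hℓ1 i)
  have hℓ2 : ∀ i, 6 + R ≤ η / 2 * ℓ i := fun i => by
    have : (6 + R) * 2 / η ≤ ℓ i := ((le_max_left _ _).trans (le_max_right _ _)).trans (hf2 i)
    rw [div_le_iff₀ hη0] at this
    linarith
  have hℓ3 : ∀ i, 4 * K + 4 ≤ η * ℓ i := fun i => by
    have : (4 * K + 4) / η ≤ ℓ i := ((le_max_right _ _).trans (le_max_right _ _)).trans (hf2 i)
    rwa [div_le_iff₀' hη0] at this
  have hq0 : ∀ i : Fin m, (0 : ℝ) < (f i).2 := fun i => by exact_mod_cast (hf1 i).1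
  have hq : ∀ i : Fin m, ((f i).2 : ℝ) = Real.exp (ℓ i) := fun i => (Real.exp_log (hq0 i)).symm
  let w : Option (Fin m) → ℝ := fun o => o.elim w0 ℓ
  let v : Option (Fin m) → ℝ := fun o => o.elim M fun i => ℓ i / ρ
  let lam : Option (Fin m) → ℝ := fun o => o.elim 1 fun i => ν * (1 - η) * ℓ i
  let n : Fin m → ℕ := fun i => ⌈2 * (ℓ i / ρ) / M⌉₊
  let dd : Fin m → ℕ := fun i => Nat.lcmUpto (n i)
  let cc : Fin m → ℝ := fun i => (f i).2 * dd i
  let θ : Fin m → ℂ := fun i => 2 * Complex.I * (f i).1 * dd i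
  let ε : Fin m → ℝ := fun i => Real.exp (-(ν * ℓ i))
  have hw : ∀ o, 0 < w o := fun o => by
    cases o with
    | none => exact hw0pos
    | some i => exact hℓ0 i
  have hv : ∀ o, 0 < v o := fun o => by
    cases o with
    | none => exact hM0
    | some i => exact div_pos (hℓ0 i) hρ0
  have hlam : ∀ o, 0 < lam o := fun o => by
    cases o with
    | none => exact one_pos
    | some i => exact mul_pos (by positivity) (hℓ0 i)
  have hdd : ∀ i, (1 : ℝ) ≤ dd i := fun i => by exact_mod_cast Nat.lcmUpto_pos (n i)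
  have hcc : ∀ i, 0 < cc i := fun i => mul_pos (hq0 i) (by linarith [hdd i])
  have hn1 : ∀ i, 2 * (ℓ i / ρ) ≤ n i * M := fun i =>
    (div_le_iff₀ hM0).mp (Nat.le_ceil _)
  have hn2 : ∀ i, 6 * (n i : ℝ) ≤ η / 2 * ℓ i + 6 := fun i => by
    have h1 : (n i : ℝ) < 2 * (ℓ i / ρ) / M + 1 :=
      Nat.ceil_lt_add_one (by have := hℓ0 i; positivity)
    have h2 : 2 * (ℓ i / ρ) / M ≤ η / 12 * ℓ i := by
      have := hℓ0 i
      rw [div_le_iff₀ hM0, ← mul_div_assoc, div_le_iff₀ hρ0]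
      linear_combination (ℓ i / 12) * hMρ
    linarith
  have hPℓ : 0 < ∏ i, ℓ i := Finset.prod_pos fun i _ => hℓ0 i
  have hPw : ∏ o, w o = w0 * ∏ i, ℓ i := Fintype.prod_option _
  have hPv : ∏ o, v o = M * ((∏ i, ℓ i) / ρ ^ m) := by
    rw [Fintype.prod_option]
    simp [v, Finset.prod_div_distrib]
  have hPlam : ∏ o, lam o = (ν * (1 - η)) ^ m * ∏ i, ℓ i := by
    rw [Fintype.prod_option]
    simp [lam, Finset.prod_mul_distrib]
  have hKw : (K : ℝ) * ∏ o, w o = cs * ∏ o, v o := by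
    rw [hPw, hPv, ← mul_assoc, ← mul_assoc, ← hw0]
    field_simp
  have hcount := eventually_cnt_lt hw hlam (a := 1) (b := η) (s := G) (t := 1) 0 0 zero_le_one
    hG0 one_pos (by
      rw [Fintype.card_option, Fintype.card_fin, hPw, hPlam, one_mul, one_pow, mul_one,
        ← mul_assoc, ← mul_assoc]
      gcongr)
  obtain ⟨D, ⟨hD1, hD2⟩, hD3⟩ := (tendsto_natCast_atTop_atTop.eventually
    ((hcount.and (eventually_cnt_le_exp hw hη0)).and
      (eventually_ge_atTop (((m : ℝ) + 1) / η)))).exists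
  rw [div_le_iff₀' hη0] at hD3
  have hD4 : (1 : ℝ) ≤ η * D := by linarith [Nat.cast_nonneg (α := ℝ) m]
  have hD0 : (0 : ℝ) < D := pos_of_mul_pos_right (lt_of_lt_of_le one_pos hD4) hη0.le
  simp only [one_mul, add_zero] at hD1
  set τ := ⌊(1 + η) * D⌋₊ + 1 with hτ
  have hτ1 : (1 + η) * D < τ := by
    rw [hτ]; push_cast; exact Nat.lt_floor_add_one _
  have hτ2 : (τ : ℝ) ≤ (1 + 2 * η) * D := by
    have := Nat.floor_le (a := (1 + η) * D) (by positivity)
    rw [hτ]; push_cast; linarith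
  have hI : Complex.I ∈ GaussianInt.toComplex.range :=
    ⟨⟨0, 1⟩, by simp [GaussianInt.toComplex_def']⟩
  have key := core_ineq (θ := θ) (cc := cc) (ε := ε) (n := n) (K := K) (w := w) (v := v) hw hcc
    (fun i => Real.exp_pos _)
    (fun i => Subring.mul_mem _ (Subring.mul_mem _ (Subring.mul_mem _ (ofNat_mem _ 2) hI)
      (intCast_mem _ _)) (natCast_mem _ _))
    (fun i l hl => by
      obtain ⟨t, ht⟩ : l + 1 ∣ dd i :=
        Finset.dvd_lcm (f := id) (Finset.mem_Icc.mpr ⟨by omega, hl⟩)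
      have h1 : ((l : ℂ) + 1) ≠ 0 := by exact_mod_cast Nat.succ_ne_zero l
      have h2 : (cc i : ℂ) / ((l : ℂ) + 1) = (((f i).2 * t : ℕ) : ℂ) := by
        simp only [cc, ht]
        push_cast
        field_simp
      rw [h2]
      exact natCast_mem _ _)
    (fun i => by
      have h1 : ((dd i : ℕ) : ℂ) ≠ 0 := by exact_mod_cast (Nat.lcmUpto_pos (n i)).ne'
      have h2 : (((f i).2 : ℕ) : ℂ) ≠ 0 := by exact_mod_cast (hf1 i).1.ne'
      have h3 : θ i / cc i - 2 * Real.pi * Complex.I =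
          -2 * Complex.I * ((Real.pi - (f i).1 / (f i).2 : ℝ) : ℂ) := by
        simp only [θ, cc]
        push_cast
        field_simp
        ring
      rw [h3, norm_mul, norm_mul, Complex.norm_real, Complex.norm_I, Real.norm_eq_abs]
      have := (hf1 i).2.2
      simp only [norm_neg, Complex.norm_ofNat, mul_one]
      gcongr)
    (s := s) (R := R) (Λ := G * D) (η := η) (D := D) (τ := τ) hs0.le hη0 hD0
    (by
      change Real.exp (-(s * M)) ≤ 1 / 2
      rw [Real.exp_neg, one_div]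
      refine inv_anti₀ two_pos ?_
      linarith [Real.add_one_le_exp (s * M)])
    (fun i => by
      change Real.exp (-(s * M)) ^ n i ≤ Real.exp (-(ν * ℓ i))
      rw [← Real.exp_nat_mul, Real.exp_le_exp]
      have h1 : s * (2 * (ℓ i / ρ)) ≤ s * (n i * M) := mul_le_mul_of_nonneg_left (hn1 i) hs0.le
      have h2 : s * (2 * (ℓ i / ρ)) = 2 * (ν - 1) * ℓ i := by rw [hs]; field_simp
      have h3 : 0 ≤ (ν - 2) * ℓ i := mul_nonneg (sub_nonneg.mpr hν.le) (hℓ0 i).le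
      linear_combination h1 - h2 + h3)
    hR0 (by positivity) lam hlam
    (by
      change 14 * (K : ℝ) ≤ R * Real.exp (-1)
      rw [hR, mul_assoc, ← Real.exp_add]
      simp)
    (fun i => by
      change (4 * K + 4) * Real.exp (-(ν * ℓ i)) ≤ Real.exp (-(ν * (1 - η) * ℓ i))
      have h1 : (4 * K + 4 : ℝ) ≤ Real.exp (ν * η * ℓ i) := by
        have h2 := Real.add_one_le_exp (ν * η * ℓ i)
        have h3 := hℓ3 i
        have h4 : 0 ≤ (ν - 1) * (η * ℓ i) := (mul_pos hν1 (mul_pos hη0 (hℓ0 i))).le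
        linear_combination h2 + h3 + h4 + zero_le_one (α := ℝ)
      calc (4 * K + 4) * Real.exp (-(ν * ℓ i)) ≤
            Real.exp (ν * η * ℓ i) * Real.exp (-(ν * ℓ i)) := by gcongr
        _ = _ := by rw [← Real.exp_add]; congr 1; ring)
    (fun i => by
      change Real.exp (-(s * (ℓ i / ρ))) ≤ (f i).2 * dd i * Real.exp (-(ν * ℓ i))
      have h2 : -(s * (ℓ i / ρ)) = ℓ i + -(ν * ℓ i) := by rw [hs]; field_simp; ring
      rw [h2, Real.exp_add, hq i]
      gcongr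
      exact le_mul_of_one_le_right (Real.exp_pos _).le (hdd i))
    (by
      change R ≤ (1 + η) * w0
      linear_combination hR40 + hw0K + (mul_pos hη0 hw0pos).le)
    (fun i => by
      change (f i).2 * dd i * (R + 1) ≤ Real.exp ((1 + η) * ℓ i)
      calc ((f i).2 : ℝ) * dd i * (R + 1) ≤
            Real.exp (ℓ i) * Real.exp (6 * n i) * Real.exp R := by
            rw [hq i]
            gcongr
            · exact lcmUpto_le_exp _
            · exact Real.add_one_le_exp R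
        _ ≤ _ := by
            rw [← Real.exp_add, ← Real.exp_add, Real.exp_le_exp]
            linarith [hn2 i, hℓ2 i])
    hD1.le hD2 hD3
    (fun P hP hP0 => by
      by_contra hne
      have h1 := hZ K w v θ (fun i => cc i) n hw hv
        (fun i => by
          have h1 : ((dd i : ℕ) : ℂ) ≠ 0 := by exact_mod_cast (Nat.lcmUpto_pos (n i)).ne'
          have h2 : (((f i).1 : ℤ) : ℂ) ≠ 0 := by exact_mod_cast (hf1 i).2.1
          simp only [θ]
          exact mul_ne_zero (mul_ne_zero (mul_ne_zero two_ne_zero Complex.I_ne_zero) h2) h1)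
        (fun i => by exact_mod_cast (hcc i).ne')
        (fun i => by
          change ℓ i / ρ ≤ n i * M
          have := div_pos (hℓ0 i) hρ0
          linarith [hn1 i])
        hw0M
        (fun i => le_div_self (hℓ0 i).le hρ0 hρ1)
        (fun i => le_of_eq (mul_div_cancel₀ _ hρ0.ne'))
        (fun i => (hℓ1 i).trans (le_div_self (hℓ0 i).le hρ0 hρ1))
        (fun i j hij => by
          change κ * (ℓ i / ρ) ≤ ℓ j / ρ
          rw [← mul_div_assoc]
          gcongr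
          exact hf3 i j hij)
        hKw.le D τ P hne (degLE_of_degLT hP) hP0
      have hPv0 : 0 < ∏ o, v o := Finset.prod_pos fun o _ => hv o
      rw [hKw, mul_right_comm, mul_le_mul_iff_left₀ hPv0, hcs, one_div, inv_mul_le_iff₀
        (by linarith)] at h1
      linarith)
  have h10 : s * τ ≤ s * ((1 + 2 * η) * D) := by gcongr
  have h11 : (1 + 3 * η + s * (1 + 2 * η)) * D < (1 - η) * G * D := by gcongr
  linarith

end Vale.Agent.P021
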