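import Vale.Agent.P021.Wronsk

/-! The index of a ring element along a prime ideal with respect to weighted derivations. -/

namespace Vale.Agent.P021

variable {A ι : Type*} [CommRing A] [Algebra ℂ A]

/-- All words of weight below `θ` send `f` into `q`. -/
def Idx (X : ι → A →ₗ[ℂ] A) (v : ι → ℝ) (q : Ideal A) (θ : ℝ) (f : A) : Prop :=
  ∀ β : List ι, wtWord v β < θ → wordAct X β f ∈ q

theorem wtWord_nonneg {v : ι → ℝ} (hv : ∀ i, 0 < v i) (β : List ι) : 0 ≤ wtWord v β := by
  induction β with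
  | nil => simp
  | cons i β ih => rw [wtWord_cons]; linarith [hv i]

theorem wtWord_le {v : ι → ℝ} {t : ℝ} (β : List ι) (h : ∀ i ∈ β, v i ≤ t) :
    wtWord v β ≤ β.length * t := by
  induction β with
  | nil => simp
  | cons i β ih =>
    rw [wtWord_cons, List.length_cons]
    have h1 := h i (by simp)
    have h2 := ih fun j hj => h j (by simp [hj])
    push_cast
    linarith

variable {X : ι → A →ₗ[ℂ] A} {v : ι → ℝ} {q : Ideal A}

theorem idx_of_nonpos (hv : ∀ i, 0 < v i) {θ : ℝ} (hθ : θ ≤ 0) (f : A) : Idx X v q θ f :=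
  fun β hβ => absurd (wtWord_nonneg hv β) (by linarith)

theorem Idx.mono {θ θ' : ℝ} {f : A} (h : Idx X v q θ f) (hθ : θ' ≤ θ) : Idx X v q θ' f :=
  fun β hβ => h β (lt_of_lt_of_le hβ hθ)

theorem Idx.der {θ : ℝ} {f : A} (h : Idx X v q θ f) (i : ι) : Idx X v q (θ - v i) (X i f) :=
  fun β hβ => h (i :: β) (by rw [wtWord_cons]; linarith)

theorem Idx.word {θ : ℝ} {f : A} (h : Idx X v q θ f) (γ : List ι) :
    Idx X v q (θ - wtWord v γ) (wordAct X γ f) := fun β hβ => by
  rw [← wordAct_append]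
  exact h _ (by rw [wtWord_append]; linarith)

theorem Idx.add {θ : ℝ} {f g : A} (h : Idx X v q θ f) (h' : Idx X v q θ g) :
    Idx X v q θ (f + g) := fun β hβ => by
  rw [map_add]; exact q.add_mem (h β hβ) (h' β hβ)

theorem Idx.sub {θ : ℝ} {f g : A} (h : Idx X v q θ f) (h' : Idx X v q θ g) :
    Idx X v q θ (f - g) := fun β hβ => by
  rw [map_sub]; exact q.sub_mem (h β hβ) (h' β hβ)

theorem idx_zero (θ : ℝ) : Idx X v q θ 0 := fun β _ => by
  rw [map_zero]; exact q.zero_mem

theorem idx_sum {κ : Type*} (s : Finset κ) {θ : ℝ} {f : κ → A} (h : ∀ k ∈ s, Idx X v q θ (f k)) :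
    Idx X v q θ (∑ k ∈ s, f k) := fun β hβ => by
  rw [map_sum]; exact q.sum_mem fun k hk => h k hk β hβ

theorem Idx.mul (hL : ∀ i f g, X i (f * g) = X i f * g + f * X i g) {θ θ' : ℝ} {f g : A}
    (h : Idx X v q θ f) (h' : Idx X v q θ' g) : Idx X v q (θ + θ') (f * g) := by
  intro β
  induction β generalizing θ θ' f g with
  | nil =>
    intro hβ
    rw [wtWord_nil] at hβ
    rw [wordAct_nil]
    by_cases h0 : 0 < θ
    · exact q.mul_mem_right _ (h [] (by simpa using h0))
    · exact q.mul_mem_left _ (h' [] (by rw [wtWord_nil]; linarith))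
  | cons i β ih =>
    intro hβ
    rw [wtWord_cons] at hβ
    rw [wordAct_cons, hL, map_add]
    exact q.add_mem (ih (h.der i) h' (by linarith)) (ih h (h'.der i) (by linarith))

theorem idx_prod (hL : ∀ i f g, X i (f * g) = X i f * g + f * X i g) (hv : ∀ i, 0 < v i)
    {κ : Type*} (s : Finset κ) {μ : κ → ℝ} {f : κ → A} (h : ∀ k ∈ s, Idx X v q (μ k) (f k)) :
    Idx X v q (∑ k ∈ s, μ k) (∏ k ∈ s, f k) := by
  classical
  induction s using Finset.induction_on with
  | empty => exact idx_of_nonpos hv (by simp) _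
  | insert a s ha ih =>
    rw [Finset.sum_insert ha, Finset.prod_insert ha]
    exact (h a (by simp)).mul hL (ih fun k hk => h k (by simp [hk]))

theorem idx_det (hL : ∀ i f g, X i (f * g) = X i f * g + f * X i g) (hv : ∀ i, 0 < v i)
    {r : ℕ} {μ : Fin r → ℝ} (M : Matrix (Fin r) (Fin r) A)
    (h : ∀ a c, Idx X v q (μ c) (M a c)) : Idx X v q (∑ c, μ c) M.det := by
  rw [Matrix.det_apply']
  refine idx_sum _ fun σ _ => ?_
  have h1 := idx_prod (q := q) hL hv Finset.univ (μ := μ) (f := fun c => M (σ c) c)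
    fun c _ => h _ c
  have h2 := (idx_of_nonpos (X := X) (q := q) hv le_rfl
    (((Equiv.Perm.sign σ : ℤˣ) : ℤ) : A)).mul hL h1
  rwa [zero_add] at h2

theorem Idx.cancel [Finite ι] (hL : ∀ i f g, X i (f * g) = X i f * g + f * X i g)
    (hv : ∀ i, 0 < v i) (hq : q.IsPrime) {V : A} (hV : V ∉ q) {θ : ℝ} {U : A}
    (h : Idx X v q θ (U * V)) : Idx X v q θ U := by
  obtain ⟨δ, hδ, hδv⟩ : ∃ δ : ℝ, 0 < δ ∧ ∀ i, δ ≤ v i := by
    cases isEmpty_or_nonempty ι with
    | inl _ => exact ⟨1, one_pos, fun i => isEmptyElim i⟩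
    | inr _ =>
      obtain ⟨i, hi⟩ := Finite.exists_min v
      exact ⟨v i, hv i, hi⟩
  have key : ∀ n : ℕ, ∀ (θ : ℝ) (U : A), θ ≤ n * δ → Idx X v q θ (U * V) → Idx X v q θ U := by
    intro n
    induction n with
    | zero => intro θ U hθ _; exact idx_of_nonpos hv (by simpa using hθ) _
    | succ n ih =>
      intro θ U hθ h β hβ
      cases β with
      | nil =>
        have := h [] hβ
        rw [wordAct_nil] at this ⊢
        exact (hq.mem_or_mem this).resolve_right hV
      | cons i β =>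
        rw [wtWord_cons] at hβ
        rw [wordAct_cons]
        have hθ' : θ - v i ≤ n * δ := by
          push_cast at hθ
          linarith [hδv i]
        have h1 : Idx X v q (θ - v i) U := ih _ _ hθ' (h.mono (by linarith [hv i]))
        have h2 : Idx X v q (θ - v i) (U * X i V) := by
          have := h1.mul hL (idx_of_nonpos (X := X) (q := q) hv le_rfl (X i V))
          rwa [add_zero] at this
        have h3 : Idx X v q (θ - v i) (X i U * V) := by
          have := (h.der i).sub h2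
          rwa [hL, add_sub_cancel_right] at this
        exact ih _ _ hθ' h3 β (by linarith)
  obtain ⟨n, hn⟩ := exists_nat_ge (θ / δ)
  exact key n θ U (by rwa [div_le_iff₀ hδ] at hn) h

theorem wordAct_mul_of_kill (hL : ∀ i f g, X i (f * g) = X i f * g + f * X i g) {h : A}
    (β : List ι) (hβ : ∀ i ∈ β, X i h = 0) (f : A) :
    wordAct X β (f * h) = wordAct X β f * h := by
  induction β generalizing f with
  | nil => simp
  | cons i β ih =>
    rw [wordAct_cons, wordAct_cons, hL, hβ i (by simp), mul_zero, add_zero]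
    exact ih (fun j hj => hβ j (by simp [hj])) _

theorem wordAct_mem {S : Set A} (hS : ∀ i, ∀ f ∈ S, X i f ∈ S) (β : List ι) {f : A}
    (hf : f ∈ S) : wordAct X β f ∈ S := by
  induction β generalizing f with
  | nil => simpa using hf
  | cons i β ih => exact ih (hS i f hf)

theorem wordAct_eq_zero {S : Set A} (hS : ∀ i, ∀ f ∈ S, X i f ∈ S) {j : ι}
    (hj : ∀ f ∈ S, X j f = 0) (β : List ι) (hβ : j ∈ β) {f : A} (hf : f ∈ S) :
    wordAct X β f = 0 := by
  induction β generalizing f with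
  | nil => simp at hβ
  | cons i β ih =>
    rw [wordAct_cons]
    rcases List.mem_cons.mp hβ with h | h
    · rw [← h, hj f hf, map_zero]
    · exact ih h (hS i f hf)

theorem leib_aeval {T : A →ₗ[ℂ] A} (hT : ∀ f g, T (f * g) = T f * g + f * T g) (x : A)
    (g : Polynomial ℂ) :
    T (Polynomial.aeval x g) = Polynomial.aeval x (Polynomial.derivative g) * T x := by
  have := Derivation.map_aeval (Derivation.mk' T (fun a b => by
    rw [hT, smul_eq_mul, smul_eq_mul]; ring)) g x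
  rw [smul_eq_mul] at this
  exact this

theorem roth_numeric {ε κ Y θ t : ℝ} {r : ℕ} (hε : 0 < ε) (hε1 : ε ≤ 1) (hκ : 2 / ε ≤ κ)
    (hr : 0 < r) (ht : 0 < t) (hY : 0 ≤ Y) (hrY : ((r : ℝ) - 1) * t ≤ Y) (hθ : ε * Y < θ) :
    ε ^ 2 / 64 * (r * Y) < ∑ c : Fin r, max (θ - (c : ℕ) * t - Y / κ) 0 := by
  have hκ0 : 0 < κ := lt_of_lt_of_le (by positivity) hκ
  have hYκ : Y / κ ≤ ε * Y / 2 := by
    rw [div_le_iff₀ hκ0]
    rw [div_le_iff₀ hε] at hκ
    nlinarith
  have hr1 : (1 : ℝ) ≤ r := by exact_mod_cast hr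
  rw [Fin.sum_univ_eq_sum_range (fun c : ℕ => max (θ - c * t - Y / κ) 0) r]
  set n0 := ⌊ε * ((r : ℝ) - 1) / 4⌋₊ with hn0
  have hx : 0 ≤ ε * ((r : ℝ) - 1) / 4 := by
    have : 0 ≤ (r : ℝ) - 1 := by linarith
    positivity
  have h1 : (n0 : ℝ) ≤ ε * ((r : ℝ) - 1) / 4 := Nat.floor_le hx
  have h2 : ε * ((r : ℝ) - 1) / 4 < n0 + 1 := Nat.lt_floor_add_one _
  have h3 : n0 + 1 ≤ r := by
    have : (n0 : ℝ) + 1 ≤ r := by nlinarith
    exact_mod_cast this
  have h4 : ∑ c ∈ Finset.range (n0 + 1), (θ - 3 * ε * Y / 4) ≤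
      ∑ c ∈ Finset.range r, max (θ - c * t - Y / κ) 0 := by
    refine le_trans (Finset.sum_le_sum fun c hc => ?_)
      (Finset.sum_le_sum_of_subset_of_nonneg (Finset.range_subset_range.mpr h3)
        fun c _ _ => le_max_right _ _)
    refine le_trans ?_ (le_max_left _ _)
    have hc' : (c : ℝ) ≤ n0 := by
      have := Finset.mem_range.mp hc
      exact_mod_cast Nat.lt_succ_iff.mp this
    have : (c : ℝ) * t ≤ ε * Y / 4 := by
      calc (c : ℝ) * t ≤ ε * ((r : ℝ) - 1) / 4 * t := by gcongr; linarith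
        _ = ε / 4 * (((r : ℝ) - 1) * t) := by ring
        _ ≤ ε / 4 * Y := by gcongr
        _ = ε * Y / 4 := by ring
    linarith
  rw [Finset.sum_const, Finset.card_range, nsmul_eq_mul] at h4
  push_cast at h4
  refine lt_of_lt_of_le ?_ h4
  have h5 : ε * r / 8 ≤ (n0 : ℝ) + 1 := by
    have : (0 : ℝ) ≤ n0 := Nat.cast_nonneg _
    nlinarith
  have h6 : ε * Y / 4 < θ - 3 * ε * Y / 4 := by linarith
  have h7 : 0 ≤ ε * Y / 4 := by positivity
  calc ε ^ 2 / 64 * (r * Y) ≤ ε * r / 8 * (ε * Y / 4) := by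
        have : 0 ≤ ε ^ 2 * (r * Y) := by positivity
        nlinarith
    _ ≤ ((n0 : ℝ) + 1) * (ε * Y / 4) := by gcongr
    _ < ((n0 : ℝ) + 1) * (θ - 3 * ε * Y / 4) := by gcongr

end Vale.Agent.P021
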