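import Vale.Agent.P021.RothA

/-! The auxiliary ring with an extra variable `w` standing for the logarithm of `y`. -/

namespace Vale.Agent.P021

open MvPolynomial

/-- Polynomials in `y` and `ξ i` with coefficients polynomials in `w`. -/
abbrev Rt (m : ℕ) : Type := MvPolynomial (Option (Fin m)) (Polynomial ℂ)

/-- The operator `y d/dy + d/dw` as a function. -/
noncomputable def deltaFun {m : ℕ} (f : Rt m) : Rt m :=
  ∑ α ∈ f.support, monomial α ((α none : Polynomial ℂ) * coeff α f +
    Polynomial.derivative (coeff α f))

theorem coeff_deltaFun {m : ℕ} (f : Rt m) (α : Option (Fin m) →₀ ℕ) :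
    coeff α (deltaFun f) = (α none : Polynomial ℂ) * coeff α f +
      Polynomial.derivative (coeff α f) := by
  classical
  unfold deltaFun
  rw [coeff_sum]
  simp only [coeff_monomial]
  rw [Finset.sum_ite_eq' f.support α]
  split_ifs with h
  · rfl
  · rw [notMem_support_iff.mp h]; simp

/-- The derivations `y d/dy + d/dw` and `d/dξ i`. -/
noncomputable def XT {m : ℕ} : Option (Fin m) → Rt m →ₗ[ℂ] Rt m
  | none =>
    { toFun := deltaFun
      map_add' := fun f g => by
        ext1 α
        simp only [coeff_deltaFun, coeff_add, map_add]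
        ring
      map_smul' := fun c f => by
        ext1 α
        simp only [coeff_deltaFun, coeff_smul, RingHom.id_apply, Polynomial.derivative_smul,
          smul_add, mul_smul_comm] }
  | some i => (pderiv (some i) : Derivation (Polynomial ℂ) (Rt m) (Rt m)).toLinearMap.restrictScalars ℂ

theorem coeff_XT_none {m : ℕ} (f : Rt m) (α : Option (Fin m) →₀ ℕ) :
    coeff α (XT none f) = (α none : Polynomial ℂ) * coeff α f +
      Polynomial.derivative (coeff α f) := coeff_deltaFun f α

theorem XT_some {m : ℕ} (i : Fin m) (f : Rt m) : XT (some i) f = pderiv (some i) f := rfl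

theorem XT_leib {m : ℕ} (o : Option (Fin m)) (f g : Rt m) :
    XT o (f * g) = XT o f * g + f * XT o g := by
  classical
  cases o with
  | some i => rw [XT_some, XT_some, XT_some, pderiv_mul]
  | none =>
    ext1 α
    rw [coeff_XT_none, coeff_add, coeff_mul, coeff_mul, coeff_mul, Polynomial.derivative_sum,
      Finset.mul_sum, ← Finset.sum_add_distrib, ← Finset.sum_add_distrib]
    refine Finset.sum_congr rfl fun p hp => ?_
    have h : p.1 + p.2 = α := by simpa using hp
    rw [coeff_XT_none, coeff_XT_none, Polynomial.derivative_mul, ← h]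
    simp only [Finsupp.coe_add, Pi.add_apply, Nat.cast_add]
    ring

theorem poly_rel {F G : Polynomial ℂ} (hF : F ≠ 0) (hG : G ≠ 0) {a b : ℕ}
    (h : ((a : Polynomial ℂ) * F + Polynomial.derivative F) * G =
      F * ((b : Polynomial ℂ) * G + Polynomial.derivative G)) :
    a = b ∧ ∃ c : ℂ, F = c • G := by
  have hcoef : ∀ P : Polynomial ℂ, (Polynomial.derivative P).natDegree ≤ P.natDegree ∧
      (Polynomial.derivative P).coeff P.natDegree = 0 := fun P =>
    ⟨(Polynomial.natDegree_derivative_le P).trans (Nat.sub_le _ _), by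
      rw [Polynomial.coeff_derivative, Polynomial.coeff_natDegree_succ_eq_zero, zero_mul]⟩
  have hab : a = b := by
    have h1 := congrArg (fun P => Polynomial.coeff P (F.natDegree + G.natDegree)) h
    simp only [add_mul, mul_add, Polynomial.coeff_add] at h1
    rw [Polynomial.coeff_mul_add_eq_of_natDegree_le (hcoef F).1 le_rfl,
      Polynomial.coeff_mul_add_eq_of_natDegree_le le_rfl (hcoef G).1, (hcoef F).2, (hcoef G).2,
      mul_assoc, mul_left_comm F, Polynomial.coeff_natCast_mul, Polynomial.coeff_natCast_mul,
      Polynomial.coeff_mul_add_eq_of_natDegree_le le_rfl le_rfl] at h1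
    have h2 : F.coeff F.natDegree * G.coeff G.natDegree ≠ 0 :=
      mul_ne_zero (Polynomial.leadingCoeff_ne_zero.mpr hF) (Polynomial.leadingCoeff_ne_zero.mpr hG)
    have h3 : (a : ℂ) = b := by
      apply mul_right_cancel₀ h2
      simpa using h1
    exact_mod_cast h3
  refine ⟨hab, ?_⟩
  subst hab
  have hw : Polynomial.derivative F * G = F * Polynomial.derivative G := by
    linear_combination h
  have hdeg : ∀ F : Polynomial ℂ, F ≠ 0 →
      Polynomial.derivative F * G = F * Polynomial.derivative G → F.natDegree = G.natDegree := by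
    intro F hF hw
    have hE : ∀ P : Polynomial ℂ, (Polynomial.X * Polynomial.derivative P).natDegree ≤ P.natDegree ∧
        (Polynomial.X * Polynomial.derivative P).coeff P.natDegree =
          P.natDegree * P.coeff P.natDegree := by
      intro P
      have hc : ∀ n, (Polynomial.X * Polynomial.derivative P).coeff n = n * P.coeff n := by
        intro n
        cases n with
        | zero => simp
        | succ n => rw [Polynomial.coeff_X_mul, Polynomial.coeff_derivative]; push_cast; ring
      refine ⟨Polynomial.natDegree_le_iff_coeff_eq_zero.mpr fun n hn => ?_, hc _⟩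
      rw [hc, Polynomial.coeff_eq_zero_of_natDegree_lt hn, mul_zero]
    have h0 : (Polynomial.X * Polynomial.derivative F) * G =
        F * (Polynomial.X * Polynomial.derivative G) := by
      linear_combination Polynomial.X * hw
    have h1 := congrArg (fun P => Polynomial.coeff P (F.natDegree + G.natDegree)) h0
    rw [Polynomial.coeff_mul_add_eq_of_natDegree_le (hE F).1 le_rfl,
      Polynomial.coeff_mul_add_eq_of_natDegree_le le_rfl (hE G).1, (hE F).2, (hE G).2] at h1
    have h2 : F.coeff F.natDegree * G.coeff G.natDegree ≠ 0 :=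
      mul_ne_zero (Polynomial.leadingCoeff_ne_zero.mpr hF) (Polynomial.leadingCoeff_ne_zero.mpr hG)
    have h3 : (F.natDegree : ℂ) = G.natDegree := by
      apply mul_right_cancel₀ h2
      linear_combination h1
    exact_mod_cast h3
  refine ⟨F.leadingCoeff / G.leadingCoeff, ?_⟩
  by_contra hne
  have hH : F - (F.leadingCoeff / G.leadingCoeff) • G ≠ 0 := sub_ne_zero.mpr hne
  have h1 := hdeg _ hH (by
    rw [Polynomial.derivative_sub, Polynomial.derivative_smul, sub_mul, sub_mul, hw,
      smul_mul_assoc, smul_mul_assoc, mul_comm G])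
  have h2 := Polynomial.leadingCoeff_ne_zero.mpr hH
  apply h2
  rw [Polynomial.leadingCoeff, h1, Polynomial.coeff_sub, Polynomial.coeff_smul, smul_eq_mul,
    ← hdeg F hF hw, hdeg F hF hw]
  have hG' := Polynomial.leadingCoeff_ne_zero.mpr hG
  rw [show G.coeff G.natDegree = G.leadingCoeff from rfl, div_mul_cancel₀ _ hG',
    ← hdeg F hF hw]
  exact sub_self _

theorem XT_const {m : ℕ} (f g : Rt m) (hg : g ≠ 0) (h : ∀ o, XT o f * g = f * XT o g) :
    ∃ c : ℂ, f = c • g := by
  classical
  let _ : LinearOrder (Option (Fin m)) :=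
    LinearOrder.lift' (Fintype.equivFin (Option (Fin m))) (Fintype.equivFin _).injective
  let mo : MonomialOrder (Option (Fin m)) := MonomialOrder.lex
  have hdeg : ∀ (P Q : Rt m), (∀ α, coeff α P = 0 → coeff α Q = 0) →
      mo.toSyn (mo.degree Q) ≤ mo.toSyn (mo.degree P) := by
    intro P Q hPQ
    apply mo.degree_le_degree_of_support_subset
    intro α hα
    rw [mem_support_iff] at hα ⊢
    exact fun h0 => hα (hPQ α h0)
  have hE : ∀ (i : Fin m) (P : Rt m) (α : Option (Fin m) →₀ ℕ),
      coeff α (X (some i) * pderiv (some i) P) = (α (some i) : Polynomial ℂ) * coeff α P := by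
    intro i P α
    rw [coeff_X_mul']
    split_ifs with hα
    · rw [coeff_pderiv]
      have h1 : 1 ≤ α (some i) := Nat.one_le_iff_ne_zero.mpr (Finsupp.mem_support_iff.mp hα)
      have h2 : α - Finsupp.single (some i) 1 + Finsupp.single (some i) 1 = α :=
        tsub_add_cancel_of_le (Finsupp.single_le_iff.mpr h1)
      rw [h2, Finsupp.tsub_apply, Finsupp.single_eq_same, Nat.cast_sub h1]
      push_cast
      ring
    · rw [Finsupp.notMem_support_iff.mp hα]; simp
  have key : ∀ f : Rt m, f ≠ 0 → (∀ o, XT o f * g = f * XT o g) →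
      mo.degree f = mo.degree g ∧ ∃ c : ℂ, mo.leadingCoeff f = c • mo.leadingCoeff g := by
    intro f hf h
    have hF : mo.leadingCoeff f ≠ 0 := mo.leadingCoeff_ne_zero_iff.mpr hf
    have hG : mo.leadingCoeff g ≠ 0 := mo.leadingCoeff_ne_zero_iff.mpr hg
    have h0 := congrArg (coeff (mo.degree f + mo.degree g)) (h none)
    rw [mo.coeff_mul_of_add_of_degree_le (hdeg f _ fun α hα => by simp [coeff_XT_none, hα]) le_rfl,
      mo.coeff_mul_of_add_of_degree_le le_rfl (hdeg g _ fun α hα => by simp [coeff_XT_none, hα]),
      coeff_XT_none, coeff_XT_none] at h0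
    obtain ⟨h1, h2⟩ := poly_rel hF hG h0
    refine ⟨?_, h2⟩
    ext o
    cases o with
    | none => exact h1
    | some i =>
      have h3 : (X (some i) * pderiv (some i) f) * g = f * (X (some i) * pderiv (some i) g) := by
        have := h (some i)
        rw [XT_some, XT_some] at this
        linear_combination X (some i) * this
      have h4 := congrArg (coeff (mo.degree f + mo.degree g)) h3
      rw [mo.coeff_mul_of_add_of_degree_le (hdeg f _ fun α hα => by simp [hE, hα]) le_rfl,
        mo.coeff_mul_of_add_of_degree_le le_rfl (hdeg g _ fun α hα => by simp [hE, hα]),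
        hE, hE] at h4
      have h5 : ((mo.degree f (some i) : ℕ) : Polynomial ℂ) = (mo.degree g (some i) : ℕ) := by
        apply mul_right_cancel₀ (mul_ne_zero hF hG)
        unfold MonomialOrder.leadingCoeff
        linear_combination h4
      exact_mod_cast h5
  by_cases hf : f = 0
  · exact ⟨0, by simp [hf]⟩
  obtain ⟨h1, c, hc⟩ := key f hf h
  refine ⟨c, ?_⟩
  by_contra hne
  have hH : f - c • g ≠ 0 := sub_ne_zero.mpr hne
  obtain ⟨h2, -⟩ := key _ hH (fun o => by
    rw [map_sub, map_smul, sub_mul, sub_mul, h o, smul_mul_assoc, smul_mul_assoc, mul_comm g])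
  apply mo.leadingCoeff_ne_zero_iff.mpr hH
  unfold MonomialOrder.leadingCoeff at hc ⊢
  rw [h2, coeff_sub, coeff_smul, ← hc, h1, sub_self]

end Vale.Agent.P021
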