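import Vale.Agent.P021.RothB

/-! The induction of the geometric Roth lemma in the auxiliary ring. -/

namespace Vale.Agent.P021

open MvPolynomial

/-- Elements whose degree in each `ξ i` is at most `b i`. -/
def Sb {m : ℕ} (b : Fin m → ℕ) : Submodule ℂ (Rt m) where
  carrier := {f | ∀ α ∈ f.support, ∀ i, α (some i) ≤ b i}
  add_mem' := by
    classical
    intro f g hf hg α hα
    rcases Finset.mem_union.mp (support_add hα) with h | h
    · exact hf α h
    · exact hg α h
  zero_mem' := by simp
  smul_mem' := by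
    intro c f hf α hα
    exact hf α (support_smul hα)

theorem mem_Sb {m : ℕ} {b : Fin m → ℕ} {f : Rt m} :
    f ∈ Sb b ↔ ∀ α ∈ f.support, ∀ i, α (some i) ≤ b i := Iff.rfl

theorem Sb_mono {m : ℕ} {b b' : Fin m → ℕ} (h : ∀ i, b i ≤ b' i) {f : Rt m} (hf : f ∈ Sb b) :
    f ∈ Sb b' := fun α hα i => (hf α hα i).trans (h i)

theorem Sb_mul {m : ℕ} {b b' : Fin m → ℕ} {f g : Rt m} (hf : f ∈ Sb b) (hg : g ∈ Sb b') :
    f * g ∈ Sb (b + b') := by
  classical
  intro α hα i
  obtain ⟨β, hβ, γ, hγ, rfl⟩ := Finset.mem_add.mp (support_mul f g hα)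
  exact add_le_add (hf β hβ i) (hg γ hγ i)

theorem Sb_monomial {m : ℕ} {b : Fin m → ℕ} {α : Option (Fin m) →₀ ℕ} (a : Polynomial ℂ)
    (h : ∀ i, α (some i) ≤ b i) : (monomial α a : Rt m) ∈ Sb b := by
  classical
  intro β hβ i
  rw [Finset.mem_singleton.mp (support_monomial_subset hβ)]
  exact h i

theorem Sb_prod {m : ℕ} {κ : Type*} (s : Finset κ) {b : κ → Fin m → ℕ} {f : κ → Rt m}
    (h : ∀ k ∈ s, f k ∈ Sb (b k)) : ∏ k ∈ s, f k ∈ Sb (∑ k ∈ s, b k) := by
  classical
  induction s using Finset.induction_on with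
  | empty => exact Sb_monomial (α := 0) 1 (by simp)
  | insert a s ha ih =>
    rw [Finset.sum_insert ha, Finset.prod_insert ha]
    exact Sb_mul (h a (by simp)) (ih fun k hk => h k (by simp [hk]))

theorem Sb_XT {m : ℕ} {b : Fin m → ℕ} (o : Option (Fin m)) {f : Rt m} (hf : f ∈ Sb b) :
    XT o f ∈ Sb b := by
  intro α hα i
  rw [mem_support_iff] at hα
  cases o with
  | none =>
    refine hf α (mem_support_iff.mpr fun h0 => hα ?_) i
    simp [coeff_XT_none, h0]
  | some j =>
    rw [XT_some, coeff_pderiv] at hα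
    have := hf _ (mem_support_iff.mpr (left_ne_zero_of_mul hα)) i
    simp only [Finsupp.coe_add, Pi.add_apply] at this
    omega

theorem XT_eq_zero {m : ℕ} {b : Fin m → ℕ} {j : Fin m} (hj : b j = 0) {f : Rt m}
    (hf : f ∈ Sb b) : XT (some j) f = 0 := by
  ext1 α
  rw [XT_some, coeff_pderiv, coeff_zero]
  by_contra h
  have := hf _ (mem_support_iff.mpr (left_ne_zero_of_mul h)) j
  simp [hj] at this

theorem Sb_det {m r : ℕ} {b : Fin m → ℕ} (M : Matrix (Fin r) (Fin r) (Rt m))
    (h : ∀ a c, M a c ∈ Sb b) : M.det ∈ Sb (fun i => r * b i) := by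
  rw [Matrix.det_apply]
  refine Submodule.sum_mem _ fun σ _ => ?_
  have h1 := Sb_prod Finset.univ (b := fun _ => b) (f := fun c => M (σ c) c) fun c _ => h _ c
  have h2 : ∏ c, M (σ c) c ∈ Sb (fun i => r * b i) := Sb_mono (fun i => by simp) h1
  rcases Int.units_eq_one_or (Equiv.Perm.sign σ) with h3 | h3
  · rw [h3, one_smul]; exact h2
  · rw [h3, Units.neg_smul, one_smul]; exact Submodule.neg_mem _ h2

theorem XT_X {m : ℕ} (o : Option (Fin m)) (j : Fin m) (h : o ≠ some j) :
    XT o (X (some j) : Rt m) = 0 := by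
  classical
  cases o with
  | some i => rw [XT_some]; exact pderiv_X_of_ne (Ne.symm h)
  | none =>
    ext1 α
    rw [coeff_XT_none, coeff_X, coeff_zero]
    split_ifs with h1
    · subst h1; simp
    · simp

theorem XT_X_self {m : ℕ} (j : Fin m) : XT (some j) (X (some j) : Rt m) = 1 := by
  rw [XT_some, pderiv_X_self]

theorem exists_basis_coords {V : Type*} [AddCommGroup V] [Module ℂ V] {n : ℕ} (cb : Fin n → V) :
    ∃ (r : ℕ) (f : Fin r → V) (M : Fin n → Fin r → ℂ), r ≤ n ∧ LinearIndependent ℂ f ∧
      (∀ l, f l ∈ Submodule.span ℂ (Set.range cb)) ∧ (∀ t, cb t = ∑ l, M t l • f l) ∧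
      ∀ s : Fin r → ℂ, (∀ t, ∑ l, s l * M t l = 0) → ∀ l, s l = 0 := by
  classical
  let W : Submodule ℂ V := Submodule.span ℂ (Set.range cb)
  have : FiniteDimensional ℂ W := FiniteDimensional.span_of_finite ℂ (Set.finite_range cb)
  let B := Module.finBasis ℂ W
  let cW : Fin n → W := fun t => ⟨cb t, Submodule.subset_span ⟨t, rfl⟩⟩
  refine ⟨Module.finrank ℂ W, fun l => (B l : V), fun t l => B.repr (cW t) l, ?_, ?_, ?_, ?_, ?_⟩
  · have := finrank_range_le_card (R := ℂ) cb
    rw [Fintype.card_fin] at this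
    exact this
  · exact B.linearIndependent.map' W.subtype (Submodule.ker_subtype W)
  · exact fun l => (B l).2
  · intro t
    have := congrArg W.subtype (B.sum_repr (cW t))
    rw [map_sum] at this
    simp only [map_smul] at this
    exact this.symm
  · intro s hs l
    let Λ : W →ₗ[ℂ] ℂ := ∑ l, s l • B.coord l
    have h1 : ∀ t, Λ (cW t) = 0 := by
      intro t
      simpa [Λ] using hs t
    have h2 : Λ = 0 := by
      apply LinearMap.ext
      rintro ⟨x, hx⟩
      induction hx using Submodule.span_induction with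
      | mem x hx => obtain ⟨t, rfl⟩ := hx; exact h1 t
      | zero => exact map_zero Λ
      | add x y hx hy h h' =>
        have := map_add Λ ⟨x, hx⟩ ⟨y, hy⟩
        rw [h, h'] at this
        simpa using this
      | smul a x hx h =>
        have := map_smul Λ a ⟨x, hx⟩
        rw [h] at this
        simpa using this
    have h3 := LinearMap.congr_fun h2 (B l)
    simpa [Λ, Finsupp.single_apply] using h3

theorem exists_decomp {m : ℕ} {b : Fin m → ℕ} (j : Fin m) {P : Rt m} (hP : P ∈ Sb b) :
    ∃ (r : ℕ) (f : Fin r → Rt m) (g : Fin r → Polynomial ℂ), r ≤ b j + 1 ∧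
      LinearIndependent ℂ f ∧ LinearIndependent ℂ g ∧
      (∀ l, f l ∈ Sb (Function.update b j 0)) ∧
      P = ∑ l, f l * Polynomial.aeval (X (some j) : Rt m) (g l) := by
  classical
  let cb : Fin (b j + 1) → Rt m := fun t =>
    ∑ α ∈ P.support.filter (fun α => α (some j) = (t : ℕ)), monomial (α.erase (some j)) (coeff α P)
  have hcb : ∀ t, cb t ∈ Sb (Function.update b j 0) := by
    intro t
    refine Submodule.sum_mem _ fun α hα => Sb_monomial _ fun i => ?_
    by_cases hi : i = j
    · subst hi; simp
    · rw [Finsupp.erase_ne (by simpa using hi), Function.update_of_ne hi]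
      exact hP α (Finset.mem_filter.mp hα).1 i
  have hsum : P = ∑ t, cb t * X (some j) ^ (t : ℕ) := by
    have h1 : ∀ t : Fin (b j + 1), cb t * X (some j) ^ (t : ℕ) =
        ∑ α ∈ P.support.filter (fun α => α (some j) = (t : ℕ)), monomial α (coeff α P) := by
      intro t
      rw [Finset.sum_mul]
      refine Finset.sum_congr rfl fun α hα => ?_
      rw [X_pow_eq_monomial, monomial_mul, mul_one, ← (Finset.mem_filter.mp hα).2,
        Finsupp.erase_add_single]
    simp only [h1]
    rw [Fin.sum_univ_eq_sum_range (fun t => ∑ α ∈ P.support.filter (fun α => α (some j) = t),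
      (monomial α (coeff α P) : Rt m)) (b j + 1), Finset.sum_fiberwise_of_maps_to]
    · exact P.as_sum
    · intro α hα
      exact Finset.mem_range.mpr (Nat.lt_succ_of_le (hP α hα j))
  obtain ⟨r, f, M, hr, hf, hfW, hM, hM'⟩ := exists_basis_coords cb
  refine ⟨r, f, fun l => ∑ t : Fin (b j + 1), Polynomial.monomial t (M t l), hr, hf, ?_, ?_, ?_⟩
  · rw [Fintype.linearIndependent_iff]
    intro s hs
    refine hM' s fun t => ?_
    have := congrArg (fun p => Polynomial.coeff p t) hs
    simpa only [Polynomial.finsetSum_coeff, Polynomial.coeff_smul, Polynomial.coeff_monomial,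
      Fin.val_inj, Finset.sum_ite_eq', Finset.mem_univ, if_true, Polynomial.coeff_zero,
      smul_eq_mul] using this
  · intro l
    have : Submodule.span ℂ (Set.range cb) ≤ Sb (Function.update b j 0) :=
      Submodule.span_le.mpr (by rintro _ ⟨t, rfl⟩; exact hcb t)
    exact this (hfW l)
  · rw [hsum]
    simp only [map_sum, Polynomial.aeval_monomial, Finset.mul_sum]
    rw [Finset.sum_comm]
    refine Finset.sum_congr rfl fun t _ => ?_
    rw [hM t, Finset.sum_mul]
    refine Finset.sum_congr rfl fun l _ => ?_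
    rw [Algebra.smul_def]
    ring

theorem roth_tilde (m l : ℕ) (hl : l ≤ m) (ε : ℝ) (hε : 0 < ε) :
    ∃ κ : ℝ, 1 ≤ κ ∧ ∀ v : Option (Fin m) → ℝ, (∀ i, 0 < v i) →
      (∀ i, κ * v none ≤ v (some i)) → (∀ i j, i < j → κ * v (some i) ≤ v (some j)) →
      ∀ q : Ideal (Rt m), q.IsPrime → (∀ f ∈ Sb (0 : Fin m → ℕ), f ≠ 0 → f ∉ q) →
      (∀ j, ∀ g : Polynomial ℂ, g ≠ 0 → Polynomial.aeval (X (some j) : Rt m) g ∉ q) →
      ∀ (b : Fin m → ℕ) (Y θ : ℝ) (P : Rt m), (∀ i : Fin m, l ≤ i → b i = 0) → 0 ≤ Y →
      (∀ i, (b i : ℝ) * v (some i) ≤ Y) → P ≠ 0 → P ∈ Sb b → Idx XT v q θ P → θ ≤ ε * Y := by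
  induction l generalizing ε with
  | zero =>
    refine ⟨1, le_rfl, fun v hv _ _ q hq h0 _ b Y θ P hb hY _ hP hPb hI => ?_⟩
    have h1 : P ∉ q := h0 P (Sb_mono (fun i => by simp [hb i (Nat.zero_le _)]) hPb) hP
    by_contra h
    have : 0 ≤ ε * Y := by positivity
    exact h1 (hI [] (by rw [wtWord_nil]; linarith))
  | succ l ih =>
    set ε1 := min ε 1 with hε1
    have hε10 : 0 < ε1 := lt_min hε one_pos
    obtain ⟨κ0, hκ0, ih⟩ := ih (by omega) (ε1 ^ 2 / 64) (by positivity)
    refine ⟨max κ0 (2 / ε1), le_max_of_le_left hκ0,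
      fun v hv hv0 hv1 q hq h0 h1 b Y θ P hb hY hbY hP hPb hI => ?_⟩
    set κ := max κ0 (2 / ε1) with hκ
    have hκpos : 0 < κ := lt_of_lt_of_le one_pos (le_max_of_le_left hκ0)
    let j : Fin m := ⟨l, hl⟩
    obtain ⟨r, f, g, hr, hf, hg, hfb, hPeq⟩ := exists_decomp j hPb
    have hr0 : 0 < r := by
      rcases Nat.eq_zero_or_pos r with h | h
      · subst h; simp at hPeq; exact absurd hPeq hP
      · exact h
    let A : Polynomial ℂ →ₐ[ℂ] Rt m := Polynomial.aeval (X (some j) : Rt m)
    have hA : LinearMap.ker A.toLinearMap = ⊥ := by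
      rw [LinearMap.ker_eq_bot']
      intro p hp
      by_contra h
      apply h1 j p h
      have : A p = 0 := hp
      rw [show Polynomial.aeval (X (some j) : Rt m) p = A p from rfl, this]
      exact q.zero_mem
    have hg' : LinearIndependent ℂ (fun t => A (g t)) := hg.map' A.toLinearMap hA
    obtain ⟨β, hβ, hU⟩ := exists_wronskian XT XT_leib XT_const r f hf
    obtain ⟨γ, hγ, hV⟩ := exists_wronskian XT XT_leib XT_const r _ hg'
    set b' := Function.update b j 0 with hb'
    have hb'0 : ∀ i : Fin m, l ≤ i → b' i = 0 := by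
      intro i hi
      by_cases h : i = j
      · subst h; simp [hb']
      · rw [hb', Function.update_of_ne h]
        apply hb
        have : (i : ℕ) ≠ l := fun h' => h (Fin.ext h')
        omega
    have hSt : ∀ o, ∀ x ∈ (Sb b' : Set (Rt m)), XT o x ∈ (Sb b' : Set (Rt m)) :=
      fun o x hx => Sb_XT o hx
    have hRk : ∀ o, o ≠ some j → ∀ x ∈ (A.range : Set (Rt m)), XT o x = 0 := by
      rintro o ho _ ⟨p, rfl⟩
      have := leib_aeval (XT_leib o) (X (some j) : Rt m) p
      rw [XT_X o j ho, mul_zero] at this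
      exact this
    have hRt : ∀ o, ∀ x ∈ (A.range : Set (Rt m)), XT o x ∈ (A.range : Set (Rt m)) := by
      intro o x hx
      by_cases ho : o = some j
      · obtain ⟨p, rfl⟩ := hx
        subst ho
        refine ⟨Polynomial.derivative p, ?_⟩
        have := leib_aeval (XT_leib (some j)) (X (some j) : Rt m) p
        rw [XT_X_self, mul_one] at this
        exact this.symm
      · rw [hRk o ho x hx]; exact A.range.zero_mem
    have hβl : ∀ a, ∀ i : Fin m, some i ∈ β a → (i : ℕ) < l := by
      intro a i hi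
      by_contra h
      apply hU
      refine Matrix.det_eq_zero_of_row_eq_zero a fun t => ?_
      exact wordAct_eq_zero hSt (fun x hx => XT_eq_zero (hb'0 i (not_lt.mp h)) hx) _ hi (hfb t)
    have hγl : ∀ c, ∀ o ∈ γ c, o = some j := by
      intro c o ho
      by_contra h
      apply hV
      refine Matrix.det_eq_zero_of_row_eq_zero c fun t => ?_
      exact wordAct_eq_zero hRt (hRk o h) _ ho ⟨g t, rfl⟩
    set Um : Matrix (Fin r) (Fin r) (Rt m) := Matrix.of fun a t => wordAct XT (β a) (f t) with hUm
    set Vm : Matrix (Fin r) (Fin r) (Rt m) := Matrix.of fun a t => wordAct XT (γ a) (A (g t))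
      with hVm
    have hVr : ∀ c t, Vm c t ∈ A.range := fun c t => wordAct_mem hRt _ ⟨g t, rfl⟩
    have hE : ∀ a c, (Um * Vm.transpose) a c = wordAct XT (β a) (wordAct XT (γ c) P) := by
      intro a c
      rw [Matrix.mul_apply, hPeq, map_sum, map_sum]
      refine Finset.sum_congr rfl fun t _ => ?_
      rw [mul_comm (f t), wordAct_mul_of_kill XT_leib (γ c) (fun o ho => by
        rw [hγl c o ho]; exact XT_eq_zero (hb'0 j le_rfl) (hfb t)), mul_comm _ (f t),
        wordAct_mul_of_kill XT_leib (β a) (fun o ho => hRk o (by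
          rintro rfl
          exact lt_irrefl _ (hβl a j ho)) _
            (show wordAct XT (γ c) (Polynomial.aeval (X (some j) : Rt m) (g t)) ∈
              (A.range : Set (Rt m)) from hVr c t))]
      rfl
    have hrY : ((r : ℝ) - 1) * v (some j) ≤ Y := by
      refine le_trans ?_ (hbY j)
      have : (r : ℝ) ≤ b j + 1 := by exact_mod_cast hr
      have := hv (some j)
      gcongr
      linarith
    have hI2 : ∀ a c : Fin r, Idx XT v q (max (θ - (c : ℕ) * v (some j) - Y / κ) 0)
        ((Um * Vm.transpose) a c) := by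
      intro a c
      rcases le_total (θ - (c : ℕ) * v (some j) - Y / κ) 0 with h | h
      · rw [max_eq_right h]; exact idx_of_nonpos hv le_rfl _
      · rw [max_eq_left h, hE]
        refine ((hI.word (γ c)).word (β a)).mono ?_
        have e1 : wtWord v (γ c) ≤ (c : ℕ) * v (some j) := by
          refine (wtWord_le (t := v (some j)) _ fun o ho => by rw [hγl c o ho]).trans ?_
          have : ((γ c).length : ℝ) ≤ (c : ℕ) := by exact_mod_cast hγ c
          have := hv (some j)
          gcongr
        have e2 : wtWord v (β a) ≤ Y / κ := by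
          refine (wtWord_le (t := v (some j) / κ) _ fun o ho => ?_).trans ?_
          · rw [le_div_iff₀ hκpos, mul_comm]
            cases o with
            | none => exact hv0 j
            | some i => exact hv1 i j (hβl a i ho)
          · have h2 : ((β a).length : ℝ) ≤ (r : ℝ) - 1 := by
              have h3 := hβ a
              have h4 := a.2
              have : (β a).length + 1 ≤ r := by omega
              have : ((β a).length : ℝ) + 1 ≤ r := by exact_mod_cast this
              linarith
            have := hv (some j)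
            rw [← mul_div_assoc]
            gcongr
            exact le_trans (by gcongr) hrY
        linarith
    have hI3 := idx_det XT_leib hv _ hI2
    rw [Matrix.det_mul, Matrix.det_transpose] at hI3
    have hVq : Vm.det ∉ q := by
      have : Vm.det ∈ A.range := by
        rw [Matrix.det_apply']
        exact Subalgebra.sum_mem _ fun σ _ => Subalgebra.mul_mem _ (Subalgebra.intCast_mem _ _)
          (Subalgebra.prod_mem _ fun c _ => hVr _ c)
      obtain ⟨p, hp⟩ := this
      have hp' : A p = Vm.det := hp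
      rw [← hp']
      refine h1 j p fun h => hV ?_
      rw [← hp', h, map_zero]
    have hI4 := hI3.cancel XT_leib hv hq hVq
    have hκ0κ : κ0 ≤ κ := le_max_left _ _
    have h5 := ih v hv (fun i => le_trans (by have := hv none; gcongr) (hv0 i))
      (fun i i' h => le_trans (by have := hv (some i); gcongr) (hv1 i i' h)) q hq h0 h1
      (fun i => r * b' i) (r * Y) _ Um.det (fun i hi => by simp [hb'0 i hi]) (by positivity)
      (fun i => by
        have h6 : (b' i : ℝ) ≤ b i := by
          by_cases h : i = j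
          · subst h; simp [hb']
          · rw [hb', Function.update_of_ne h]
        have := hv (some i)
        push_cast
        rw [mul_assoc]
        gcongr
        exact le_trans (by gcongr) (hbY i))
      hU (Sb_det _ fun a t => wordAct_mem hSt _ (hfb t)) hI4
    by_contra hcon
    have h7 : ε1 * Y < θ := lt_of_le_of_lt (by gcongr; exact min_le_left _ _) (not_le.mp hcon)
    have h8 := roth_numeric (κ := κ) hε10 (min_le_right _ _) (le_max_right _ _) hr0
      (hv (some j)) hY hrY h7
    linarith

end Vale.Agent.P021
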