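import Vale.Agent.P021.Defs

/-! Generalized Wronskians for a family of derivations whose constants are the scalars. -/

namespace Vale.Agent.P021

theorem exists_wronskian {A ι : Type*} [CommRing A] [IsDomain A] [Algebra ℂ A]
    (X : ι → A →ₗ[ℂ] A) (hL : ∀ i f g, X i (f * g) = X i f * g + f * X i g)
    (hC : ∀ f g : A, g ≠ 0 → (∀ i, X i f * g = f * X i g) → ∃ c : ℂ, f = c • g)
    (r : ℕ) (f : Fin r → A) (hf : LinearIndependent ℂ f) :
    ∃ β : Fin r → List ι, (∀ a, (β a).length ≤ a) ∧
      (Matrix.of fun a l => wordAct X (β a) (f l)).det ≠ 0 := by
  induction r with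
  | zero => exact ⟨fun a => a.elim0, fun a => a.elim0, by simp⟩
  | succ r ih =>
    have hf' : LinearIndependent ℂ (fun l : Fin r => f l.castSucc) :=
      hf.comp _ (Fin.castSucc_injective r)
    obtain ⟨β, hβ, hW⟩ := ih _ hf'
    set M : Matrix (Fin r) (Fin r) A := Matrix.of fun a l => wordAct X (β a) (f l.castSucc)
      with hM
    set W := M.det with hWdef
    set g := f (Fin.last r) with hg
    set b : Fin r → A := fun a => wordAct X (β a) g with hb
    set c : Fin r → A := M.cramer b with hc
    have hcr : ∀ a, ∑ l, M a l * c l = W * b a := by
      intro a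
      have := congrFun (Matrix.mulVec_cramer M b) a
      simpa [Matrix.mulVec, dotProduct] using this
    have hinj : ∀ d : Fin r → A, (∀ a, ∑ l, M a l * d l = 0) → d = 0 := by
      intro d hd
      apply Matrix.eq_zero_of_mulVec_eq_zero hW
      funext a
      simpa [Matrix.mulVec, dotProduct] using hd a
    have key : ∃ γ : List ι, γ.length ≤ r ∧
        W * wordAct X γ g - ∑ l, wordAct X γ (f l.castSucc) * c l ≠ 0 := by
      by_contra hcon
      push Not at hcon
      have h1 : ∀ i l, X i (c l) * W = c l * X i W := by
        intro i
        have hz := hinj (fun l => X i (c l) * W - c l * X i W) (by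
          intro a
          have e1 := congrArg (X i) (hcr a)
          rw [map_sum, hL] at e1
          simp only [hL] at e1
          have e2 := hcon (β a ++ [i]) (by
            have := hβ a
            have := a.2
            simp only [List.length_append, List.length_singleton]
            omega)
          simp only [wordAct_append, wordAct_cons, wordAct_nil] at e2
          rw [Finset.sum_add_distrib] at e1
          have e3 : ∑ l, X i (M a l) * c l = W * X i (b a) := by
            rw [sub_eq_zero] at e2
            exact e2.symm
          have e4 : ∑ l, M a l * X i (c l) = X i W * b a := by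
            rw [e3] at e1
            linear_combination e1
          have e5 : ∑ l, M a l * (X i (c l) * W - c l * X i W) =
              (∑ l, M a l * X i (c l)) * W - (∑ l, M a l * c l) * X i W := by
            rw [Finset.sum_mul, Finset.sum_mul, ← Finset.sum_sub_distrib]
            exact Finset.sum_congr rfl fun l _ => by ring
          rw [e5, e4, hcr a]
          ring)
        intro l
        exact sub_eq_zero.mp (congrFun hz l)
      choose s hs using fun l => hC (c l) W hW (fun i => h1 i l)
      have e0 := hcon [] (by simp)
      simp only [wordAct_nil] at e0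
      have e1 : W * (g - ∑ l, s l • f l.castSucc) = 0 := by
        rw [← e0, mul_sub, Finset.mul_sum]
        congr 1
        refine Finset.sum_congr rfl fun l _ => ?_
        rw [hs l, mul_smul_comm, mul_smul_comm, mul_comm]
      have e2 : g = ∑ l, s l • f l.castSucc := sub_eq_zero.mp ((mul_eq_zero.mp e1).resolve_left hW)
      have hli := Fintype.linearIndependent_iff.mp hf (Fin.snoc (α := fun _ => ℂ) s (-1)) (by
        rw [Fin.sum_univ_castSucc]
        simp only [Fin.snoc_castSucc, Fin.snoc_last]
        rw [← e2, ← hg]
        simp) (Fin.last r)
      simp at hli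
    obtain ⟨γ, hγ, hΛ⟩ := key
    refine ⟨Fin.snoc (α := fun _ => List ι) β γ, ?_, ?_⟩
    · intro a
      refine Fin.lastCases ?_ (fun a => ?_) a
      · simpa using hγ
      · simpa using hβ a
    · intro hdet
      obtain ⟨u, hu0, hu⟩ := Matrix.exists_mulVec_eq_zero_iff.mpr hdet
      have hrow : ∀ a : Fin r, ∑ l, M a l * u l.castSucc + b a * u (Fin.last r) = 0 := by
        intro a
        have := congrFun hu a.castSucc
        simpa [Matrix.mulVec, dotProduct, Fin.sum_univ_castSucc, hM, hb, hg] using this
      have hlast : ∑ l : Fin r, wordAct X γ (f l.castSucc) * u l.castSucc +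
          wordAct X γ g * u (Fin.last r) = 0 := by
        have := congrFun hu (Fin.last r)
        simpa [Matrix.mulVec, dotProduct, Fin.sum_univ_castSucc] using this
      have hz := hinj (fun l => W * u l.castSucc + u (Fin.last r) * c l) (by
        intro a
        have e5 : ∑ l, M a l * (W * u l.castSucc + u (Fin.last r) * c l) =
            W * (∑ l, M a l * u l.castSucc) + u (Fin.last r) * ∑ l, M a l * c l := by
          rw [Finset.mul_sum, Finset.mul_sum, ← Finset.sum_add_distrib]
          exact Finset.sum_congr rfl fun l _ => by ring
        rw [e5, hcr a]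
        linear_combination W * hrow a)
      have hz' : ∀ l, W * u l.castSucc = -(u (Fin.last r) * c l) := fun l =>
        eq_neg_of_add_eq_zero_left (congrFun hz l)
      have hl0 : u (Fin.last r) = 0 := by
        have e6 : W * ∑ l : Fin r, wordAct X γ (f l.castSucc) * u l.castSucc =
            -(u (Fin.last r) * ∑ l, wordAct X γ (f l.castSucc) * c l) := by
          rw [Finset.mul_sum, Finset.mul_sum, ← Finset.sum_neg_distrib]
          refine Finset.sum_congr rfl fun l _ => ?_
          linear_combination wordAct X γ (f l.castSucc) * hz' l
        have e7 : u (Fin.last r) *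
            (W * wordAct X γ g - ∑ l, wordAct X γ (f l.castSucc) * c l) = 0 := by
          linear_combination W * hlast - e6
        exact (mul_eq_zero.mp e7).resolve_right hΛ
      apply hu0
      funext l
      refine Fin.lastCases hl0 (fun l => ?_) l
      have := hz' l
      rw [hl0, zero_mul, neg_zero] at this
      exact (mul_eq_zero.mp this).resolve_left hW

end Vale.Agent.P021
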