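import Vale.Agent.P021.Chart
import Vale.Agent.P021.Hilbert

/-! The zero estimate. -/

namespace Vale.Agent.P021

open MvPolynomial Filter

theorem exists_root_mem {R : Type*} [CommRing R] [Algebra ℂ R] {p : Ideal R} (hp : p.IsPrime)
    (x : R) (g : Polynomial ℂ) (hg : g ≠ 0) (h : Polynomial.aeval x g ∈ p) :
    ∃ a : ℂ, x - algebraMap ℂ R a ∈ p := by
  induction hd : g.natDegree generalizing g with
  | zero =>
    rw [Polynomial.eq_C_of_natDegree_eq_zero hd] at h hg
    rw [Polynomial.aeval_C] at h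
    have h1 : g.coeff 0 ≠ 0 := by simpa using hg
    exact absurd (Ideal.eq_top_of_isUnit_mem _ h
      ((isUnit_iff_ne_zero.mpr h1).map (algebraMap ℂ R))) hp.ne_top
  | succ d ih =>
    obtain ⟨a, ha⟩ := IsAlgClosed.exists_root g (by
      rw [Polynomial.degree_eq_natDegree hg, hd]; exact_mod_cast Nat.succ_ne_zero d)
    obtain ⟨g', rfl⟩ := Polynomial.dvd_iff_isRoot.mpr ha
    have hg' : g' ≠ 0 := right_ne_zero_of_mul hg
    rw [map_mul] at h
    rcases hp.mem_or_mem h with h1 | h1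
    · exact ⟨a, by simpa using h1⟩
    · refine ih g' hg' h1 ?_
      rw [Polynomial.natDegree_mul (Polynomial.X_sub_C_ne_zero a) hg',
        Polynomial.natDegree_X_sub_C] at hd
      omega

theorem wt_mapDomain_some {m : ℕ} (w : Option (Fin m) → ℝ) (α : Fin m →₀ ℕ) :
    wt w (α.mapDomain some) = wt (fun i => w (some i)) α := by
  unfold wt
  rw [Fintype.sum_option, Finsupp.mapDomain_of_notMem_range _ _ (by simp)]
  simp only [Finsupp.mapDomain_apply (Option.some_injective _)]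
  simp

theorem le_wt {ι : Type*} [Fintype ι] {w : ι → ℝ} (hw : ∀ i, 0 < w i) (α : ι →₀ ℕ) (i : ι) :
    (α i : ℝ) * w i ≤ wt w α :=
  Finset.single_le_sum (f := fun i => (α i : ℝ) * w i)
    (fun i _ => mul_nonneg (Nat.cast_nonneg _) (hw i).le) (Finset.mem_univ i)

theorem rename_mem_sup_Fk {m : ℕ} {θ c : Fin m → ℂ} {n : Fin m → ℕ} {v : Option (Fin m) → ℝ}
    {hv : ∀ i, 0 < v i} {k : ℕ} {μ : ℝ} {Q : MvPolynomial (Fin m) ℂ}
    (hQ : aeval (fun i => C ((k : ℂ) * θ i) + X i) Q ∈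
      ordGE (fun i => v (some i)) (fun i => hv (some i)) μ) :
    rename some Q ∈ Ideal.span {(X none - 1 : Rg m)} ⊔ Fk θ c n v hv k μ := by
  let T : MvPolynomial (Fin m) ℂ →ₐ[ℂ] Rg m := (chartInv θ c n k).comp
    ((rename some).comp (aeval (fun i => C ((k : ℂ) * θ i) + X i)))
  have h1 : T Q ∈ Fk θ c n v hv k μ := by
    rw [mem_Fk]
    simp only [T, AlgHom.comp_apply]
    rw [chart_chartInv, mem_ordGE]
    intro α hα
    obtain ⟨β, rfl, hβ⟩ := coeff_rename_ne_zero _ _ _ (mem_support_iff.mp hα)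
    rw [wt_mapDomain_some]
    exact mem_ordGE.mp hQ β (mem_support_iff.mpr hβ)
  have h2 : rename some Q - T Q ∈ Ideal.span {(X none - 1 : Rg m)} := by
    rw [← Ideal.Quotient.eq]
    have : (Ideal.Quotient.mkₐ ℂ (Ideal.span {(X none - 1 : Rg m)})).comp (rename some) =
        (Ideal.Quotient.mkₐ ℂ (Ideal.span {(X none - 1 : Rg m)})).comp T := by
      apply algHom_ext
      intro i
      simp only [AlgHom.comp_apply, Ideal.Quotient.mkₐ_eq_mk]
      rw [Ideal.Quotient.eq, Ideal.mem_span_singleton]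
      have : rename some (X i : MvPolynomial (Fin m) ℂ) - T (X i) =
          C (c i) * logAt (n i) (X none - 1) := by
        simp [T, chartInv]
        ring
      rw [this]
      exact Dvd.dvd.mul_left (dvd_logAt _ _) _
    exact AlgHom.congr_fun this Q
  have := Submodule.add_mem_sup h2 h1
  simpa using this

theorem finrank_le_one_of_point {m : ℕ} {I : Ideal (Rg m)} (a : Option (Fin m) → ℂ)
    (h : ∀ o, X o - C (a o) ∈ I) : Module.finrank ℂ (Rg m ⧸ I) ≤ 1 := by
  have key : ∀ f : Rg m, ∃ b : ℂ, C b - f ∈ I := by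
    intro f
    induction f using MvPolynomial.induction_on with
    | C b => exact ⟨b, by simp⟩
    | add p q hp hq =>
      obtain ⟨b, hb⟩ := hp
      obtain ⟨b', hb'⟩ := hq
      refine ⟨b + b', ?_⟩
      have := I.add_mem hb hb'
      rwa [show C b - p + (C b' - q) = C (b + b') - (p + q) by rw [map_add]; ring] at this
    | mul_X p o hp =>
      obtain ⟨b, hb⟩ := hp
      refine ⟨b * a o, ?_⟩
      have := I.sub_mem (I.mul_mem_right (X o) hb) (I.mul_mem_left (C b) (h o))
      rwa [show (C b - p) * X o - C b * (X o - C (a o)) = C (b * a o) - p * X o by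
        rw [map_mul]; ring] at this
  refine finrank_le_one (1 : Rg m ⧸ I) fun x => ?_
  obtain ⟨f, rfl⟩ := Ideal.Quotient.mk_surjective x
  obtain ⟨b, hb⟩ := key f
  refine ⟨b, ?_⟩
  rw [← Ideal.Quotient.eq.mpr hb, ← Algebra.algebraMap_eq_smul_one]
  rfl

theorem finrank_eq_zero_of_top {R : Type*} [CommRing R] [Algebra ℂ R] {I : Ideal R}
    (h : I = ⊤) : Module.finrank ℂ (R ⧸ I) = 0 := by
  have : Subsingleton (R ⧸ I) := Ideal.Quotient.subsingleton_iff.mpr h
  exact Module.finrank_zero_of_subsingleton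

theorem exists_eps (cs : ℝ) (hcs : cs < 1) (n : ℕ) : ∃ ε : ℝ, 0 < ε ∧ cs * (1 + ε) ^ n < 1 := by
  have h : ContinuousAt (fun ε : ℝ => cs * (1 + ε) ^ n) 0 := by fun_prop
  have h2 : ∀ᶠ ε in nhds (0 : ℝ), cs * (1 + ε) ^ n < 1 :=
    h.eventually (gt_mem_nhds (by simpa using hcs))
  obtain ⟨ε, h3, h4⟩ := ((h2.filter_mono nhdsWithin_le_nhds).and
    (self_mem_nhdsWithin (s := Set.Ioi (0 : ℝ)))).exists
  exact ⟨ε, h4, h3⟩

theorem zero_estimate (m : ℕ) (cs ρ : ℝ) (hcs : cs < 1) (hρ : 0 < ρ) :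
    ∃ κ : ℝ, 1 ≤ κ ∧ ∀ (K : ℕ) (w v : Option (Fin m) → ℝ) (θ c : Fin m → ℂ) (n : Fin m → ℕ),
      (∀ i, 0 < w i) → (∀ i, 0 < v i) → (∀ i, θ i ≠ 0) → (∀ i, c i ≠ 0) →
      (∀ i, v (some i) ≤ n i * v none) → v none ≤ w none →
      (∀ i, w (some i) ≤ v (some i)) → (∀ i, ρ * v (some i) ≤ w (some i)) →
      (∀ i, κ * v none ≤ v (some i)) → (∀ i j, i < j → κ * v (some i) ≤ v (some j)) →
      (K : ℝ) * ∏ i, w i ≤ cs * ∏ i, v i →
      ∀ (D τ : ℕ) (P : Rg m), P ≠ 0 → (∀ α ∈ P.support, wt w α ≤ D) →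
      (∀ k < K, ∀ α, wt v α < τ → coeff α (chart θ c n k P) = 0) →
      (K : ℝ) * (∏ i, w i) * τ ≤ D * ∏ i, v i := by
  classical
  obtain ⟨ε, hε, hε1⟩ := exists_eps (max cs 0) (max_lt hcs one_pos) (m + 1)
  obtain ⟨κ, hκ, hroth⟩ := roth_main m (ε * ρ / 2) (by positivity)
  refine ⟨κ, hκ, fun K w v θ c n hw hv hθ hc hn h0 hwv hρv hκ0 hκ1 hK D τ P hP hPD hPτ => ?_⟩
  have hPw : 0 < ∏ i, w i := Finset.prod_pos fun i _ => hw i
  have hPv : 0 < ∏ i, v i := Finset.prod_pos fun i _ => hv i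
  have hcs0 : 0 ≤ max cs 0 := le_max_right _ _
  have hK' : (K : ℝ) * ∏ i, w i ≤ max cs 0 * ∏ i, v i :=
    hK.trans (by gcongr; exact le_max_left _ _)
  -- the two auxiliary polynomials
  obtain ⟨L, hL0, P0, hP0, hP0D, hP0F⟩ : ∃ L : ℝ, 0 < L ∧ ∃ P0 : Rg m, P0 ≠ 0 ∧
      P0 ∈ degLT w L ∧ ∀ k : Fin K, P0 ∈ Fk θ c n v hv k ((1 + ε) * L) := by
    have h := eventually_cnt_lt hw hv (a := K) (b := 1) (s := 1 + ε) (t := 1) 0 0
      (Nat.cast_nonneg _) (by positivity) one_pos (by
        rw [Fintype.card_option, Fintype.card_fin]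
        calc (K : ℝ) * (1 + ε) ^ (m + 1) * ∏ i, w i = (1 + ε) ^ (m + 1) * (K * ∏ i, w i) := by ring
          _ ≤ (1 + ε) ^ (m + 1) * (max cs 0 * ∏ i, v i) := by gcongr
          _ = max cs 0 * (1 + ε) ^ (m + 1) * ∏ i, v i := by ring
          _ < 1 * 1 ^ (m + 1) * ∏ i, v i := by
            rw [one_pow, one_mul]; exact mul_lt_mul_of_pos_right hε1 hPv)
    obtain ⟨L, h1, h2⟩ := (h.and (eventually_gt_atTop 0)).exists
    simp only [add_zero, one_mul] at h1
    obtain ⟨P0, h3, h4, h5⟩ := exists_aux_poly hw hv (fun k : Fin K => chart θ c n k)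
      (D := L) (τ := (1 + ε) * L) (by exact_mod_cast h1)
    exact ⟨L, h2, P0, h3, h4, fun k => mem_Fk.mpr (h5 k)⟩
  obtain ⟨L', hL0', P1, hP1, hP1D, hP1y, hP1F⟩ : ∃ L : ℝ, 0 < L ∧ ∃ P1 : Rg m, P1 ≠ 0 ∧
      P1 ∈ degLT w L ∧ (∀ α ∈ P1.support, α none = 0) ∧
      ∀ k : Fin K, P1 ∈ Ideal.span {(X none - 1 : Rg m)} ⊔ Fk θ c n v hv k ((1 + ε) * L) := by
    have hw' : ∀ i, 0 < w (some i) := fun i => hw _
    have hv' : ∀ i, 0 < v (some i) := fun i => hv _
    have hPw' : 0 < ∏ i, w (some i) := Finset.prod_pos fun i _ => hw' i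
    have hPv' : 0 < ∏ i, v (some i) := Finset.prod_pos fun i _ => hv' i
    have hK2 : (K : ℝ) * ∏ i, w (some i) ≤ max cs 0 * ∏ i, v (some i) := by
      rw [Fintype.prod_option, Fintype.prod_option] at hK'
      apply le_of_mul_le_mul_left _ (hw none)
      calc w none * (K * ∏ i, w (some i)) = K * (w none * ∏ i, w (some i)) := by ring
        _ ≤ max cs 0 * (v none * ∏ i, v (some i)) := hK'
        _ ≤ max cs 0 * (w none * ∏ i, v (some i)) := by gcongr
        _ = _ := by ring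
    have h := eventually_cnt_lt hw' hv' (a := K) (b := 1) (s := 1 + ε) (t := 1) 0 0
      (Nat.cast_nonneg _) (by positivity) one_pos (by
        rw [Fintype.card_fin]
        calc (K : ℝ) * (1 + ε) ^ m * ∏ i, w (some i) =
            (1 + ε) ^ m * (K * ∏ i, w (some i)) := by ring
          _ ≤ (1 + ε) ^ (m + 1) * (max cs 0 * ∏ i, v (some i)) := by
            gcongr
            · linarith
            · omega
          _ = max cs 0 * (1 + ε) ^ (m + 1) * ∏ i, v (some i) := by ring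
          _ < 1 * 1 ^ m * ∏ i, v (some i) := by rw [one_pow, one_mul]; simpa [hPv'] using hε1)
    obtain ⟨L, h1, h2⟩ := (h.and (eventually_gt_atTop 0)).exists
    simp only [add_zero, one_mul] at h1
    obtain ⟨Q, h3, h4, h5⟩ := exists_aux_poly hw' hv'
      (fun k : Fin K => aeval (fun i => C (((k : ℕ) : ℂ) * θ i) + X i))
      (D := L) (τ := (1 + ε) * L) (by exact_mod_cast h1)
    refine ⟨L, h2, rename some Q, ?_, ?_, ?_, fun k => rename_mem_sup_Fk (h5 k)⟩
    · exact (map_ne_zero_iff _ (rename_injective _ (Option.some_injective _))).mpr h3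
    · rw [mem_degLT]
      intro α hα
      obtain ⟨β, rfl, hβ⟩ := coeff_rename_ne_zero _ _ _ (mem_support_iff.mp hα)
      rw [wt_mapDomain_some]
      exact mem_degLT.mp h4 β (mem_support_iff.mpr hβ)
    · intro α hα
      obtain ⟨β, rfl, hβ⟩ := coeff_rename_ne_zero _ _ _ (mem_support_iff.mp hα)
      exact Finsupp.mapDomain_of_notMem_range _ _ (by simp)
  have hY : ∀ (L : ℝ) (Q : Rg m), Q ∈ degLT w L → ∀ α ∈ Q.support, ∀ i,
      (α (some i) : ℝ) * v (some i) ≤ L / ρ := by
    intro L Q hQ α hα i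
    rw [le_div_iff₀ hρ]
    have h1 := le_wt hw α (some i)
    have h2 := mem_degLT.mp hQ α hα
    have h3 : (α (some i) : ℝ) * (ρ * v (some i)) ≤ α (some i) * w (some i) := by
      gcongr; exact hρv i
    linarith
  have hθY : ∀ L : ℝ, 0 < L → ε * ρ / 2 * (L / ρ) < ε * L := by
    intro L hL
    have : ε * ρ / 2 * (L / ρ) = ε * L / 2 := by field_simp
    rw [this]
    have : 0 < ε * L := by positivity
    linarith
  have hword : ∀ (L : ℝ) (Q : Rg m), Q ∈ degLT w L → ∀ β,
      wordAct (der c) β Q ∈ degLE w L := fun L Q hQ β =>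
    wordAct_mem (S := (degLE w L : Set (Rg m))) (fun o f hf => der_mem_degLE c hw hf o) β
      (degLE_of_degLT hQ)
  obtain ⟨C0, hC0⟩ := hilbert_compare (degLT w) (fun (k : Fin K) μ => Fk θ c n v hv k μ)
    (degLT_finite hw) (degLT_mono w) (fun L hL => monomial_mem_degLT (α := 0) 1 (by simpa using hL))
    (fun f => by
      obtain ⟨e, he⟩ := exists_degLE w f
      exact ⟨e, fun L g hg => degLE_mul_degLT he hg⟩)
    (fun k μ => Fk_finite k μ) (fun k μ h => Fk_top k h)
    (fun p hp => by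
      have hgood : ∀ (Q : Rg m) (E : ℝ), Q ∉ p → 0 < E → Q ∈ degLE w E →
          (∀ k : Fin K, Q ∈ p ⊔ Fk θ c n v hv k E) →
          ∃ P : Rg m, P ∉ p ∧ ∃ D : ℝ, 0 < D ∧ (∀ L, ∀ g ∈ degLT w L, P * g ∈ degLT w (L + D)) ∧
            ∀ (k : Fin K) μ, ∀ g ∈ Fk θ c n v hv k μ, P * g ∈ p ⊔ Fk θ c n v hv k (μ + D) :=
        fun Q E h1 h2 h3 h4 => ⟨Q, h1, E, h2, fun L g hg => degLE_mul_degLT h3 hg,
          fun k μ g hg => sup_Fk_mul (h4 k) hg⟩
      have hnone : (∀ (k : Fin K) μ, p ⊔ Fk θ c n v hv k μ = ⊤) →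
          ∀ μ, hord (fun k : Fin K => Fk θ c n v hv k μ) p ≤ 1 := by
        intro h μ
        unfold hord
        rw [Finset.sum_eq_zero fun k _ => finrank_eq_zero_of_top (h k μ)]
        exact zero_le_one
      by_cases hy : ∀ g : Polynomial ℂ, g ≠ 0 → Polynomial.aeval (X none : Rg m) g ∉ p
      · obtain ⟨β, hβ, hβp⟩ := (hroth v hv hκ0 hκ1 c hc p hp (L / ρ) (ε * L) P0 hP0
          (hY L P0 hP0D) (by positivity) (hθY L hL0)).1 hy
        refine Or.inr (hgood _ L hβp hL0 (hword L P0 hP0D β) fun k => ?_)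
        exact Submodule.mem_sup_right (Fk_anti (by linarith) (word_mem_Fk hn β (hP0F k)))
      push Not at hy
      obtain ⟨g, hg, hgp⟩ := hy
      obtain ⟨a, ha⟩ := exists_root_mem hp _ g hg hgp
      rw [algebraMap_eq] at ha
      by_cases ha1 : a = 1
      swap
      · refine Or.inl (hnone fun k μ => sup_Fk_eq_top ha (a := 1 - a) (sub_ne_zero.mpr (Ne.symm ha1))
          (o := none) ?_ μ)
        rw [map_sub, chart_X_none, chart_C, map_sub, map_one]
        ring
      subst ha1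
      rw [map_one] at ha
      have hsp : Ideal.span {(X none - 1 : Rg m)} ≤ p := (Ideal.span_singleton_le_iff_mem _).mpr ha
      by_cases hx : ∀ j, ∀ g : Polynomial ℂ, g ≠ 0 → Polynomial.aeval (X (some j) : Rg m) g ∉ p
      · obtain ⟨β, hβ0, hβ, hβp⟩ := (hroth v hv hκ0 hκ1 c hc p hp (L' / ρ) (ε * L') P1 hP1
          (hY L' P1 hP1D) (by positivity) (hθY L' hL0')).2 hx hP1y
        refine Or.inr (hgood _ L' hβp hL0' (hword L' P1 hP1D β) fun k => ?_)
        exact sup_le_sup hsp (Fk_anti (by linarith)) (word_mem_sup_Fk hn β hβ0 (hP1F k))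
      push Not at hx
      obtain ⟨j, g, hg, hgp⟩ := hx
      obtain ⟨b, hb⟩ := exists_root_mem hp _ g hg hgp
      rw [algebraMap_eq] at hb
      have hLp : ∀ i, C (c i) * logAt (n i) (X none - 1 : Rg m) ∈ p := fun i =>
        p.mul_mem_left _ (hsp (Ideal.mem_span_singleton.mpr (dvd_logAt _ _)))
      have htop : ∀ k : ℕ, (k : ℂ) * θ j ≠ b → ∀ μ, p ⊔ Fk θ c n v hv k μ = ⊤ := fun k hk μ =>
        sup_Fk_eq_top (p.sub_mem hb (hLp j)) (sub_ne_zero.mpr hk) (chart_xi θ c n k j b) μ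
      by_cases hk : ∀ k : Fin K, ((k : ℕ) : ℂ) * θ j ≠ b
      · exact Or.inl (hnone fun k μ => htop k (hk k) μ)
      push Not at hk
      obtain ⟨k0, hk0⟩ := hk
      have htop' : ∀ k : Fin K, k ≠ k0 → ∀ μ, p ⊔ Fk θ c n v hv k μ = ⊤ := by
        intro k hk
        refine htop k fun h => hk ?_
        have h1 : ((k : ℕ) : ℂ) = ((k0 : ℕ) : ℂ) := mul_right_cancel₀ (hθ j) (h.trans hk0.symm)
        exact Fin.ext (by exact_mod_cast h1)
      by_cases hi : ∀ i, X (some i) - C (((k0 : ℕ) : ℂ) * θ i) ∈ p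
      · refine Or.inl fun μ => ?_
        unfold hord
        rw [Finset.sum_eq_single k0 (fun k _ hk => finrank_eq_zero_of_top (htop' k hk μ))
          (by simp)]
        refine finrank_le_one_of_point
          (fun o : Option (Fin m) => o.elim 1 fun i => ((k0 : ℕ) : ℂ) * θ i) fun o => ?_
        cases o with
        | none => exact Submodule.mem_sup_left (by simpa using ha)
        | some i => exact Submodule.mem_sup_left (hi i)
      push Not at hi
      obtain ⟨i, hi⟩ := hi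
      refine Or.inr (hgood _ (w (some i)) hi (hw _) (Submodule.sub_mem _ (X_mem_degLE w _)
        (degLE_mono (hw _).le (C_mem_degLE w _))) fun k => ?_)
      by_cases hk : k = k0
      · subst hk
        have h1 : X (some i) - C (((k : ℕ) : ℂ) * θ i) - C (c i) * logAt (n i) (X none - 1) ∈
            Fk θ c n v hv k (w (some i)) := by
          rw [mem_Fk, chart_xi, sub_self, map_zero, zero_add]
          exact ordGE_anti (hwv i) (X_mem_ordGE _)
        have := Submodule.add_mem_sup (hLp i) h1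
        simpa using this
      · rw [htop' k hk]; trivial)
    P hP D τ (fun L g hg => degLE_mul_degLT hPD hg)
    (fun k μ g hg => Fk_mul (mem_Fk.mpr fun α hα => by
      by_contra h
      exact mem_support_iff.mp hα (hPτ k k.2 α (not_le.mp h))) hg)
  simp only [finrank_Fk, finrank_degLT, Finset.sum_const, Finset.card_univ, Fintype.card_fin,
    smul_eq_mul] at hC0
  by_contra hcon
  have h1 := eventually_cnt_lt hv hw (a := D) (b := τ * K) (s := 1) (t := 1) (D - τ + C0) (-τ)
    (Nat.cast_nonneg _) one_pos one_pos (by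
      simp only [one_pow, mul_one]
      linarith [not_le.mp hcon])
  obtain ⟨N, hN⟩ := (tendsto_natCast_atTop_atTop.eventually h1).exists
  have h2 := telescope_le (A := fun N => K * (cnt v (N - τ) : ℝ))
    (B := fun N => (cnt w (N - τ + C0) : ℝ)) (τ := τ) (D := D)
    (fun a b hab => by
      have : cnt v (a - τ) ≤ cnt v (b - τ) := cnt_mono hv (by
        have : (a : ℝ) ≤ b := by exact_mod_cast hab
        linarith)
      simp only
      gcongr)
    (fun a b hab => by
      have : cnt w (a - τ + C0) ≤ cnt w (b - τ + C0) := cnt_mono hw (by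
        have : (a : ℝ) ≤ b := by exact_mod_cast hab
        linarith)
      simp only
      exact_mod_cast this)
    (fun _ => Nat.cast_nonneg _)
    (fun a ha => by
      have : (a : ℝ) < τ := by exact_mod_cast ha
      rw [cnt_eq_zero hv (by linarith)]
      simp)
    (fun a => by
      have := hC0 (a - τ)
      push_cast
      rw [show (τ : ℝ) + a - τ = a - τ + τ by ring, show (D : ℝ) + a - τ + C0 = a - τ + C0 + D by ring]
      exact_mod_cast this) N
  push_cast at h2
  rw [show (1 : ℝ) * N + (D - τ + C0) = N + D - τ + C0 by ring,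
    show (1 : ℝ) * N + -τ = N - τ by ring] at hN
  linarith

end Vale.Agent.P021
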